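import Vale.Agent.Lib.P205.KB.KDefs

/-!
# Choice of the weight
-/

namespace Vale.Agent.Lib.P205.KB

open Real

/-- The weights `p = 2 N`, `q = 2 N + 1` are good as soon as `p ≥ 4` and `4 d ≤ p sqrt mm`. -/
theorem kgood_of_four_le (p d mm : ℝ) (hp : 4 ≤ p) (hd : 4 * d ≤ p * sqrt mm) :
    KGood p (1 - p ^ 2 / (p + 1) ^ 2) d mm := by
  have hq : 0 < (p + 1) ^ 2 := by positivity
  have heq : 1 - p ^ 2 / (p + 1) ^ 2 = (2 * p + 1) / (p + 1) ^ 2 := by
    field_simp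
    ring
  refine ⟨by linarith, ?_, ?_, ?_, hd⟩
  · rw [heq]
    apply div_nonneg (by linarith) hq.le
  · rw [heq, div_le_iff₀ hq]
    nlinarith
  · rw [heq, div_mul_eq_mul_div, div_le_iff₀ hq]
    nlinarith

/-- Closed form of the slow-down expression: the weight cancels. -/
theorem slow_closed (a em eM mm mM p : ℝ) (hem : 0 < em) (heM : 0 < eM) (hmM : 0 < mM)
    (hp : 0 < p) :
    kC p mm mM eM / 2 * ((kV1 p mm eM * (a / 4) / 2 - 1 / 4) / kV2 p mM em) =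
      mm * em / (64 * mM * eM) * (p * (sqrt mm * a / (32 * eM)) - 1 / 4) := by
  have hS : 0 < sqrt mM := Real.sqrt_pos.mpr hmM
  have hSS : sqrt mM * sqrt mM = mM := Real.mul_self_sqrt hmM.le
  have h1 : mm * em / (64 * mM * eM) = mm * em / (64 * (sqrt mM * sqrt mM) * eM) := by
    rw [hSS]
  rw [h1]
  unfold kC kV1 kV2
  field_simp
  ring

/-- For a large natural number `N` the weights `p = 2 N`, `q = 2 N + 1` are good and the
slow-down between `κ = 0` and `κ = 1` exceeds a full turn. -/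
theorem klein_consts (a em eM d mm mM : ℝ) (ha : 0 < a) (hem : 0 < em) (heM : em ≤ eM)
    (hd : 0 ≤ d) (hmm : 0 < mm) (hmM : mm ≤ mM) :
    ∃ N : ℕ, 2 ≤ N ∧
      KGood (2 * (N : ℝ)) (1 - (2 * (N : ℝ)) ^ 2 / (2 * (N : ℝ) + 1) ^ 2) d mm ∧
      2 * π ≤ exp (-(kL0 em mm mM * a)) * (kC (2 * (N : ℝ)) mm mM eM / 2 *
        ((kV1 (2 * (N : ℝ)) mm eM * (a / 4) / 2 - 1 / 4) / kV2 (2 * (N : ℝ)) mM em)) := by
  have _hd0 : 0 ≤ d := hd
  have heM0 : 0 < eM := lt_of_lt_of_le hem heM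
  have hmM0 : 0 < mM := lt_of_lt_of_le hmm hmM
  have hs : 0 < sqrt mm := Real.sqrt_pos.mpr hmm
  have hK0 : 0 < mm * em / (64 * mM * eM) := by positivity
  have hc0 : 0 < sqrt mm * a / (32 * eM) := by positivity
  obtain ⟨N1, hN1⟩ := exists_nat_ge (2 * d / sqrt mm)
  obtain ⟨N2, hN2⟩ := exists_nat_ge
    ((2 * π * exp (kL0 em mm mM * a) / (mm * em / (64 * mM * eM)) + 1 / 4) /
      (sqrt mm * a / (32 * eM)))
  have h2 : (2 : ℕ) ≤ max 2 (max N1 N2) := le_max_left _ _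
  have hN1' : N1 ≤ max 2 (max N1 N2) := le_trans (le_max_left _ _) (le_max_right _ _)
  have hN2' : N2 ≤ max 2 (max N1 N2) := le_trans (le_max_right _ _) (le_max_right _ _)
  generalize max 2 (max N1 N2) = N at h2 hN1' hN2'
  have h2r : (2 : ℝ) ≤ (N : ℝ) := by exact_mod_cast h2
  have hN1r : (N1 : ℝ) ≤ (N : ℝ) := by exact_mod_cast hN1'
  have hN2r : (N2 : ℝ) ≤ (N : ℝ) := by exact_mod_cast hN2'
  refine ⟨N, h2, ?_, ?_⟩
  · apply kgood_of_four_le
    · linarith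
    · have h3 : 2 * d / sqrt mm ≤ (N : ℝ) := le_trans hN1 hN1r
      rw [div_le_iff₀ hs] at h3
      linarith
  · rw [slow_closed a em eM mm mM (2 * (N : ℝ)) hem heM0 hmM0 (by linarith), Real.exp_neg,
      inv_mul_eq_div, le_div_iff₀ (Real.exp_pos _)]
    have h3 : (2 * π * exp (kL0 em mm mM * a) / (mm * em / (64 * mM * eM)) + 1 / 4) /
        (sqrt mm * a / (32 * eM)) ≤ 2 * (N : ℝ) := by
      have : (N : ℝ) ≤ 2 * (N : ℝ) := by linarith
      exact le_trans (le_trans hN2 hN2r) this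
    rw [div_le_iff₀ hc0] at h3
    have h4 : 2 * π * exp (kL0 em mm mM * a) / (mm * em / (64 * mM * eM)) ≤
        2 * (N : ℝ) * (sqrt mm * a / (32 * eM)) - 1 / 4 := by linarith
    rw [div_le_iff₀ hK0] at h4
    linarith

end Vale.Agent.Lib.P205.KB
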