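import Vale.Agent.Lib.P205.KB.KPhiBounds

/-!
# The slow-down between parameter zero and parameter one
-/

namespace Vale.Agent.Lib.P205.KB

open Real

/-- The right-hand side at `κ = 1` is smaller than at `κ = 0` by at least
`kC θ^2 sin^2 (2 φ)`. -/
theorem phiK_gap {p ε : ℝ} {e de m θ : ℝ → ℝ} {em eM d mm mM : ℝ}
    (hb : KBounds e de m θ em eM d mm mM) (hg : KGood p ε d mm) (x φ : ℝ) :
    kC p mm mM eM * (θ x ^ 2 * sin (2 * φ) ^ 2) ≤
      PhiK p ε e de m θ 0 x φ - PhiK p ε e de m θ 1 x φ := by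
  have hp : 0 < p := hg.p_pos
  have hmm : 0 < mm := hb.mm_pos
  have hmx : mm ≤ m x := hb.m_ge x
  have hmM : 0 < mM := lt_of_lt_of_le hmm (le_trans hmx (hb.m_le x))
  have hS : 0 < sqrt mM := Real.sqrt_pos.mpr hmM
  have hex : 0 < e x := lt_of_lt_of_le hb.em_pos (hb.e_ge x)
  have heM : e x ≤ eM := hb.e_le x
  have heMpos : 0 < eM := lt_of_lt_of_le hex heM
  have hc2 : cos φ ^ 2 ≤ 1 := Real.cos_sq_le_one φ
  have hc0 : 0 ≤ cos φ ^ 2 := sq_nonneg _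
  obtain ⟨D, hD⟩ : ∃ D : ℝ, D = 1 - ε * cos φ ^ 2 := ⟨_, rfl⟩
  have hD1 : D ≤ 1 := by
    have := mul_nonneg hg.eps_nonneg hc0
    linarith
  have hD2 : 1 / 2 ≤ D := by
    have := mul_le_mul hg.eps_le hc2 hc0 (by norm_num : (0 : ℝ) ≤ 1 / 2)
    linarith
  have hDpos : 0 < D := by linarith
  obtain ⟨t, ht⟩ : ∃ t : ℝ, t = θ x ^ 2 * (sin φ * cos φ) ^ 2 := ⟨_, rfl⟩
  have ht0 : 0 ≤ t := by
    rw [ht]
    positivity
  have h0mem : (0 : ℝ) ∈ Set.Icc (0 : ℝ) 1 := ⟨le_refl _, zero_le_one⟩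
  have h1mem : (1 : ℝ) ∈ Set.Icc (0 : ℝ) 1 := ⟨zero_le_one, le_refl _⟩
  have hR0ge := radK_ge hb hg h0mem x φ
  have hR1ge := radK_ge hb hg h1mem x φ
  have hR0le := radK_le hb hg h0mem x φ
  have hR1le := radK_le hb hg h1mem x φ
  have hdiff : RadK p ε de m θ 0 x φ - RadK p ε de m θ 1 x φ = D * (p ^ 2 * m x) * t := by
    rw [hD, ht]
    unfold RadK
    ring
  obtain ⟨R0, hR0⟩ : ∃ R0 : ℝ, R0 = RadK p ε de m θ 0 x φ := ⟨_, rfl⟩
  obtain ⟨R1, hR1⟩ : ∃ R1 : ℝ, R1 = RadK p ε de m θ 1 x φ := ⟨_, rfl⟩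
  rw [← hR0] at hR0ge hR0le hdiff
  rw [← hR1] at hR1ge hR1le hdiff
  have hpm : 0 < p ^ 2 * mm / 4 := by positivity
  have hR0pos : 0 < R0 := lt_of_lt_of_le hpm hR0ge
  have hR1pos : 0 < R1 := lt_of_lt_of_le hpm hR1ge
  have hmxpos : 0 < m x := lt_of_lt_of_le hmm hmx
  have hR10 : R1 ≤ R0 := by
    have : 0 ≤ D * (p ^ 2 * m x) * t := by positivity
    linarith
  obtain ⟨A, hA⟩ : ∃ A : ℝ, A = sqrt R0 := ⟨_, rfl⟩
  obtain ⟨B, hB⟩ : ∃ B : ℝ, B = sqrt R1 := ⟨_, rfl⟩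
  have hA0 : 0 ≤ A := by
    rw [hA]
    exact Real.sqrt_nonneg _
  have hB0 : 0 ≤ B := by
    rw [hB]
    exact Real.sqrt_nonneg _
  have hAsq : A ^ 2 = R0 := by
    rw [hA]
    exact Real.sq_sqrt hR0pos.le
  have hBsq : B ^ 2 = R1 := by
    rw [hB]
    exact Real.sq_sqrt hR1pos.le
  have hBA : B ≤ A := by
    rw [hA, hB]
    exact Real.sqrt_le_sqrt hR10
  have hSsq : sqrt mM ^ 2 = mM := Real.sq_sqrt hmM.le
  have hpS : 0 < p * sqrt mM := mul_pos hp hS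
  have hAle : A ≤ p * sqrt mM := by
    have h1 : A ^ 2 ≤ (p * sqrt mM) ^ 2 := by
      rw [hAsq, mul_pow, hSsq]
      exact hR0le
    exact le_of_sq_le_sq h1 hpS.le
  have hBle : B ≤ p * sqrt mM := le_trans hBA hAle
  have hprod : (A - B) * (A + B) = D * (p ^ 2 * m x) * t := by
    have : (A - B) * (A + B) = A ^ 2 - B ^ 2 := by ring
    rw [this, hAsq, hBsq]
    exact hdiff
  have hmain : D * p * m x * t ≤ (A - B) * (2 * sqrt mM) := by
    have h1 : (A - B) * (A + B) ≤ (A - B) * (2 * (p * sqrt mM)) :=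
      mul_le_mul_of_nonneg_left (by linarith) (by linarith)
    rw [hprod] at h1
    have h2 : p * (D * p * m x * t) ≤ p * ((A - B) * (2 * sqrt mM)) := by
      have e1 : p * (D * p * m x * t) = D * (p ^ 2 * m x) * t := by ring
      have e2 : p * ((A - B) * (2 * sqrt mM)) = (A - B) * (2 * (p * sqrt mM)) := by ring
      rw [e1, e2]
      exact h1
    exact le_of_mul_le_mul_left h2 hp
  have hPhi : PhiK p ε e de m θ 0 x φ - PhiK p ε e de m θ 1 x φ = (A - B) / (e x * D) := by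
    unfold PhiK
    rw [← hR0, ← hR1, ← hA, ← hB, ← hD]
    ring
  rw [hPhi, Real.sin_two_mul, le_div_iff₀ (mul_pos hex hDpos)]
  have hlhs : kC p mm mM eM * (θ x ^ 2 * (2 * sin φ * cos φ) ^ 2) * (e x * D)
      = (p * mm * t * D / (2 * sqrt mM)) * (e x / eM) := by
    unfold kC
    rw [ht]
    field_simp
    ring
  rw [hlhs]
  have hfac : 0 ≤ p * mm * t * D / (2 * sqrt mM) := by positivity
  have hratio : e x / eM ≤ 1 := (div_le_one heMpos).mpr heM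
  have step1 : (p * mm * t * D / (2 * sqrt mM)) * (e x / eM) ≤ p * mm * t * D / (2 * sqrt mM) := by
    have := mul_le_mul_of_nonneg_left hratio hfac
    linarith
  have step2 : p * mm * t * D / (2 * sqrt mM) ≤ D * p * m x * t / (2 * sqrt mM) := by
    apply div_le_div_of_nonneg_right _ (by positivity : (0 : ℝ) ≤ 2 * sqrt mM)
    have h3 : 0 ≤ p * t * D := by positivity
    have := mul_le_mul_of_nonneg_left hmx h3
    linarith
  have step3 : D * p * m x * t / (2 * sqrt mM) ≤ A - B := by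
    rw [div_le_iff₀ (by positivity : (0 : ℝ) < 2 * sqrt mM)]
    exact hmain
  linarith

end Vale.Agent.Lib.P205.KB
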