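import Vale.Agent.Lib.P205.KB.KPhiBounds

/-!
# Lipschitz dependence of the right-hand side on the angle and on the parameter
-/

namespace Vale.Agent.Lib.P205.KB

open Real

/-- Difference of two products. -/
private theorem kphilip_prod (a a' b b' : ℝ) :
    |a * b - a' * b'| ≤ |a - a'| * |b| + |a'| * |b - b'| := by
  have e : a * b - a' * b' = (a - a') * b + a' * (b - b') := by ring
  rw [e]
  calc |(a - a') * b + a' * (b - b')| ≤ |(a - a') * b| + |a' * (b - b')| := abs_add_le _ _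
    _ = |a - a'| * |b| + |a'| * |b - b'| := by rw [abs_mul, abs_mul]

/-- Difference of two products, with bounds. -/
private theorem kphilip_prod_le {a a' b b' A B Ca Cb : ℝ} (h1 : |a - a'| ≤ A) (h2 : |b| ≤ Cb)
    (h3 : |a'| ≤ Ca) (h4 : |b - b'| ≤ B) :
    |a * b - a' * b'| ≤ A * Cb + Ca * B := by
  have hA : 0 ≤ A := le_trans (abs_nonneg _) h1
  have hCa : 0 ≤ Ca := le_trans (abs_nonneg _) h3
  calc |a * b - a' * b'| ≤ |a - a'| * |b| + |a'| * |b - b'| := kphilip_prod a a' b b'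
    _ ≤ A * Cb + Ca * B :=
      add_le_add (mul_le_mul h1 h2 (abs_nonneg _) hA) (mul_le_mul h3 h4 (abs_nonneg _) hCa)

/-- The product of sine and cosine is Lipschitz. -/
private theorem kphilip_trig_u (φ φ' : ℝ) :
    |sin φ * cos φ - sin φ' * cos φ'| ≤ 2 * |φ - φ'| := by
  have h := kphilip_prod_le (Real.abs_sin_sub_sin_le φ φ') (abs_cos_le_one φ)
    (abs_sin_le_one φ') (Real.abs_cos_sub_cos_le φ φ')
  linarith

/-- The square of the cosine is Lipschitz. -/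
private theorem kphilip_trig_w (φ φ' : ℝ) :
    |cos φ ^ 2 - cos φ' ^ 2| ≤ 2 * |φ - φ'| := by
  have h := kphilip_prod_le (Real.abs_cos_sub_cos_le φ φ') (abs_cos_le_one φ)
    (abs_cos_le_one φ') (Real.abs_cos_sub_cos_le φ φ')
  have e : cos φ ^ 2 - cos φ' ^ 2 = cos φ * cos φ - cos φ' * cos φ' := by ring
  rw [e]
  linarith

/-- Squares of numbers of size at most one. -/
private theorem kphilip_sq {u u' t : ℝ} (hu : |u| ≤ 1) (hu' : |u'| ≤ 1)
    (h : |u - u'| ≤ 2 * t) : |u ^ 2 - u' ^ 2| ≤ 4 * t := by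
  have h' := kphilip_prod_le h hu hu' h
  have e : u ^ 2 - u' ^ 2 = u * u - u' * u' := by ring
  rw [e]
  linarith

/-- The square root is Lipschitz away from zero. -/
private theorem kphilip_sqrt {l a b : ℝ} (hl : 0 < l) (ha : l ^ 2 ≤ a) (hb : l ^ 2 ≤ b) :
    |sqrt a - sqrt b| * (2 * l) ≤ |a - b| := by
  have ha0 : 0 ≤ a := le_trans (sq_nonneg l) ha
  have hb0 : 0 ≤ b := le_trans (sq_nonneg l) hb
  have h1 : l ≤ sqrt a := (Real.le_sqrt' hl).mpr ha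
  have h2 : l ≤ sqrt b := (Real.le_sqrt' hl).mpr hb
  have e1 : (sqrt a - sqrt b) * (sqrt a + sqrt b) = sqrt a ^ 2 - sqrt b ^ 2 := by ring
  have e : a - b = (sqrt a - sqrt b) * (sqrt a + sqrt b) := by
    rw [e1, Real.sq_sqrt ha0, Real.sq_sqrt hb0]
  have h3 : 2 * l ≤ |sqrt a + sqrt b| := by
    rw [abs_of_nonneg (by linarith)]
    linarith
  calc |sqrt a - sqrt b| * (2 * l) ≤ |sqrt a - sqrt b| * |sqrt a + sqrt b| :=
        mul_le_mul_of_nonneg_left h3 (abs_nonneg _)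
    _ = |(sqrt a - sqrt b) * (sqrt a + sqrt b)| := (abs_mul _ _).symm
    _ = |a - b| := by rw [← e]

/-- Difference of two quotients. -/
private theorem kphilip_quot {E D D' N N' em A B t : ℝ} (hem : 0 < em) (hE : em ≤ E)
    (hD : 1 / 2 ≤ D) (hD' : 1 / 2 ≤ D') (hD1' : D' ≤ 1)
    (hN : |N - N'| ≤ A) (hN' : |N'| ≤ B) (hDD : |D - D'| ≤ t) :
    |N / (E * D) - N' / (E * D')| ≤ 4 / em * (A + B * t) := by
  have hE0 : 0 < E := lt_of_lt_of_le hem hE
  have hD0 : 0 < D := by linarith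
  have hD0' : 0 < D' := by linarith
  have e : N / (E * D) - N' / (E * D') = (N * D' - N' * D) / (E * D * D') := by
    field_simp
  have hden : 0 < E * D * D' := mul_pos (mul_pos hE0 hD0) hD0'
  have hnum : |N * D' - N' * D| ≤ A + B * t := by
    have h := kphilip_prod_le hN (by rw [abs_of_pos hD0']; exact hD1' : |D'| ≤ 1) hN'
      (by rw [abs_sub_comm]; exact hDD : |D' - D| ≤ t)
    linarith
  have hden2 : em / 4 ≤ E * D * D' := by
    have h1 : (1 : ℝ) / 4 ≤ D * D' := by nlinarith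
    calc em / 4 = em * (1 / 4) := by ring
      _ ≤ E * (D * D') := mul_le_mul hE h1 (by norm_num) hE0.le
      _ = E * D * D' := by ring
  have hAB : 0 ≤ A + B * t := le_trans (abs_nonneg _) hnum
  have hc : 0 ≤ 4 / em * (A + B * t) := mul_nonneg (div_nonneg (by norm_num) hem.le) hAB
  rw [e, abs_div, abs_of_pos hden, div_le_iff₀ hden]
  calc |N * D' - N' * D| ≤ A + B * t := hnum
    _ = 4 / em * (A + B * t) * (em / 4) := by
        have hem' : em ≠ 0 := hem.ne'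
        field_simp
    _ ≤ 4 / em * (A + B * t) * (E * D * D') := mul_le_mul_of_nonneg_left hden2 hc

/-- The estimate over plain real numbers. -/
private theorem kphilip_core {p ε E δ M k em d mm mM u u' w w' t R R' : ℝ}
    (hp : 0 < p) (hε0 : 0 ≤ ε) (hε : ε ≤ 1 / 2) (hem : 0 < em) (hE : em ≤ E)
    (hδ : |δ| ≤ d) (hmm : 0 < mm) (hM : mm ≤ M) (hM' : M ≤ mM) (hk0 : 0 ≤ k) (hk1 : k ≤ 1)
    (hu : |u| ≤ 1) (hu' : |u'| ≤ 1) (hw0 : 0 ≤ w) (hw1 : w ≤ 1) (hw0' : 0 ≤ w')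
    (hw1' : w' ≤ 1) (huu : |u - u'| ≤ 2 * t) (hww : |w - w'| ≤ 2 * t)
    (hR : R = (1 - ε * w) * (p ^ 2 * M) * (1 - k * u ^ 2) - δ ^ 2 * (1 - ε))
    (hR' : R' = (1 - ε * w') * (p ^ 2 * M) * (1 - k * u' ^ 2) - δ ^ 2 * (1 - ε))
    (hRl : p ^ 2 * mm / 4 ≤ R) (hRl' : p ^ 2 * mm / 4 ≤ R') (hRu' : R' ≤ p ^ 2 * mM) :
    |(ε * δ * u + sqrt R) / (E * (1 - ε * w)) - (ε * δ * u' + sqrt R') / (E * (1 - ε * w'))|
      ≤ 4 / em * (2 * d + 5 * p * mM / sqrt mm + p * sqrt mM) * t := by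
  have ht : 0 ≤ t := by
    have h := le_trans (abs_nonneg _) huu
    linarith
  have hd : 0 ≤ d := le_trans (abs_nonneg _) hδ
  have hmM : mm ≤ mM := le_trans hM hM'
  have hmM0 : 0 < mM := lt_of_lt_of_le hmm hmM
  have hM0 : 0 < M := lt_of_lt_of_le hmm hM
  have hsm : 0 < sqrt mm := Real.sqrt_pos.mpr hmm
  have hp2 : 0 < p ^ 2 := pow_pos hp 2
  have hεw : 0 ≤ ε * w := mul_nonneg hε0 hw0
  have hεw' : 0 ≤ ε * w' := mul_nonneg hε0 hw0'
  have hεw1 : ε * w ≤ 1 / 2 := by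
    calc ε * w ≤ 1 / 2 * 1 := mul_le_mul hε hw1 hw0 (by norm_num)
      _ = 1 / 2 := by ring
  have hεw1' : ε * w' ≤ 1 / 2 := by
    calc ε * w' ≤ 1 / 2 * 1 := mul_le_mul hε hw1' hw0' (by norm_num)
      _ = 1 / 2 := by ring
  have hD : 1 / 2 ≤ 1 - ε * w := by linarith
  have hD' : 1 / 2 ≤ 1 - ε * w' := by linarith
  have hD1' : 1 - ε * w' ≤ 1 := by linarith
  have hDD : |(1 - ε * w) - (1 - ε * w')| ≤ t := by
    have e : (1 - ε * w) - (1 - ε * w') = -(ε * (w - w')) := by ring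
    rw [e, abs_neg, abs_mul, abs_of_nonneg hε0]
    calc ε * |w - w'| ≤ 1 / 2 * (2 * t) := mul_le_mul hε hww (abs_nonneg _) (by norm_num)
      _ = t := by ring
  have hu2 : u ^ 2 ≤ 1 := by
    have h := abs_le.mp hu
    nlinarith
  have hku : k * u ^ 2 ≤ 1 := by
    calc k * u ^ 2 ≤ 1 * 1 := mul_le_mul hk1 hu2 (sq_nonneg u) (by norm_num)
      _ = 1 := by ring
  have hku0 : 0 ≤ k * u ^ 2 := mul_nonneg hk0 (sq_nonneg u)
  have hT0 : 0 ≤ 1 - k * u ^ 2 := by linarith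
  have hT1 : 1 - k * u ^ 2 ≤ 1 := by linarith
  have hTT : |(1 - k * u ^ 2) - (1 - k * u' ^ 2)| ≤ 4 * t := by
    have e : (1 - k * u ^ 2) - (1 - k * u' ^ 2) = -(k * (u ^ 2 - u' ^ 2)) := by ring
    rw [e, abs_neg, abs_mul, abs_of_nonneg hk0]
    calc k * |u ^ 2 - u' ^ 2| ≤ 1 * (4 * t) :=
          mul_le_mul hk1 (kphilip_sq hu hu' huu) (abs_nonneg _) (by norm_num)
      _ = 4 * t := by ring
  have hDT : |(1 - ε * w) * (1 - k * u ^ 2) - (1 - ε * w') * (1 - k * u' ^ 2)| ≤ 5 * t := by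
    have h := kphilip_prod_le hDD (by rw [abs_of_nonneg hT0]; exact hT1 : |1 - k * u ^ 2| ≤ 1)
      (by rw [abs_of_nonneg (by linarith)]; exact hD1' : |1 - ε * w'| ≤ 1) hTT
    linarith
  have hRR : |R - R'| ≤ 5 * p ^ 2 * mM * t := by
    have e : R - R' = p ^ 2 * M *
        ((1 - ε * w) * (1 - k * u ^ 2) - (1 - ε * w') * (1 - k * u' ^ 2)) := by
      rw [hR, hR']
      ring
    rw [e, abs_mul, abs_of_pos (mul_pos hp2 hM0)]
    calc p ^ 2 * M * |(1 - ε * w) * (1 - k * u ^ 2) - (1 - ε * w') * (1 - k * u' ^ 2)|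
        ≤ p ^ 2 * mM * (5 * t) :=
          mul_le_mul (mul_le_mul_of_nonneg_left hM' hp2.le) hDT (abs_nonneg _)
            (mul_nonneg hp2.le hmM0.le)
      _ = 5 * p ^ 2 * mM * t := by ring
  have hl : 0 < p * sqrt mm / 2 := by
    have h := mul_pos hp hsm
    linarith
  have hl2 : (p * sqrt mm / 2) ^ 2 = p ^ 2 * mm / 4 := by
    have h := Real.sq_sqrt hmm.le
    calc (p * sqrt mm / 2) ^ 2 = p ^ 2 * sqrt mm ^ 2 / 4 := by ring
      _ = p ^ 2 * mm / 4 := by rw [h]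
  have hsq : |sqrt R - sqrt R'| * (2 * (p * sqrt mm / 2)) ≤ |R - R'| :=
    kphilip_sqrt hl (by rw [hl2]; exact hRl) (by rw [hl2]; exact hRl')
  have hps : 0 < p * sqrt mm := mul_pos hp hsm
  have hsq1 : |sqrt R - sqrt R'| * (p * sqrt mm) ≤ 5 * p ^ 2 * mM * t := by
    calc |sqrt R - sqrt R'| * (p * sqrt mm)
        = |sqrt R - sqrt R'| * (2 * (p * sqrt mm / 2)) := by ring
      _ ≤ |R - R'| := hsq
      _ ≤ 5 * p ^ 2 * mM * t := hRR
  have hsq2 : |sqrt R - sqrt R'| ≤ 5 * p * mM / sqrt mm * t := by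
    have h3 := (le_div_iff₀ hps).mpr hsq1
    have e : 5 * p ^ 2 * mM * t / (p * sqrt mm) = 5 * p * mM / sqrt mm * t := by
      have hp' : p ≠ 0 := hp.ne'
      have hs' : sqrt mm ≠ 0 := hsm.ne'
      field_simp
    rw [e] at h3
    exact h3
  have hεδ : ε * |δ| ≤ d := by
    calc ε * |δ| ≤ 1 / 2 * d := mul_le_mul hε hδ (abs_nonneg _) (by norm_num)
      _ ≤ d := by linarith
  have hεδ2 : ε * |δ| ≤ 1 / 2 * d := mul_le_mul hε hδ (abs_nonneg _) (by norm_num)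
  have hNN : |(ε * δ * u + sqrt R) - (ε * δ * u' + sqrt R')|
      ≤ (d + 5 * p * mM / sqrt mm) * t := by
    have e : (ε * δ * u + sqrt R) - (ε * δ * u' + sqrt R')
        = ε * δ * (u - u') + (sqrt R - sqrt R') := by ring
    rw [e]
    have h1 : |ε * δ * (u - u')| ≤ d * t := by
      rw [abs_mul, abs_mul, abs_of_nonneg hε0]
      calc ε * |δ| * |u - u'| ≤ (1 / 2 * d) * (2 * t) :=
            mul_le_mul hεδ2 huu (abs_nonneg _) (by linarith)
        _ = d * t := by ring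
    calc |ε * δ * (u - u') + (sqrt R - sqrt R')|
        ≤ |ε * δ * (u - u')| + |sqrt R - sqrt R'| := abs_add_le _ _
      _ ≤ d * t + 5 * p * mM / sqrt mm * t := add_le_add h1 hsq2
      _ = (d + 5 * p * mM / sqrt mm) * t := by ring
  have hN' : |ε * δ * u' + sqrt R'| ≤ d + p * sqrt mM := by
    have h1 : |ε * δ * u'| ≤ d := by
      rw [abs_mul, abs_mul, abs_of_nonneg hε0]
      calc ε * |δ| * |u'| ≤ d * 1 := mul_le_mul hεδ hu' (abs_nonneg _) hd
        _ = d := by ring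
    have h2 : sqrt R' ≤ p * sqrt mM := by
      refine Real.sqrt_le_iff.mpr ⟨mul_nonneg hp.le (Real.sqrt_nonneg _), ?_⟩
      rw [mul_pow, Real.sq_sqrt hmM0.le]
      exact hRu'
    calc |ε * δ * u' + sqrt R'| ≤ |ε * δ * u'| + |sqrt R'| := abs_add_le _ _
      _ = |ε * δ * u'| + sqrt R' := by rw [abs_of_nonneg (Real.sqrt_nonneg _)]
      _ ≤ d + p * sqrt mM := add_le_add h1 h2
  have hq := kphilip_quot hem hE hD hD' hD1' hNN hN' hDD
  refine le_trans hq (le_of_eq ?_)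
  ring

/-- The right-hand side is Lipschitz in the angle, uniformly in `κ ∈ [0, 1]` and `x`. -/
theorem phiK_lip {p ε : ℝ} {e de m θ : ℝ → ℝ} {em eM d mm mM : ℝ}
    (hb : KBounds e de m θ em eM d mm mM) (hg : KGood p ε d mm) :
    ∃ K : ℝ, 0 ≤ K ∧ ∀ κ ∈ Set.Icc (0 : ℝ) 1, ∀ x φ φ',
      |PhiK p ε e de m θ κ x φ - PhiK p ε e de m θ κ x φ'| ≤ K * |φ - φ'| := by
  have hp := hg.p_pos
  have hmm := hb.mm_pos
  have hem := hb.em_pos
  have hmM : mm ≤ mM := le_trans (hb.m_ge 0) (hb.m_le 0)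
  have hmM0 : 0 < mM := lt_of_lt_of_le hmm hmM
  have hd : 0 ≤ d := le_trans (abs_nonneg _) (hb.de_le 0)
  have hsm : 0 < sqrt mm := Real.sqrt_pos.mpr hmm
  have hsM : 0 ≤ sqrt mM := Real.sqrt_nonneg _
  refine ⟨4 / em * (2 * d + 5 * p * mM / sqrt mm + p * sqrt mM), ?_, ?_⟩
  · have h1 : 0 ≤ 5 * p * mM / sqrt mm :=
      div_nonneg (mul_nonneg (mul_nonneg (by norm_num) hp.le) hmM0.le) hsm.le
    have h2 : 0 ≤ p * sqrt mM := mul_nonneg hp.le hsM
    exact mul_nonneg (div_nonneg (by norm_num) hem.le) (by linarith)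
  intro κ hκ x φ φ'
  have hk0 : 0 ≤ κ ^ 2 * θ x ^ 2 := mul_nonneg (sq_nonneg _) (sq_nonneg _)
  have hk1 : κ ^ 2 * θ x ^ 2 ≤ 1 := by
    have h1 : κ ^ 2 ≤ 1 := by
      have h0 := hκ.1
      have h2 := hκ.2
      nlinarith
    have h2 : θ x ^ 2 ≤ 1 := by
      have h := abs_le.mp (hb.th_le x)
      nlinarith
    calc κ ^ 2 * θ x ^ 2 ≤ 1 * 1 := mul_le_mul h1 h2 (sq_nonneg _) (by norm_num)
      _ = 1 := by ring
  have hu : ∀ ψ : ℝ, |sin ψ * cos ψ| ≤ 1 := by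
    intro ψ
    calc |sin ψ * cos ψ| = |sin ψ| * |cos ψ| := abs_mul _ _
      _ ≤ 1 * 1 := mul_le_mul (abs_sin_le_one ψ) (abs_cos_le_one ψ) (abs_nonneg _) (by norm_num)
      _ = 1 := by ring
  exact kphilip_core (k := κ ^ 2 * θ x ^ 2) (u := sin φ * cos φ) (u' := sin φ' * cos φ')
    (w := cos φ ^ 2) (w' := cos φ' ^ 2) (t := |φ - φ'|) (R := RadK p ε de m θ κ x φ)
    (R' := RadK p ε de m θ κ x φ') hp hg.eps_nonneg hg.eps_le hem (hb.e_ge x) (hb.de_le x)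
    hmm (hb.m_ge x) (hb.m_le x) hk0 hk1 (hu φ) (hu φ') (sq_nonneg _) (Real.cos_sq_le_one φ)
    (sq_nonneg _) (Real.cos_sq_le_one φ') (kphilip_trig_u φ φ') (kphilip_trig_w φ φ') rfl rfl
    (radK_ge hb hg hκ x φ) (radK_ge hb hg hκ x φ') (radK_le hb hg hκ x φ')

end Vale.Agent.Lib.P205.KB
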