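import Vale.Agent.Lib.P205.KB.KPhiBounds

/-!
# The Lipschitz constant in the angle at parameter zero does not depend on the weight
-/

namespace Vale.Agent.Lib.P205.KB

open Real

/-- Derivative of `1 - ε cos^2`. -/
theorem lip0_hasDerivAt_den (ε φ : ℝ) :
    HasDerivAt (fun t : ℝ => 1 - ε * cos t ^ 2) (2 * ε * (sin φ * cos φ)) φ := by
  have h1 : HasDerivAt (fun t : ℝ => cos t * cos t) (-sin φ * cos φ + cos φ * -sin φ) φ :=
    (hasDerivAt_cos φ).fun_mul (hasDerivAt_cos φ)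
  have h2 : HasDerivAt (fun t : ℝ => 1 - ε * (cos t * cos t))
      (-(ε * (-sin φ * cos φ + cos φ * -sin φ))) φ := (h1.const_mul ε).const_sub 1
  have h3 : (fun t : ℝ => 1 - ε * cos t ^ 2) = fun t : ℝ => 1 - ε * (cos t * cos t) := by
    funext t
    ring
  rw [h3]
  convert h2 using 1
  ring

/-- Derivative of `ε a sin cos`. -/
theorem lip0_hasDerivAt_lin (ε a φ : ℝ) :
    HasDerivAt (fun t : ℝ => ε * a * (sin t * cos t))
      (ε * a * (cos φ * cos φ + sin φ * -sin φ)) φ :=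
  ((hasDerivAt_sin φ).fun_mul (hasDerivAt_cos φ)).const_mul (ε * a)

/-- Derivative of the quantity under the square root (parameter zero, data frozen). -/
theorem lip0_hasDerivAt_rad (ε P K φ : ℝ) :
    HasDerivAt (fun t : ℝ => (1 - ε * cos t ^ 2) * P - K) (2 * ε * (sin φ * cos φ) * P) φ :=
  ((lip0_hasDerivAt_den ε φ).mul_const P).sub_const K

/-- Derivative of the frozen right-hand side. -/
theorem lip0_hasDerivAt (ε a E P K φ : ℝ) (hR : (1 - ε * cos φ ^ 2) * P - K ≠ 0)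
    (hD : E * (1 - ε * cos φ ^ 2) ≠ 0) :
    HasDerivAt (fun t : ℝ => (ε * a * (sin t * cos t) + sqrt ((1 - ε * cos t ^ 2) * P - K)) /
        (E * (1 - ε * cos t ^ 2)))
      (((ε * a * (cos φ * cos φ + sin φ * -sin φ) +
          2 * ε * (sin φ * cos φ) * P / (2 * sqrt ((1 - ε * cos φ ^ 2) * P - K))) *
          (E * (1 - ε * cos φ ^ 2)) -
        (ε * a * (sin φ * cos φ) + sqrt ((1 - ε * cos φ ^ 2) * P - K)) *
          (E * (2 * ε * (sin φ * cos φ)))) / (E * (1 - ε * cos φ ^ 2)) ^ 2) φ := by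
  have hs : HasDerivAt (fun t : ℝ => sqrt ((1 - ε * cos t ^ 2) * P - K))
      (2 * ε * (sin φ * cos φ) * P / (2 * sqrt ((1 - ε * cos φ ^ 2) * P - K))) φ :=
    (lip0_hasDerivAt_rad ε P K φ).sqrt hR
  have hn := (lip0_hasDerivAt_lin ε a φ).fun_add hs
  have hd := (lip0_hasDerivAt_den ε φ).const_mul E
  exact hn.fun_div hd hD

/-- Elementary bounds for `s c` and `c^2 - s^2` on the unit circle. -/
theorem lip0_trig {s c : ℝ} (hsc : s ^ 2 + c ^ 2 = 1) :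
    |2 * (s * c)| ≤ 1 ∧ |c * c + s * -s| ≤ 1 ∧ c ^ 2 ≤ 1 := by
  refine ⟨?_, ?_, ?_⟩
  · rw [abs_le]
    constructor
    · nlinarith [sq_nonneg (s + c)]
    · nlinarith [sq_nonneg (s - c)]
  · rw [abs_le]
    constructor
    · nlinarith [sq_nonneg s, sq_nonneg c]
    · nlinarith [sq_nonneg s, sq_nonneg c]
  · nlinarith [sq_nonneg s]

/-- Bound for the derivative of the numerator. -/
theorem lip0_numDeriv_le {ε a P r s c d p σ τ : ℝ} (hε0 : 0 ≤ ε) (hp : 0 < p) (hσ : 0 < σ)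
    (ha : |a| ≤ d) (hP0 : 0 ≤ P) (hP : P ≤ p ^ 2 * τ ^ 2) (hr1 : p * σ / 2 ≤ r)
    (h2sc : |2 * (s * c)| ≤ 1) (hcs : |c * c + s * -s| ≤ 1) :
    |ε * a * (c * c + s * -s) + 2 * ε * (s * c) * P / (2 * r)| ≤ ε * d + ε * p * (τ ^ 2 / σ) := by
  have hd0 : 0 ≤ d := le_trans (abs_nonneg a) ha
  have hpσ : 0 < p * σ := mul_pos hp hσ
  have hr0 : 0 < r := lt_of_lt_of_le (by linarith) hr1
  have t1 : |ε * a * (c * c + s * -s)| ≤ ε * d := by
    rw [abs_mul, abs_mul, abs_of_nonneg hε0, mul_assoc]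
    have h1 : |a| * |c * c + s * -s| ≤ d * 1 := mul_le_mul ha hcs (abs_nonneg _) hd0
    have h2 := mul_le_mul_of_nonneg_left h1 hε0
    rw [mul_one] at h2
    exact h2
  have hPr0 : 0 ≤ P / (2 * r) := div_nonneg hP0 (by linarith)
  have hPr : P / (2 * r) ≤ p * (τ ^ 2 / σ) := by
    rw [div_le_iff₀ (by linarith : (0 : ℝ) < 2 * r)]
    have e2 : p * (τ ^ 2 / σ) * (2 * r) = p * τ ^ 2 * (2 * r) / σ := by ring
    rw [e2, le_div_iff₀ hσ]
    have h4 : p * σ ≤ 2 * r := by linarith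
    have h5 : 0 ≤ p * τ ^ 2 := mul_nonneg hp.le (sq_nonneg τ)
    have h3 : p * τ ^ 2 * (p * σ) ≤ p * τ ^ 2 * (2 * r) := mul_le_mul_of_nonneg_left h4 h5
    have h6 : P * σ ≤ p ^ 2 * τ ^ 2 * σ := mul_le_mul_of_nonneg_right hP hσ.le
    have e3 : p * τ ^ 2 * (p * σ) = p ^ 2 * τ ^ 2 * σ := by ring
    rw [e3] at h3
    exact le_trans h6 h3
  have t2 : |2 * ε * (s * c) * P / (2 * r)| ≤ ε * p * (τ ^ 2 / σ) := by
    have e1 : 2 * ε * (s * c) * P / (2 * r) = ε * (2 * (s * c)) * (P / (2 * r)) := by ring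
    rw [e1, abs_mul, abs_mul, abs_of_nonneg hε0, abs_of_nonneg hPr0]
    have h6 : ε * |2 * (s * c)| ≤ ε * 1 := mul_le_mul_of_nonneg_left h2sc hε0
    have h7 : ε * |2 * (s * c)| * (P / (2 * r)) ≤ ε * 1 * (p * (τ ^ 2 / σ)) :=
      mul_le_mul h6 hPr hPr0 (by linarith)
    have e4 : ε * 1 * (p * (τ ^ 2 / σ)) = ε * p * (τ ^ 2 / σ) := by ring
    rw [e4] at h7
    exact h7
  exact le_trans (abs_add_le _ _) (add_le_add t1 t2)

/-- Bound for the numerator. -/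
theorem lip0_num_le {ε a r s c d p τ : ℝ} (hε0 : 0 ≤ ε) (ha : |a| ≤ d) (hr0 : 0 < r)
    (hr2 : r ≤ p * τ) (h2sc : |2 * (s * c)| ≤ 1) :
    |ε * a * (s * c) + r| ≤ ε * d / 2 + p * τ := by
  have hd0 : 0 ≤ d := le_trans (abs_nonneg a) ha
  have hsc' : |s * c| ≤ 1 / 2 := by
    have h := h2sc
    rw [abs_mul, abs_of_pos (by norm_num : (0 : ℝ) < 2)] at h
    linarith
  have t1 : |ε * a * (s * c)| ≤ ε * d / 2 := by
    rw [abs_mul, abs_mul, abs_of_nonneg hε0, mul_assoc]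
    have h1 : |a| * |s * c| ≤ d * (1 / 2) := mul_le_mul ha hsc' (abs_nonneg _) hd0
    have h2 := mul_le_mul_of_nonneg_left h1 hε0
    have e1 : ε * (d * (1 / 2)) = ε * d / 2 := by ring
    rw [e1] at h2
    exact h2
  have t3 := abs_add_le (ε * a * (s * c)) r
  rw [abs_of_pos hr0] at t3
  linarith

/-- Bound for the derivative of the denominator. -/
theorem lip0_denDeriv_le {ε s c : ℝ} (hε0 : 0 ≤ ε) (h2sc : |2 * (s * c)| ≤ 1) :
    |2 * ε * (s * c)| ≤ ε := by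
  have e1 : 2 * ε * (s * c) = ε * (2 * (s * c)) := by ring
  rw [e1, abs_mul, abs_of_nonneg hε0]
  have h := mul_le_mul_of_nonneg_left h2sc hε0
  rw [mul_one] at h
  exact h

/-- Bound for the derivative of a quotient with denominator `E D`, `E ≥ em`, `D ≥ 1/2`. -/
theorem lip0_quot {N' N D' D E em n1 n0 ε : ℝ} (hε0 : 0 ≤ ε) (hem : 0 < em) (hE : em ≤ E)
    (hD1 : 1 / 2 ≤ D) (hN' : |N'| ≤ n1) (hN : |N| ≤ n0) (hD' : |D'| ≤ ε) :
    |(N' * (E * D) - N * (E * D')) / (E * D) ^ 2| ≤ n1 * (2 / em) + n0 * ε * (4 / em) := by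
  have hE0 : 0 < E := lt_of_lt_of_le hem hE
  have hD0 : 0 < D := by linarith
  have hn1nn : 0 ≤ n1 := le_trans (abs_nonneg _) hN'
  have hn0nn : 0 ≤ n0 := le_trans (abs_nonneg _) hN
  have hED : 0 < E * D := mul_pos hE0 hD0
  have hED2 : em * (1 / 2) ≤ E * D := mul_le_mul hE hD1 (by norm_num) hE0.le
  have hDD : 1 / 2 * (1 / 2) ≤ D * D := mul_le_mul hD1 hD1 (by norm_num) hD0.le
  have hEDD : em * (1 / 2 * (1 / 2)) ≤ E * (D * D) := mul_le_mul hE hDD (by norm_num) hE0.le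
  have k1 : E * D ≤ 2 / em * (E * D) ^ 2 := by
    rw [div_mul_eq_mul_div, le_div_iff₀ hem]
    have h1 : em ≤ 2 * (E * D) := by linarith
    have h2 := mul_le_mul_of_nonneg_left h1 hED.le
    have e1 : E * D * (2 * (E * D)) = 2 * (E * D) ^ 2 := by ring
    rw [e1] at h2
    exact h2
  have k2 : E ≤ 4 / em * (E * D) ^ 2 := by
    rw [div_mul_eq_mul_div, le_div_iff₀ hem]
    have h1 : em ≤ 4 * (E * (D * D)) := by linarith
    have h2 := mul_le_mul_of_nonneg_left h1 hE0.le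
    have e1 : E * (4 * (E * (D * D))) = 4 * (E * D) ^ 2 := by ring
    rw [e1] at h2
    exact h2
  rw [abs_div, abs_of_pos (pow_pos hED 2), div_le_iff₀ (pow_pos hED 2)]
  have a1 : |N' * (E * D) - N * (E * D')| ≤ |N' * (E * D)| + |N * (E * D')| := abs_sub _ _
  have a2 : |N' * (E * D)| ≤ n1 * (E * D) := by
    rw [abs_mul, abs_of_pos hED]
    exact mul_le_mul_of_nonneg_right hN' hED.le
  have a3 : |N * (E * D')| ≤ n0 * (E * ε) := by
    rw [abs_mul, abs_mul, abs_of_pos hE0]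
    exact mul_le_mul hN (mul_le_mul_of_nonneg_left hD' hE0.le)
      (mul_nonneg hE0.le (abs_nonneg _)) hn0nn
  have a4 : n1 * (E * D) ≤ n1 * (2 / em * (E * D) ^ 2) := mul_le_mul_of_nonneg_left k1 hn1nn
  have a5 : n0 * ε * E ≤ n0 * ε * (4 / em * (E * D) ^ 2) :=
    mul_le_mul_of_nonneg_left k2 (mul_nonneg hn0nn hε0)
  have a6 : (n1 * (2 / em) + n0 * ε * (4 / em)) * (E * D) ^ 2
      = n1 * (2 / em * (E * D) ^ 2) + n0 * ε * (4 / em * (E * D) ^ 2) := by ring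
  have a7 : n0 * (E * ε) = n0 * ε * E := by ring
  rw [a6]
  rw [a7] at a3
  linarith

/-- The numerical constant. -/
theorem lip0_const {ε d em p σ τ : ℝ} (hε0 : 0 ≤ ε) (hε : ε ≤ 1 / 2) (hεp : ε * p ≤ 2)
    (hd : 4 * d ≤ p * σ) (hσ : 0 < σ) (hστ : σ ≤ τ) (hem : 0 < em) :
    (ε * d + ε * p * (τ ^ 2 / σ)) * (2 / em) + (ε * d / 2 + p * τ) * ε * (4 / em)
      ≤ (4 * τ ^ 2 / σ + 10 * τ) / em := by
  have hτ : 0 < τ := lt_of_lt_of_le hσ hστ
  have hq : 0 ≤ τ ^ 2 / σ := div_nonneg (sq_nonneg τ) hσ.le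
  have e1 : (ε * d + ε * p * (τ ^ 2 / σ)) * (2 / em) + (ε * d / 2 + p * τ) * ε * (4 / em)
      = (2 * (ε * d) + 2 * (ε * p * (τ ^ 2 / σ)) + 2 * (ε * d * ε) + 4 * (ε * p * τ)) / em := by
    ring
  rw [e1]
  apply div_le_div_of_nonneg_right _ hem.le
  have b1 : ε * d ≤ σ / 2 := by
    have h1 : ε * (4 * d) ≤ ε * (p * σ) := mul_le_mul_of_nonneg_left hd hε0
    have h2 : ε * p * σ ≤ 2 * σ := mul_le_mul_of_nonneg_right hεp hσ.le
    have e2 : ε * (4 * d) = 4 * (ε * d) := by ring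
    have e3 : ε * (p * σ) = ε * p * σ := by ring
    rw [e2, e3] at h1
    linarith
  have b2 : ε * p * (τ ^ 2 / σ) ≤ 2 * (τ ^ 2 / σ) := mul_le_mul_of_nonneg_right hεp hq
  have b3 : ε * d * ε ≤ σ / 2 * (1 / 2) := mul_le_mul b1 hε hε0 (by linarith)
  have b4 : ε * p * τ ≤ 2 * τ := mul_le_mul_of_nonneg_right hεp hτ.le
  have e4 : 4 * τ ^ 2 / σ = 4 * (τ ^ 2 / σ) := by ring
  rw [e4]
  linarith

/-- The bound for the derivative, with the trigonometric quantities and the square root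
replaced by real numbers `s`, `c`, `r`. -/
theorem lip0_core {ε a E P r s c d em p σ τ : ℝ} (hε0 : 0 ≤ ε) (hε : ε ≤ 1 / 2)
    (hεp : ε * p ≤ 2) (hp : 0 < p) (hd : 4 * d ≤ p * σ) (hσ : 0 < σ) (hστ : σ ≤ τ)
    (ha : |a| ≤ d) (hem : 0 < em) (hE : em ≤ E) (hP0 : 0 ≤ P) (hP : P ≤ p ^ 2 * τ ^ 2)
    (hr1 : p * σ / 2 ≤ r) (hr2 : r ≤ p * τ) (hsc : s ^ 2 + c ^ 2 = 1) :
    |((ε * a * (c * c + s * -s) + 2 * ε * (s * c) * P / (2 * r)) * (E * (1 - ε * c ^ 2)) -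
        (ε * a * (s * c) + r) * (E * (2 * ε * (s * c)))) / (E * (1 - ε * c ^ 2)) ^ 2|
      ≤ (4 * τ ^ 2 / σ + 10 * τ) / em := by
  obtain ⟨h2sc, hcs, hc2⟩ := lip0_trig hsc
  have hpσ : 0 < p * σ := mul_pos hp hσ
  have hr0 : 0 < r := lt_of_lt_of_le (by linarith) hr1
  have hD1 : 1 / 2 ≤ 1 - ε * c ^ 2 := by
    have h := mul_le_mul hε hc2 (sq_nonneg c) (by norm_num : (0 : ℝ) ≤ 1 / 2)
    linarith
  exact le_trans
    (lip0_quot hε0 hem hE hD1 (lip0_numDeriv_le hε0 hp hσ ha hP0 hP hr1 h2sc hcs)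
      (lip0_num_le hε0 ha hr0 hr2 h2sc) (lip0_denDeriv_le hε0 h2sc))
    (lip0_const hε0 hε hεp hd hσ hστ hem)

/-- At `κ = 0` the right-hand side is Lipschitz in the angle with the constant `kL0`, which
does not involve the weight `p`. -/
theorem phiK_lip0 {p ε : ℝ} {e de m θ : ℝ → ℝ} {em eM d mm mM : ℝ}
    (hb : KBounds e de m θ em eM d mm mM) (hg : KGood p ε d mm) (x φ φ' : ℝ) :
    |PhiK p ε e de m θ 0 x φ - PhiK p ε e de m θ 0 x φ'| ≤ kL0 em mm mM * |φ - φ'| := by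
  have h0 : (0 : ℝ) ∈ Set.Icc (0 : ℝ) 1 := ⟨le_refl 0, zero_le_one⟩
  -- frozen data
  obtain ⟨P, hPdef⟩ : ∃ P : ℝ, P = p ^ 2 * m x := ⟨_, rfl⟩
  obtain ⟨K, hKdef⟩ : ∃ K : ℝ, K = de x ^ 2 * (1 - ε) := ⟨_, rfl⟩
  have hrad : ∀ t : ℝ, RadK p ε de m θ 0 x t = (1 - ε * cos t ^ 2) * P - K := by
    intro t
    rw [hPdef, hKdef]
    unfold RadK
    ring
  have hfun : ∀ t : ℝ, PhiK p ε e de m θ 0 x t =
      (ε * de x * (sin t * cos t) + sqrt ((1 - ε * cos t ^ 2) * P - K)) /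
        (e x * (1 - ε * cos t ^ 2)) := by
    intro t
    unfold PhiK
    rw [hrad t]
  have hmm : 0 < mm := hb.mm_pos
  have hmM : mm ≤ mM := le_trans (hb.m_ge x) (hb.m_le x)
  have hσ : 0 < sqrt mm := Real.sqrt_pos.mpr hmm
  have hστ : sqrt mm ≤ sqrt mM := Real.sqrt_le_sqrt hmM
  have hτ2 : sqrt mM ^ 2 = mM := Real.sq_sqrt (le_trans hmm.le hmM)
  have hσ2 : sqrt mm ^ 2 = mm := Real.sq_sqrt hmm.le
  have hp : 0 < p := hg.p_pos
  have hE : em ≤ e x := hb.e_ge x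
  have hE0 : 0 < e x := lt_of_lt_of_le hb.em_pos hE
  have hP0 : 0 ≤ P := by
    rw [hPdef]
    exact mul_nonneg (sq_nonneg p) (le_trans hmm.le (hb.m_ge x))
  have hP : P ≤ p ^ 2 * sqrt mM ^ 2 := by
    rw [hPdef, hτ2]
    exact mul_le_mul_of_nonneg_left (hb.m_le x) (sq_nonneg p)
  have hRlo : ∀ t : ℝ, p ^ 2 * mm / 4 ≤ (1 - ε * cos t ^ 2) * P - K := by
    intro t
    rw [← hrad t]
    exact radK_ge hb hg h0 x t
  have hRhi : ∀ t : ℝ, (1 - ε * cos t ^ 2) * P - K ≤ p ^ 2 * mM := by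
    intro t
    rw [← hrad t]
    exact radK_le hb hg h0 x t
  have hRpos : ∀ t : ℝ, 0 < (1 - ε * cos t ^ 2) * P - K := by
    intro t
    have : 0 < p ^ 2 * mm / 4 := by positivity
    exact lt_of_lt_of_le this (hRlo t)
  have hr1 : ∀ t : ℝ, p * sqrt mm / 2 ≤ sqrt ((1 - ε * cos t ^ 2) * P - K) := by
    intro t
    apply Real.le_sqrt_of_sq_le
    have : (p * sqrt mm / 2) ^ 2 = p ^ 2 * mm / 4 := by
      rw [div_pow, mul_pow, hσ2]
      norm_num
    rw [this]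
    exact hRlo t
  have hr2 : ∀ t : ℝ, sqrt ((1 - ε * cos t ^ 2) * P - K) ≤ p * sqrt mM := by
    intro t
    rw [Real.sqrt_le_left (mul_nonneg hp.le (Real.sqrt_nonneg mM))]
    rw [mul_pow, hτ2]
    exact hRhi t
  have hDpos : ∀ t : ℝ, 0 < 1 - ε * cos t ^ 2 := by
    intro t
    have h1 : cos t ^ 2 ≤ 1 := Real.cos_sq_le_one t
    have h2 : ε * cos t ^ 2 ≤ 1 / 2 * 1 :=
      mul_le_mul hg.eps_le h1 (sq_nonneg _) (by norm_num)
    linarith
  -- the derivative and its bound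
  have hder : ∀ t : ℝ, HasDerivAt (fun t : ℝ => PhiK p ε e de m θ 0 x t)
      (((ε * de x * (cos t * cos t + sin t * -sin t) +
          2 * ε * (sin t * cos t) * P / (2 * sqrt ((1 - ε * cos t ^ 2) * P - K))) *
          (e x * (1 - ε * cos t ^ 2)) -
        (ε * de x * (sin t * cos t) + sqrt ((1 - ε * cos t ^ 2) * P - K)) *
          (e x * (2 * ε * (sin t * cos t)))) / (e x * (1 - ε * cos t ^ 2)) ^ 2) t := by
    intro t
    have h := lip0_hasDerivAt ε (de x) (e x) P K t (ne_of_gt (hRpos t))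
      (ne_of_gt (mul_pos hE0 (hDpos t)))
    have hfe : (fun t : ℝ => PhiK p ε e de m θ 0 x t) = fun t : ℝ =>
        (ε * de x * (sin t * cos t) + sqrt ((1 - ε * cos t ^ 2) * P - K)) /
          (e x * (1 - ε * cos t ^ 2)) := funext hfun
    rw [hfe]
    exact h
  have hbound : ∀ t : ℝ, ‖((ε * de x * (cos t * cos t + sin t * -sin t) +
          2 * ε * (sin t * cos t) * P / (2 * sqrt ((1 - ε * cos t ^ 2) * P - K))) *
          (e x * (1 - ε * cos t ^ 2)) -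
        (ε * de x * (sin t * cos t) + sqrt ((1 - ε * cos t ^ 2) * P - K)) *
          (e x * (2 * ε * (sin t * cos t)))) / (e x * (1 - ε * cos t ^ 2)) ^ 2‖
      ≤ kL0 em mm mM := by
    intro t
    rw [Real.norm_eq_abs]
    have h := lip0_core (a := de x) (E := e x) (P := P)
      (r := sqrt ((1 - ε * cos t ^ 2) * P - K)) (s := sin t) (c := cos t) (d := d) (em := em)
      (p := p) (σ := sqrt mm) (τ := sqrt mM) hg.eps_nonneg hg.eps_le hg.eps_p hp hg.d_le hσ hστ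
      (hb.de_le x) hb.em_pos hE hP0 hP (hr1 t) (hr2 t) (Real.sin_sq_add_cos_sq t)
    have hk : kL0 em mm mM = (4 * sqrt mM ^ 2 / sqrt mm + 10 * sqrt mM) / em := by
      unfold kL0
      rw [hτ2]
    rw [hk]
    exact h
  have hmvt := Convex.norm_image_sub_le_of_norm_hasDerivWithin_le
    (f := fun t : ℝ => PhiK p ε e de m θ 0 x t) (s := Set.univ) (x := φ') (y := φ)
    (fun t _ => (hder t).hasDerivWithinAt) (fun t _ => hbound t) convex_univ
    (Set.mem_univ _) (Set.mem_univ _)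
  rw [Real.norm_eq_abs, Real.norm_eq_abs] at hmvt
  exact hmvt

end Vale.Agent.Lib.P205.KB
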