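import Vale.Agent.Lib.P205.KB.KPhiBounds

/-!
# Lipschitz dependence of the right-hand side on the parameter
-/

namespace Vale.Agent.Lib.P205.KB

open Real

/-- A product of four bounded factors. -/
lemma phiK_lip_aux_prod {D M T u v P : ℝ} (hD0 : 0 ≤ D) (hD1 : D ≤ 1) (hM0 : 0 ≤ M) (hM : M ≤ P)
    (hT0 : 0 ≤ T) (hT1 : T ≤ 1) (hv : |v| ≤ 2) :
    |D * M * T * (u * v)| ≤ P * (2 * |u|) := by
  rw [abs_mul, abs_mul, abs_mul, abs_mul u v, abs_of_nonneg hD0, abs_of_nonneg hM0,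
    abs_of_nonneg hT0]
  have hu : 0 ≤ |u| := abs_nonneg u
  have hP : 0 ≤ P := le_trans hM0 hM
  have h1 : D * M ≤ 1 * P := mul_le_mul hD1 hM hM0 zero_le_one
  have h2 : D * M * T ≤ 1 * P * 1 := mul_le_mul h1 hT1 hT0 (by linarith)
  have h3 : |u| * |v| ≤ |u| * 2 := mul_le_mul_of_nonneg_left hv hu
  have h4 : D * M * T * (|u| * |v|) ≤ 1 * P * 1 * (|u| * 2) :=
    mul_le_mul h2 h3 (mul_nonneg hu (abs_nonneg v)) (by linarith)
  linarith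

/-- The difference of the radicands for two values of the parameter. -/
lemma phiK_lip_aux_rad {p ε : ℝ} {e de m θ : ℝ → ℝ} {em eM d mm mM : ℝ}
    (hb : KBounds e de m θ em eM d mm mM) (hg : KGood p ε d mm) {κ κ' : ℝ}
    (hκ : κ ∈ Set.Icc (0 : ℝ) 1) (hκ' : κ' ∈ Set.Icc (0 : ℝ) 1) (x φ : ℝ) :
    |RadK p ε de m θ κ x φ - RadK p ε de m θ κ' x φ| ≤ p ^ 2 * mM * (2 * |κ - κ'|) := by
  have hmm := hb.mm_pos
  have hc2 : cos φ ^ 2 ≤ 1 := Real.cos_sq_le_one φ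
  have hs2 : sin φ ^ 2 ≤ 1 := Real.sin_sq_le_one φ
  have hc0 : 0 ≤ cos φ ^ 2 := sq_nonneg _
  have hs0 : 0 ≤ sin φ ^ 2 := sq_nonneg _
  have hε0 := hg.eps_nonneg
  have hε1 := hg.eps_le
  have hD1 : 1 - ε * cos φ ^ 2 ≤ 1 := by nlinarith
  have hD0 : 0 ≤ 1 - ε * cos φ ^ 2 := by nlinarith
  have hRdiff : RadK p ε de m θ κ x φ - RadK p ε de m θ κ' x φ
      = (1 - ε * cos φ ^ 2) * (p ^ 2 * m x)
        * (θ x ^ 2 * (sin φ * cos φ) ^ 2) * ((κ' - κ) * (κ' + κ)) := by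
    unfold RadK
    ring
  have hθ2 : θ x ^ 2 ≤ 1 := by
    have h := hb.th_le x
    have h2 : θ x ^ 2 = |θ x| ^ 2 := (sq_abs _).symm
    rw [h2]
    have h0 : 0 ≤ |θ x| := abs_nonneg _
    nlinarith
  have hsc : (sin φ * cos φ) ^ 2 ≤ 1 := by
    rw [mul_pow]
    nlinarith
  have hT1 : θ x ^ 2 * (sin φ * cos φ) ^ 2 ≤ 1 := by
    have h0 : 0 ≤ θ x ^ 2 := sq_nonneg _
    have h1 : 0 ≤ (sin φ * cos φ) ^ 2 := sq_nonneg _
    nlinarith
  have hT0 : 0 ≤ θ x ^ 2 * (sin φ * cos φ) ^ 2 := mul_nonneg (sq_nonneg _) (sq_nonneg _)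
  have hm0 : 0 < m x := lt_of_lt_of_le hmm (hb.m_ge x)
  have hM0 : 0 ≤ p ^ 2 * m x := mul_nonneg (sq_nonneg _) hm0.le
  have hM : p ^ 2 * m x ≤ p ^ 2 * mM := mul_le_mul_of_nonneg_left (hb.m_le x) (sq_nonneg _)
  have hκsum : |κ' + κ| ≤ 2 := by
    rw [abs_le]
    constructor
    · linarith [hκ.1, hκ'.1]
    · linarith [hκ.2, hκ'.2]
  rw [hRdiff, abs_sub_comm κ κ']
  exact phiK_lip_aux_prod hD0 hD1 hM0 hM hT0 hT1 hκsum

/-- Square roots of numbers bounded below are Lipschitz. -/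
lemma phiK_lip_aux_sqrt {R R' c B : ℝ} (hc : 0 < c) (hR : c ^ 2 ≤ R) (hR' : c ^ 2 ≤ R')
    (hB : |R - R'| ≤ B) : |sqrt R - sqrt R'| * (2 * c) ≤ B := by
  have hR0 : 0 ≤ R := le_trans (sq_nonneg c) hR
  have hR'0 : 0 ≤ R' := le_trans (sq_nonneg c) hR'
  have hsR : c ≤ sqrt R := by
    rw [Real.le_sqrt' hc]
    exact hR
  have hsR' : c ≤ sqrt R' := by
    rw [Real.le_sqrt' hc]
    exact hR'
  have hsum : 2 * c ≤ sqrt R + sqrt R' := by linarith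
  have hsumpos : 0 < sqrt R + sqrt R' := lt_of_lt_of_le (by linarith) hsum
  have hprod : (sqrt R - sqrt R') * (sqrt R + sqrt R') = R - R' := by
    have h1 : (sqrt R - sqrt R') * (sqrt R + sqrt R')
        = sqrt R * sqrt R - sqrt R' * sqrt R' := by ring
    rw [h1, Real.mul_self_sqrt hR0, Real.mul_self_sqrt hR'0]
  have h1 : |sqrt R - sqrt R'| * (sqrt R + sqrt R') = |R - R'| := by
    rw [← hprod, abs_mul, abs_of_pos hsumpos]
  calc |sqrt R - sqrt R'| * (2 * c)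
      ≤ |sqrt R - sqrt R'| * (sqrt R + sqrt R') :=
        mul_le_mul_of_nonneg_left hsum (abs_nonneg _)
    _ = |R - R'| := h1
    _ ≤ B := hB

/-- The right-hand side is Lipschitz in the parameter `κ ∈ [0, 1]`, uniformly in `x` and the
angle. -/
theorem phiK_lip_kappa {p ε : ℝ} {e de m θ : ℝ → ℝ} {em eM d mm mM : ℝ}
    (hb : KBounds e de m θ em eM d mm mM) (hg : KGood p ε d mm) :
    ∃ Λ : ℝ, 0 ≤ Λ ∧ ∀ κ ∈ Set.Icc (0 : ℝ) 1, ∀ κ' ∈ Set.Icc (0 : ℝ) 1, ∀ x φ,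
      |PhiK p ε e de m θ κ x φ - PhiK p ε e de m θ κ' x φ| ≤ Λ * |κ - κ'| := by
  have hp := hg.p_pos
  have hmm := hb.mm_pos
  have hem := hb.em_pos
  have hsm : 0 < sqrt mm := Real.sqrt_pos.mpr hmm
  have hmM : 0 < mM := lt_of_lt_of_le hmm (le_trans (hb.m_ge 0) (hb.m_le 0))
  have hΛ0 : 0 ≤ 4 * p * mM / (sqrt mm * em) :=
    div_nonneg (mul_nonneg (mul_nonneg (by norm_num) hp.le) hmM.le) (mul_pos hsm hem).le
  refine ⟨4 * p * mM / (sqrt mm * em), hΛ0, ?_⟩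
  intro κ hκ κ' hκ' x φ
  have hrad := phiK_lip_aux_rad hb hg hκ hκ' x φ
  obtain ⟨R, hR⟩ : ∃ R, R = RadK p ε de m θ κ x φ := ⟨_, rfl⟩
  obtain ⟨R', hR'⟩ : ∃ R', R' = RadK p ε de m θ κ' x φ := ⟨_, rfl⟩
  have hhalf : 0 < p * sqrt mm / 2 := div_pos (mul_pos hp hsm) (by norm_num)
  have hq : (p * sqrt mm / 2) ^ 2 = p ^ 2 * mm / 4 := by
    rw [div_pow, mul_pow, Real.sq_sqrt hmm.le]
    norm_num
  have hRge : (p * sqrt mm / 2) ^ 2 ≤ R := by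
    rw [hR, hq]
    exact radK_ge hb hg hκ x φ
  have hR'ge : (p * sqrt mm / 2) ^ 2 ≤ R' := by
    rw [hR', hq]
    exact radK_ge hb hg hκ' x φ
  rw [← hR, ← hR'] at hrad
  have hsq := phiK_lip_aux_sqrt hhalf hRge hR'ge hrad
  have hc2 : cos φ ^ 2 ≤ 1 := Real.cos_sq_le_one φ
  have hc0 : 0 ≤ cos φ ^ 2 := sq_nonneg _
  have hε0 := hg.eps_nonneg
  have hε1 := hg.eps_le
  have hD2 : 1 / 2 ≤ 1 - ε * cos φ ^ 2 := by nlinarith
  have hex : em ≤ e x := hb.e_ge x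
  have hden : em / 2 ≤ e x * (1 - ε * cos φ ^ 2) := by nlinarith
  have hdenpos : 0 < e x * (1 - ε * cos φ ^ 2) := lt_of_lt_of_le (by linarith) hden
  have hdiff : PhiK p ε e de m θ κ x φ - PhiK p ε e de m θ κ' x φ
      = (sqrt R - sqrt R') / (e x * (1 - ε * cos φ ^ 2)) := by
    unfold PhiK
    rw [← hR, ← hR', div_sub_div_same, add_sub_add_left_eq_sub]
  have hsq' : |sqrt R - sqrt R'| ≤ 2 * p * mM * |κ - κ'| / sqrt mm := by
    rw [le_div_iff₀ hsm]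
    have h2 : |sqrt R - sqrt R'| * (2 * (p * sqrt mm / 2))
        = p * (|sqrt R - sqrt R'| * sqrt mm) := by ring
    have h3 : p ^ 2 * mM * (2 * |κ - κ'|) = p * (2 * p * mM * |κ - κ'|) := by ring
    rw [h2, h3] at hsq
    exact le_of_mul_le_mul_left hsq hp
  rw [hdiff, abs_div, abs_of_pos hdenpos, div_le_iff₀ hdenpos]
  have hΛ : 0 ≤ 4 * p * mM / (sqrt mm * em) * |κ - κ'| := mul_nonneg hΛ0 (abs_nonneg _)
  have heq : 2 * p * mM * |κ - κ'| / sqrt mm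
      = 4 * p * mM / (sqrt mm * em) * |κ - κ'| * (em / 2) := by
    field_simp
    ring
  calc |sqrt R - sqrt R'| ≤ 2 * p * mM * |κ - κ'| / sqrt mm := hsq'
    _ = 4 * p * mM / (sqrt mm * em) * |κ - κ'| * (em / 2) := heq
    _ ≤ 4 * p * mM / (sqrt mm * em) * |κ - κ'| * (e x * (1 - ε * cos φ ^ 2)) :=
        mul_le_mul_of_nonneg_left hden hΛ

end Vale.Agent.Lib.P205.KB
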