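import Vale.Agent.Lib.P205.KB.KPhiBounds

/-!
# Smoothness of the right-hand side
-/

namespace Vale.Agent.Lib.P205.KB

open scoped ContDiff
open Real

/-- For smooth data the right-hand side is a smooth function of `(x, φ)`. -/
theorem phiK_smooth {p ε : ℝ} {e de m θ : ℝ → ℝ} {em eM d mm mM : ℝ}
    (hb : KBounds e de m θ em eM d mm mM) (hg : KGood p ε d mm)
    (he : ContDiff ℝ ∞ e) (hde : ContDiff ℝ ∞ de) (hm : ContDiff ℝ ∞ m) (hθ : ContDiff ℝ ∞ θ)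
    {κ : ℝ} (hκ : κ ∈ Set.Icc (0 : ℝ) 1) :
    ContDiff ℝ ∞ (fun z : ℝ × ℝ => PhiK p ε e de m θ κ z.1 z.2) := by
  have hrad : ∀ z : ℝ × ℝ, RadK p ε de m θ κ z.1 z.2 ≠ 0 := by
    intro z
    have h1 := radK_ge hb hg hκ z.1 z.2
    have h2 : 0 < p ^ 2 * mm / 4 := by
      have hp := hg.p_pos
      have hmm := hb.mm_pos
      positivity
    exact (lt_of_lt_of_le h2 h1).ne'
  have hden : ∀ z : ℝ × ℝ, e z.1 * (1 - ε * cos z.2 ^ 2) ≠ 0 := by
    intro z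
    have h1 : 0 < e z.1 := lt_of_lt_of_le hb.em_pos (hb.e_ge z.1)
    have h2 : cos z.2 ^ 2 ≤ 1 := Real.cos_sq_le_one z.2
    have h3 : 0 < 1 - ε * cos z.2 ^ 2 := by
      nlinarith [hg.eps_nonneg, hg.eps_le, sq_nonneg (cos z.2)]
    exact (mul_pos h1 h3).ne'
  have hx : ContDiff ℝ ∞ (fun z : ℝ × ℝ => z.1) := contDiff_fst
  have hφ : ContDiff ℝ ∞ (fun z : ℝ × ℝ => z.2) := contDiff_snd
  have hsin : ContDiff ℝ ∞ (fun z : ℝ × ℝ => sin z.2) := Real.contDiff_sin.comp hφ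
  have hcos : ContDiff ℝ ∞ (fun z : ℝ × ℝ => cos z.2) := Real.contDiff_cos.comp hφ
  have he' : ContDiff ℝ ∞ (fun z : ℝ × ℝ => e z.1) := he.comp hx
  have hde' : ContDiff ℝ ∞ (fun z : ℝ × ℝ => de z.1) := hde.comp hx
  have hm' : ContDiff ℝ ∞ (fun z : ℝ × ℝ => m z.1) := hm.comp hx
  have hθ' : ContDiff ℝ ∞ (fun z : ℝ × ℝ => θ z.1) := hθ.comp hx
  have hR : ContDiff ℝ ∞ (fun z : ℝ × ℝ => RadK p ε de m θ κ z.1 z.2) := by
    unfold RadK
    exact (((contDiff_const.sub (contDiff_const.mul (hcos.pow 2))).mul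
      (contDiff_const.mul hm')).mul
      (contDiff_const.sub ((contDiff_const.mul (hθ'.pow 2)).mul ((hsin.mul hcos).pow 2)))).sub
      ((hde'.pow 2).mul contDiff_const)
  have hsq : ContDiff ℝ ∞ (fun z : ℝ × ℝ => sqrt (RadK p ε de m θ κ z.1 z.2)) :=
    hR.sqrt hrad
  unfold PhiK
  exact (((contDiff_const.mul hde').mul (hsin.mul hcos)).add hsq).div
    (he'.mul (contDiff_const.sub (contDiff_const.mul (hcos.pow 2)))) hden

end Vale.Agent.Lib.P205.KB
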