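import Vale.Agent.Lib.P205.KB.KDefs

/-!
# Symmetries of the right-hand side
-/

namespace Vale.Agent.Lib.P205.KB

open Real

/-- Invariance under `(x, φ) ↦ (-x, -φ)` for even `e`, `m` and odd `de`, `θ`. -/
theorem phiK_neg (p ε : ℝ) (e de m θ : ℝ → ℝ) (he : ∀ x, e (-x) = e x)
    (hde : ∀ x, de (-x) = -de x) (hm : ∀ x, m (-x) = m x) (hθ : ∀ x, θ (-x) = -θ x)
    (κ x φ : ℝ) : PhiK p ε e de m θ κ (-x) (-φ) = PhiK p ε e de m θ κ x φ := by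
  unfold PhiK RadK
  rw [he x, hde x, hm x, hθ x, Real.sin_neg, Real.cos_neg]
  have e1 : ε * -de x * (-sin φ * cos φ) = ε * de x * (sin φ * cos φ) := by ring
  have e2 : (1 - ε * cos φ ^ 2) * (p ^ 2 * m x) *
        (1 - κ ^ 2 * (-θ x) ^ 2 * (-sin φ * cos φ) ^ 2) - (-de x) ^ 2 * (1 - ε)
      = (1 - ε * cos φ ^ 2) * (p ^ 2 * m x) *
        (1 - κ ^ 2 * θ x ^ 2 * (sin φ * cos φ) ^ 2) - de x ^ 2 * (1 - ε) := by ring
  rw [e1, e2]

/-- Periodicity in `x` for periodic data. -/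
theorem phiK_add_period (p ε : ℝ) (e de m θ : ℝ → ℝ) (a : ℝ) (he : ∀ x, e (x + a) = e x)
    (hde : ∀ x, de (x + a) = de x) (hm : ∀ x, m (x + a) = m x) (hθ : ∀ x, θ (x + a) = θ x)
    (κ x φ : ℝ) : PhiK p ε e de m θ κ (x + a) φ = PhiK p ε e de m θ κ x φ := by
  unfold PhiK RadK
  rw [he x, hde x, hm x, hθ x]

/-- Periodicity with period `pi` in the angle. -/
theorem phiK_add_pi (p ε : ℝ) (e de m θ : ℝ → ℝ) (κ x φ : ℝ) :
    PhiK p ε e de m θ κ x (φ + π) = PhiK p ε e de m θ κ x φ := by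
  unfold PhiK RadK
  rw [Real.sin_add_pi, Real.cos_add_pi]
  have e1 : -sin φ * -cos φ = sin φ * cos φ := by ring
  have e2 : (-cos φ) ^ 2 = cos φ ^ 2 := by ring
  rw [e1, e2]

end Vale.Agent.Lib.P205.KB
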