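import Vale.Agent.Lib.P205.KB.KOdeBasic

/-!
# Symmetries of the solution of a symmetric equation
-/

namespace Vale.Agent.Lib.P205.KB

open Real

/-- A right-hand side that is `pi`-periodic in the unknown is invariant under all integer
multiples of `pi`. -/
theorem kSym_int_period (f : ℝ → ℝ → ℝ) (h3 : ∀ x y, f x (y + π) = f x y) (x y : ℝ) (k : ℤ) :
    f x (y + (k : ℝ) * π) = f x y := by
  refine Int.induction_on k ?_ ?_ ?_
  · simp
  · intro i ih
    have e : y + (((i : ℤ) + 1 : ℤ) : ℝ) * π = (y + ((i : ℤ) : ℝ) * π) + π := by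
      push_cast
      ring
    exact (congrArg (f x) e).trans ((h3 x _).trans ih)
  · intro i ih
    have e : y + ((-(i : ℤ) : ℤ) : ℝ) * π = (y + ((-(i : ℤ) - 1 : ℤ) : ℝ) * π) + π := by
      push_cast
      ring
    have h := h3 x (y + ((-(i : ℤ) - 1 : ℤ) : ℝ) * π)
    exact h.symm.trans ((congrArg (f x) e.symm).trans ih)

/-- If the right-hand side is invariant under `(x, y) ↦ (-x, -y)`, `a`-periodic in `x` and
`pi`-periodic in `y`, then the solution through `0` is odd, and if its value at `a` is
`2 pi n` it satisfies `φ (x + a) = φ x + 2 pi n`. -/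
theorem klein_sym (a : ℝ) (f : ℝ → ℝ → ℝ) (K : ℝ)
    (hK : ∀ x y y', |f x y - f x y'| ≤ K * |y - y'|)
    (h1 : ∀ x y, f (-x) (-y) = f x y) (h2 : ∀ x y, f (x + a) y = f x y)
    (h3 : ∀ x y, f x (y + π) = f x y) (φ : ℝ → ℝ)
    (hφ : ∀ x, HasDerivAt φ (f x (φ x)) x) (h0 : φ 0 = 0) (n : ℤ) (hn : φ a = 2 * π * n) :
    (∀ x, φ (-x) = -φ x) ∧ (∀ x, φ (x + a) = φ x + 2 * π * n) := by
  have hodd : (fun x => -φ (-x)) = φ := by
    refine ode_unique f K hK (fun x => -φ (-x)) φ ?_ hφ 0 ?_
    · intro x
      have hc : HasDerivAt (fun t => φ (-t)) (f (-x) (φ (-x)) * (-1)) x :=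
        (hφ (-x)).comp x (hasDerivAt_neg' x)
      have hm := hc.neg
      have e : -(f (-x) (φ (-x)) * (-1)) = f x (-φ (-x)) := by
        rw [mul_neg_one, neg_neg]
        have h := h1 x (-φ (-x))
        rw [neg_neg] at h
        exact h
      rw [e] at hm
      exact hm
    · show -φ (-0) = φ 0
      rw [neg_zero, h0, neg_zero]
  have hper : (fun x => φ (x + a) - 2 * π * n) = φ := by
    refine ode_unique f K hK (fun x => φ (x + a) - 2 * π * n) φ ?_ hφ 0 ?_
    · intro x
      have hc : HasDerivAt (fun t => φ (t + a)) (f (x + a) (φ (x + a))) x :=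
        (hφ (x + a)).comp_add_const x a
      have hs := hc.sub_const (2 * π * n)
      have e : f (x + a) (φ (x + a)) = f x (φ (x + a) - 2 * π * n) := by
        rw [h2]
        have h := kSym_int_period f h3 x (φ (x + a) - 2 * π * n) (2 * n)
        rw [← h]
        congr 1
        push_cast
        ring
      rw [e] at hs
      exact hs
    · show φ (0 + a) - 2 * π * n = φ 0
      rw [zero_add, hn, h0, sub_self]
  refine ⟨fun x => ?_, fun x => ?_⟩
  · have h := congrFun hodd x
    have h' : -φ (-x) = φ x := h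
    linarith
  · have h := congrFun hper x
    have h' : φ (x + a) - 2 * π * n = φ x := h
    linarith

end Vale.Agent.Lib.P205.KB
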