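import Vale.Agent.Lib.P205.KB.KClose
import Vale.Agent.Lib.P205.KB.KSym
import Vale.Agent.Lib.P205.KB.KConsts
import Vale.Agent.Lib.P205.KB.KPhiLip0
import Vale.Agent.Lib.P205.KB.KPhiLip
import Vale.Agent.Lib.P205.KB.KPhiLipK
import Vale.Agent.Lib.P205.KB.KPhiGap
import Vale.Agent.Lib.P205.KB.KPhiSmooth
import Vale.Agent.Lib.P205.KB.KPhiSym

/-!
# Existence of the angle: a closed, symmetric solution of the profile equation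
-/

namespace Vale.Agent.Lib.P205.KB

open scoped ContDiff
open Real

/-- For smooth `a`-periodic data with the Klein symmetries and two-sided bounds there are
weights `p = 2 N`, `q = 2 N + 1`, a parameter `κ ∈ [0, 1]` and a smooth odd solution `φ` of
the profile equation with `φ (x + a) = φ x + 2 pi n`. -/
theorem klein_angle_exists (a : ℝ) (ha : 0 < a) (e de m θ : ℝ → ℝ)
    (he : ContDiff ℝ ∞ e) (hde : ContDiff ℝ ∞ de) (hm : ContDiff ℝ ∞ m) (hθ : ContDiff ℝ ∞ θ)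
    (ee : ∀ x, e (-x) = e x) (ode : ∀ x, de (-x) = -de x) (em' : ∀ x, m (-x) = m x)
    (oθ : ∀ x, θ (-x) = -θ x)
    (pe : ∀ x, e (x + a) = e x) (pde : ∀ x, de (x + a) = de x) (pm : ∀ x, m (x + a) = m x)
    (pθ : ∀ x, θ (x + a) = θ x)
    (hθ2 : ∀ x ∈ Set.Icc (a / 8) (3 * a / 8), 1 / 2 ≤ θ x ^ 2)
    (em eM d mm mM : ℝ) (hb : KBounds e de m θ em eM d mm mM) :
    ∃ N : ℕ, 2 ≤ N ∧
      KGood (2 * (N : ℝ)) (1 - (2 * (N : ℝ)) ^ 2 / (2 * (N : ℝ) + 1) ^ 2) d mm ∧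
      ∃ κ ∈ Set.Icc (0 : ℝ) 1, ∃ n : ℤ, ∃ φ : ℝ → ℝ, ContDiff ℝ ∞ φ ∧
      (∀ x, HasDerivAt φ (PhiK (2 * (N : ℝ)) (1 - (2 * (N : ℝ)) ^ 2 / (2 * (N : ℝ) + 1) ^ 2)
        e de m θ κ x (φ x)) x) ∧
      (∀ x, φ (-x) = -φ x) ∧ (∀ x, φ (x + a) = φ x + 2 * π * n) := by
  have hem : em ≤ eM := le_trans (hb.e_ge 0) (hb.e_le 0)
  have hd : 0 ≤ d := le_trans (abs_nonneg _) (hb.de_le 0)
  have hmm : mm ≤ mM := le_trans (hb.m_ge 0) (hb.m_le 0)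
  obtain ⟨N, hN, hg, hbig⟩ := klein_consts a em eM d mm mM ha hb.em_pos hem hd hb.mm_pos hmm
  obtain ⟨K, hK0, hK⟩ := phiK_lip (e := e) (de := de) (m := m) (θ := θ) hb hg
  obtain ⟨Λ, hΛ0, hΛ⟩ := phiK_lip_kappa (e := e) (de := de) (m := m) (θ := θ) hb hg
  have hp : (0 : ℝ) < 2 * (N : ℝ) := hg.p_pos
  have hem0 : 0 < em := hb.em_pos
  have heM : 0 < eM := lt_of_lt_of_le hb.em_pos hem
  have hmm0 : 0 < mm := hb.mm_pos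
  have hmM : 0 < mM := lt_of_lt_of_le hb.mm_pos hmm
  have hsmm : 0 < sqrt mm := Real.sqrt_pos.mpr hmm0
  have hsmM : 0 < sqrt mM := Real.sqrt_pos.mpr hmM
  have hv1 : 0 < kV1 (2 * (N : ℝ)) mm eM := by
    unfold kV1
    exact div_pos (mul_pos hp hsmm) (mul_pos (by norm_num) heM)
  have hL : 0 ≤ kL0 em mm mM := by
    unfold kL0
    apply div_nonneg _ hem0.le
    have h1 : 0 ≤ 4 * mM / sqrt mm := div_nonneg (mul_nonneg (by norm_num) hmM.le) hsmm.le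
    have h2 : 0 ≤ 10 * sqrt mM := mul_nonneg (by norm_num) hsmM.le
    linarith
  have hC : 0 ≤ kC (2 * (N : ℝ)) mm mM eM := by
    unfold kC
    exact div_nonneg (mul_nonneg hp.le hmm0.le)
      (mul_nonneg (mul_nonneg (by norm_num) hsmM.le) heM.le)
  obtain ⟨κ, hκ, n, φ, hφs, h0, hφ, hn⟩ := klein_close a ha
    (fun κ x φ => PhiK (2 * (N : ℝ)) (1 - (2 * (N : ℝ)) ^ 2 / (2 * (N : ℝ) + 1) ^ 2)
      e de m θ κ x φ) θ
    (fun κ hκ => phiK_smooth hb hg he hde hm hθ hκ)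
    (kV1 (2 * (N : ℝ)) mm eM) (kV2 (2 * (N : ℝ)) mM em) (kL0 em mm mM) K Λ
    (kC (2 * (N : ℝ)) mm mM eM) hv1 hL hK0 hΛ0 hC
    (fun κ hκ x φ => phiK_ge hb hg hκ x φ) (fun κ hκ x φ => phiK_le hb hg hκ x φ)
    (phiK_lip0 hb hg) hK hΛ hθ.continuous hθ2 (phiK_gap hb hg) hbig
  obtain ⟨hodd, hper⟩ := klein_sym a
    (fun x y => PhiK (2 * (N : ℝ)) (1 - (2 * (N : ℝ)) ^ 2 / (2 * (N : ℝ) + 1) ^ 2)
      e de m θ κ x y) K (hK κ hκ)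
    (phiK_neg (2 * (N : ℝ)) (1 - (2 * (N : ℝ)) ^ 2 / (2 * (N : ℝ) + 1) ^ 2) e de m θ
      ee ode em' oθ κ)
    (phiK_add_period (2 * (N : ℝ)) (1 - (2 * (N : ℝ)) ^ 2 / (2 * (N : ℝ) + 1) ^ 2) e de m θ a
      pe pde pm pθ κ)
    (phiK_add_pi (2 * (N : ℝ)) (1 - (2 * (N : ℝ)) ^ 2 / (2 * (N : ℝ) + 1) ^ 2) e de m θ κ)
    φ hφ h0 n hn
  exact ⟨N, hN, hg, κ, hκ, n, φ, hφs, hφ, hodd, hper⟩

end Vale.Agent.Lib.P205.KB
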