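import Mathlib

/-!
# An averaging estimate along an increasing function
-/

namespace Vale.Agent.Lib.P205.KB

open Real

private theorem kavg_prim (u : ℝ) :
    HasDerivAt (fun t : ℝ => t / 2 - sin (4 * t) / 8) (sin (2 * u) ^ 2) u := by
  have h1 : HasDerivAt (fun t : ℝ => 4 * t) 4 u := by
    simpa using (hasDerivAt_id u).const_mul (4 : ℝ)
  have h2 : HasDerivAt (fun t : ℝ => sin (4 * t)) (cos (4 * u) * 4) u :=
    (Real.hasDerivAt_sin (4 * u)).comp u h1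
  have h3 : HasDerivAt (fun t : ℝ => t / 2 - sin (4 * t) / 8)
      (1 / 2 - cos (4 * u) * 4 / 8) u :=
    ((hasDerivAt_id u).div_const 2).sub (h2.div_const 8)
  have h4 : cos (4 * u) = 1 - 2 * sin (2 * u) ^ 2 := by
    have h5 : (4 : ℝ) * u = 2 * (2 * u) := by ring
    rw [h5, Real.cos_two_mul, Real.cos_sq']
    ring
  have h6 : (1 : ℝ) / 2 - cos (4 * u) * 4 / 8 = sin (2 * u) ^ 2 := by
    rw [h4]
    ring
  rw [h6] at h3
  exact h3

/-- If the derivative of `φ` lies between `v₁ > 0` and `v₂` on `[x₀, x₁]`, then the average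
of `sin^2 (2 φ)` over this interval is bounded below. -/
theorem avg_sin_sq (φ dφ : ℝ → ℝ) (hφ : ∀ x, HasDerivAt φ (dφ x) x) (hc : Continuous dφ)
    (v₁ v₂ x₀ x₁ : ℝ) (hv₁ : 0 < v₁) (hx : x₀ ≤ x₁)
    (hlo : ∀ x ∈ Set.Icc x₀ x₁, v₁ ≤ dφ x) (hhi : ∀ x ∈ Set.Icc x₀ x₁, dφ x ≤ v₂) :
    (v₁ * (x₁ - x₀) / 2 - 1 / 4) / v₂ ≤ ∫ x in x₀..x₁, sin (2 * φ x) ^ 2 := by
  have hx0 : x₀ ∈ Set.Icc x₀ x₁ := ⟨le_refl _, hx⟩
  have hv₂ : 0 < v₂ := lt_of_lt_of_le hv₁ (le_trans (hlo x₀ hx0) (hhi x₀ hx0))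
  have hφc : Continuous φ :=
    continuous_iff_continuousAt.mpr (fun x => (hφ x).continuousAt)
  have hsc : Continuous (fun x : ℝ => sin (2 * φ x) ^ 2) := by
    have h1 : Continuous (fun x : ℝ => 2 * φ x) := continuous_const.mul hφc
    exact (Real.continuous_sin.comp h1).pow 2
  have hsdc : Continuous (fun x : ℝ => sin (2 * φ x) ^ 2 * dφ x) := hsc.mul hc
  -- the fundamental theorem for the composite primitive
  have hder : ∀ x ∈ Set.uIcc x₀ x₁,
      HasDerivAt (fun y : ℝ => φ y / 2 - sin (4 * φ y) / 8) (sin (2 * φ x) ^ 2 * dφ x) x := by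
    intro x _
    exact (kavg_prim (φ x)).comp x (hφ x)
  have hint : ∫ x in x₀..x₁, sin (2 * φ x) ^ 2 * dφ x
      = (φ x₁ / 2 - sin (4 * φ x₁) / 8) - (φ x₀ / 2 - sin (4 * φ x₀) / 8) :=
    intervalIntegral.integral_eq_sub_of_hasDerivAt hder (hsdc.intervalIntegrable x₀ x₁)
  -- the increment of phi
  have hφint : ∫ x in x₀..x₁, dφ x = φ x₁ - φ x₀ :=
    intervalIntegral.integral_eq_sub_of_hasDerivAt (fun x _ => hφ x) (hc.intervalIntegrable x₀ x₁)
  have hinc : v₁ * (x₁ - x₀) ≤ φ x₁ - φ x₀ := by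
    have h1 : ∫ _x in x₀..x₁, v₁ ≤ ∫ x in x₀..x₁, dφ x :=
      intervalIntegral.integral_mono_on hx (continuous_const.intervalIntegrable x₀ x₁)
        (hc.intervalIntegrable x₀ x₁) (fun x hx' => hlo x hx')
    rw [intervalIntegral.integral_const, hφint] at h1
    have h2 : (x₁ - x₀) • v₁ = v₁ * (x₁ - x₀) := by
      rw [smul_eq_mul]
      ring
    rw [h2] at h1
    exact h1
  -- comparison with the weighted integral
  have hcmp : ∫ x in x₀..x₁, sin (2 * φ x) ^ 2 * dφ x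
      ≤ ∫ x in x₀..x₁, v₂ * sin (2 * φ x) ^ 2 := by
    have hvc : Continuous (fun x : ℝ => v₂ * sin (2 * φ x) ^ 2) := continuous_const.mul hsc
    apply intervalIntegral.integral_mono_on hx (hsdc.intervalIntegrable x₀ x₁)
      (hvc.intervalIntegrable x₀ x₁)
    intro x hx'
    have h1 : 0 ≤ sin (2 * φ x) ^ 2 := sq_nonneg _
    have h2 := mul_le_mul_of_nonneg_left (hhi x hx') h1
    show sin (2 * φ x) ^ 2 * dφ x ≤ v₂ * sin (2 * φ x) ^ 2
    linarith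
  rw [intervalIntegral.integral_const_mul] at hcmp
  have hs1 : sin (4 * φ x₁) ≤ 1 := Real.sin_le_one _
  have hs0 : -1 ≤ sin (4 * φ x₀) := Real.neg_one_le_sin _
  rw [div_le_iff₀ hv₂]
  have hfin : v₁ * (x₁ - x₀) / 2 - 1 / 4 ≤ v₂ * ∫ x in x₀..x₁, sin (2 * φ x) ^ 2 := by
    linarith
  linarith

end Vale.Agent.Lib.P205.KB
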