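import Vale.Agent.Lib.P205.KB.KOdeCompare
import Vale.Agent.Lib.P205.KB.KAvg

/-!
# The angle gained at parameter zero exceeds the angle gained at parameter one
-/

namespace Vale.Agent.Lib.P205.KB

open Real

/-- If the right-hand side `Φ₁` is smaller than `Φ₀` by at least `c θ^2 sin^2 (2 φ)`, where
`θ^2 ≥ 1/2` on `[a/8, 3a/8]`, and `v₁ ≤ Φ₁ ≤ v₂`, then solutions with the same initial value
at `0` differ at `a` by at least `exp(-L a) (c/2) (v₁ (a/4)/2 - 1/4) / v₂`. -/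
theorem klein_gap (a : ℝ) (ha : 0 < a) (Φ₀ Φ₁ : ℝ → ℝ → ℝ) (θ : ℝ → ℝ)
    (v₁ v₂ L c : ℝ) (hv₁ : 0 < v₁) (hL : 0 ≤ L) (hc : 0 ≤ c)
    (hlo : ∀ x φ, v₁ ≤ Φ₁ x φ) (hhi : ∀ x φ, Φ₁ x φ ≤ v₂)
    (hcont : Continuous (fun z : ℝ × ℝ => Φ₁ z.1 z.2))
    (hL0 : ∀ x φ φ', |Φ₀ x φ - Φ₀ x φ'| ≤ L * |φ - φ'|)
    (hθc : Continuous θ) (hθ : ∀ x ∈ Set.Icc (a / 8) (3 * a / 8), 1 / 2 ≤ θ x ^ 2)
    (hgap : ∀ x φ, c * (θ x ^ 2 * sin (2 * φ) ^ 2) ≤ Φ₀ x φ - Φ₁ x φ)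
    (φ₀ φ₁ : ℝ → ℝ) (h₀ : ∀ x, HasDerivAt φ₀ (Φ₀ x (φ₀ x)) x)
    (h₁ : ∀ x, HasDerivAt φ₁ (Φ₁ x (φ₁ x)) x) (h0 : φ₀ 0 = φ₁ 0) :
    exp (-(L * a)) * (c / 2 * ((v₁ * (a / 4) / 2 - 1 / 4) / v₂)) ≤ φ₀ a - φ₁ a := by
  have hφ₁c : Continuous φ₁ :=
    continuous_iff_continuousAt.mpr fun x => (h₁ x).continuousAt
  set δ : ℝ → ℝ → ℝ := fun x φ => c * (θ x ^ 2 * sin (2 * φ) ^ 2) with hδ
  have hδ0 : ∀ x y, 0 ≤ δ x y := fun x y => by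
    simp only [hδ]
    positivity
  have hle : ∀ x y, Φ₁ x y + δ x y ≤ Φ₀ x y := fun x y => by
    have := hgap x y
    simp only [hδ]
    linarith
  have hδc : Continuous fun t => δ t (φ₁ t) := by
    simp only [hδ]
    fun_prop
  have hmain := ode_gap Φ₀ Φ₁ δ L hL hL0 hδ0 hle φ₀ φ₁ h₀ h₁ h0 hδc a ha.le
  have hdc : Continuous fun x => Φ₁ x (φ₁ x) := by
    have hpair : Continuous fun x : ℝ => ((x, φ₁ x) : ℝ × ℝ) := by fun_prop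
    exact hcont.comp hpair
  have havg := avg_sin_sq φ₁ (fun x => Φ₁ x (φ₁ x)) h₁ hdc v₁ v₂ (a / 8) (3 * a / 8) hv₁
    (by linarith) (fun x _ => hlo x _) (fun x _ => hhi x _)
  have h38 : 3 * a / 8 - a / 8 = a / 4 := by ring
  rw [h38] at havg
  have hint : ∀ u v : ℝ,
      IntervalIntegrable (fun t => δ t (φ₁ t)) MeasureTheory.volume u v :=
    fun u v => hδc.intervalIntegrable u v
  have hsplit : ∫ t in (0 : ℝ)..a, δ t (φ₁ t) =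
      (∫ t in (0 : ℝ)..(a / 8), δ t (φ₁ t)) + (∫ t in (a / 8)..(3 * a / 8), δ t (φ₁ t)) +
        ∫ t in (3 * a / 8)..a, δ t (φ₁ t) := by
    rw [intervalIntegral.integral_add_adjacent_intervals (hint _ _) (hint _ _),
      intervalIntegral.integral_add_adjacent_intervals (hint _ _) (hint _ _)]
  have hA : 0 ≤ ∫ t in (0 : ℝ)..(a / 8), δ t (φ₁ t) :=
    intervalIntegral.integral_nonneg (by linarith) (fun t _ => hδ0 _ _)
  have hB : 0 ≤ ∫ t in (3 * a / 8)..a, δ t (φ₁ t) :=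
    intervalIntegral.integral_nonneg (by linarith) (fun t _ => hδ0 _ _)
  have hsc : Continuous fun t => sin (2 * φ₁ t) ^ 2 := by fun_prop
  have hmid : c / 2 * ∫ t in (a / 8)..(3 * a / 8), sin (2 * φ₁ t) ^ 2 ≤
      ∫ t in (a / 8)..(3 * a / 8), δ t (φ₁ t) := by
    rw [← intervalIntegral.integral_const_mul]
    have hsc2 : Continuous fun t => c / 2 * sin (2 * φ₁ t) ^ 2 := by fun_prop
    apply intervalIntegral.integral_mono_on (by linarith)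
      (hsc2.intervalIntegrable _ _) (hint _ _)
    intro t ht
    have h1 := hθ t ht
    have h2 : 0 ≤ sin (2 * φ₁ t) ^ 2 := sq_nonneg _
    simp only [hδ]
    have h3 : c / 2 * sin (2 * φ₁ t) ^ 2 = c * (1 / 2 * sin (2 * φ₁ t) ^ 2) := by ring
    rw [h3]
    exact mul_le_mul_of_nonneg_left (mul_le_mul_of_nonneg_right h1 h2) hc
  have hfin : c / 2 * ((v₁ * (a / 4) / 2 - 1 / 4) / v₂) ≤ ∫ t in (0 : ℝ)..a, δ t (φ₁ t) := by
    have h4 := mul_le_mul_of_nonneg_left havg (by linarith : (0 : ℝ) ≤ c / 2)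
    linarith
  calc exp (-(L * a)) * (c / 2 * ((v₁ * (a / 4) / 2 - 1 / 4) / v₂))
      ≤ exp (-(L * a)) * ∫ t in (0 : ℝ)..a, δ t (φ₁ t) :=
        mul_le_mul_of_nonneg_left hfin (exp_pos _).le
    _ ≤ φ₀ a - φ₁ a := hmain

end Vale.Agent.Lib.P205.KB
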