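import Mathlib

/-!
# Uniqueness and continuous dependence for a scalar first order equation
-/

namespace Vale.Agent.Lib.P205.KB

/-- Two global solutions that agree at one point agree everywhere. -/
theorem ode_unique (f : ℝ → ℝ → ℝ) (K : ℝ)
    (hK : ∀ x y y', |f x y - f x y'| ≤ K * |y - y'|) (φ ψ : ℝ → ℝ)
    (hφ : ∀ x, HasDerivAt φ (f x (φ x)) x) (hψ : ∀ x, HasDerivAt ψ (f x (ψ x)) x)
    (x₀ : ℝ) (h : φ x₀ = ψ x₀) : φ = ψ := by
  have hK0 : 0 ≤ K := by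
    have h1 := hK 0 0 1
    have h2 : |(0 : ℝ) - 1| = 1 := by norm_num
    rw [h2, mul_one] at h1
    exact le_trans (abs_nonneg _) h1
  have hv : ∀ t, LipschitzOnWith K.toNNReal (f t) Set.univ := by
    intro t
    apply LipschitzWith.lipschitzOnWith
    apply LipschitzWith.of_dist_le_mul
    intro y y'
    rw [Real.dist_eq, Real.dist_eq, Real.coe_toNNReal K hK0]
    exact hK t y y'
  exact ODE_solution_unique_univ (s := fun _ => Set.univ) hv (fun t => ⟨hφ t, trivial⟩)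
    (fun t => ⟨hψ t, trivial⟩) h

/-- Solutions of two equations whose right-hand sides differ by at most `η`, with the same
initial value at zero, differ by at most `η x exp(K x)` at `x ≥ 0`. -/
theorem ode_dep (f₁ f₂ : ℝ → ℝ → ℝ) (K η : ℝ) (hK0 : 0 ≤ K)
    (hK : ∀ x y y', |f₁ x y - f₁ x y'| ≤ K * |y - y'|)
    (hη : ∀ x y, |f₁ x y - f₂ x y| ≤ η) (φ₁ φ₂ : ℝ → ℝ)
    (h₁ : ∀ x, HasDerivAt φ₁ (f₁ x (φ₁ x)) x) (h₂ : ∀ x, HasDerivAt φ₂ (f₂ x (φ₂ x)) x)
    (h0 : φ₁ 0 = φ₂ 0) (x : ℝ) (hx : 0 ≤ x) :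
    |φ₁ x - φ₂ x| ≤ η * x * Real.exp (K * x) := by
  have hη0 : 0 ≤ η := le_trans (abs_nonneg _) (hη 0 0)
  have hv : ∀ t, LipschitzWith K.toNNReal (f₁ t) := by
    intro t
    apply LipschitzWith.of_dist_le_mul
    intro y y'
    rw [Real.dist_eq, Real.dist_eq, Real.coe_toNNReal K hK0]
    exact hK t y y'
  have hc1 : ContinuousOn φ₁ (Set.Icc 0 x) :=
    fun t _ => (h₁ t).continuousAt.continuousWithinAt
  have hc2 : ContinuousOn φ₂ (Set.Icc 0 x) :=
    fun t _ => (h₂ t).continuousAt.continuousWithinAt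
  have hb1 : ∀ t ∈ Set.Ico (0 : ℝ) x, dist (f₁ t (φ₁ t)) (f₁ t (φ₁ t)) ≤ 0 :=
    fun t _ => (dist_self _).le
  have hb2 : ∀ t ∈ Set.Ico (0 : ℝ) x, dist (f₂ t (φ₂ t)) (f₁ t (φ₂ t)) ≤ η := by
    intro t _
    rw [Real.dist_eq, abs_sub_comm]
    exact hη t (φ₂ t)
  have hd0 : dist (φ₁ 0) (φ₂ 0) ≤ 0 := by
    rw [h0, dist_self]
  have key := dist_le_of_approx_trajectories_ODE (v := f₁) (K := K.toNNReal) (f := φ₁)
    (g := φ₂) (f' := fun t => f₁ t (φ₁ t)) (g' := fun t => f₂ t (φ₂ t)) (a := 0) (b := x)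
    (εf := 0) (εg := η) (δ := 0) hv hc1 (fun t _ => (h₁ t).hasDerivWithinAt) hb1 hc2
    (fun t _ => (h₂ t).hasDerivWithinAt) hb2 hd0 x ⟨hx, le_rfl⟩
  rw [Real.dist_eq, zero_add, sub_zero, Real.coe_toNNReal K hK0] at key
  refine le_trans key ?_
  by_cases hKz : K = 0
  · subst hKz
    rw [gronwallBound_K0]
    show 0 + η * x ≤ η * x * Real.exp (0 * x)
    rw [zero_add, zero_mul, Real.exp_zero, mul_one]
  · rw [gronwallBound_of_K_ne_0 hKz]
    show 0 * Real.exp (K * x) + η / K * (Real.exp (K * x) - 1) ≤ η * x * Real.exp (K * x)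
    rw [zero_mul, zero_add]
    have hKpos : 0 < K := lt_of_le_of_ne hK0 (Ne.symm hKz)
    have h3 : Real.exp (K * x) - 1 ≤ K * x * Real.exp (K * x) := by
      have h4 := Real.add_one_le_exp (-(K * x))
      have h5 : Real.exp (-(K * x)) * Real.exp (K * x) = 1 := by
        rw [← Real.exp_add]
        simp
      have h6 := mul_le_mul_of_nonneg_right h4 (Real.exp_pos (K * x)).le
      rw [h5] at h6
      linarith
    rw [div_mul_eq_mul_div, div_le_iff₀ hKpos]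
    have h7 := mul_le_mul_of_nonneg_left h3 hη0
    linarith

end Vale.Agent.Lib.P205.KB
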