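import Vale.Agent.Lib.P205.KB.KOdeExist
import Vale.Agent.Lib.P205.KB.KOdeBasic
import Vale.Agent.Lib.P205.KB.KGap

/-!
# Closing the profile curve: a parameter value for which the angle gains a multiple of `2 pi`
-/

namespace Vale.Agent.Lib.P205.KB

open scoped ContDiff
open Real

/-- For a one-parameter family of right-hand sides `Φ κ`, `κ ∈ [0, 1]`, with uniform bounds,
Lipschitz dependence on the parameter and a quantitative slow-down between `κ = 0` and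
`κ = 1`, some parameter value has a global solution through `0` whose value at `a` is an
integer multiple of `2 pi`. -/
theorem klein_close (a : ℝ) (ha : 0 < a) (Φ : ℝ → ℝ → ℝ → ℝ) (θ : ℝ → ℝ)
    (hsm : ∀ κ ∈ Set.Icc (0 : ℝ) 1, ContDiff ℝ ∞ (fun z : ℝ × ℝ => Φ κ z.1 z.2))
    (v₁ v₂ L K Λ c : ℝ) (hv₁ : 0 < v₁) (hL : 0 ≤ L) (hK0 : 0 ≤ K) (hΛ0 : 0 ≤ Λ) (hc : 0 ≤ c)
    (hlo : ∀ κ ∈ Set.Icc (0 : ℝ) 1, ∀ x φ, v₁ ≤ Φ κ x φ)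
    (hhi : ∀ κ ∈ Set.Icc (0 : ℝ) 1, ∀ x φ, Φ κ x φ ≤ v₂)
    (hL0 : ∀ x φ φ', |Φ 0 x φ - Φ 0 x φ'| ≤ L * |φ - φ'|)
    (hK : ∀ κ ∈ Set.Icc (0 : ℝ) 1, ∀ x φ φ', |Φ κ x φ - Φ κ x φ'| ≤ K * |φ - φ'|)
    (hΛ : ∀ κ ∈ Set.Icc (0 : ℝ) 1, ∀ κ' ∈ Set.Icc (0 : ℝ) 1, ∀ x φ,
      |Φ κ x φ - Φ κ' x φ| ≤ Λ * |κ - κ'|)
    (hθc : Continuous θ) (hθ : ∀ x ∈ Set.Icc (a / 8) (3 * a / 8), 1 / 2 ≤ θ x ^ 2)
    (hgap : ∀ x φ, c * (θ x ^ 2 * sin (2 * φ) ^ 2) ≤ Φ 0 x φ - Φ 1 x φ)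
    (hbig : 2 * π ≤ exp (-(L * a)) * (c / 2 * ((v₁ * (a / 4) / 2 - 1 / 4) / v₂))) :
    ∃ κ ∈ Set.Icc (0 : ℝ) 1, ∃ n : ℤ, ∃ φ : ℝ → ℝ, ContDiff ℝ ∞ φ ∧ φ 0 = 0 ∧
      (∀ x, HasDerivAt φ (Φ κ x (φ x)) x) ∧ φ a = 2 * π * n := by
  have hex : ∀ κ ∈ Set.Icc (0 : ℝ) 1, ∃ φ : ℝ → ℝ, ContDiff ℝ ∞ φ ∧ φ 0 = 0 ∧
      ∀ x, HasDerivAt φ (Φ κ x (φ x)) x := by
    intro κ hκ
    refine ode_exists_global (Φ κ) (hsm κ hκ) v₂ K (fun x y => ?_) (hK κ hκ)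
    rw [abs_le]
    exact ⟨by linarith [hlo κ hκ x y, hhi κ hκ x y], hhi κ hκ x y⟩
  choose! sol hsol using hex
  have h0mem : (0 : ℝ) ∈ Set.Icc (0 : ℝ) 1 := ⟨le_refl 0, zero_le_one⟩
  have h1mem : (1 : ℝ) ∈ Set.Icc (0 : ℝ) 1 := ⟨zero_le_one, le_refl 1⟩
  have hC : 0 ≤ Λ * a * Real.exp (K * a) :=
    mul_nonneg (mul_nonneg hΛ0 ha.le) (Real.exp_pos _).le
  have hlip : LipschitzOnWith (Real.toNNReal (Λ * a * Real.exp (K * a)))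
      (fun κ => sol κ a) (Set.Icc (0 : ℝ) 1) := by
    refine LipschitzOnWith.of_dist_le_mul (fun κ hκ κ' hκ' => ?_)
    rw [Real.coe_toNNReal _ hC, Real.dist_eq, Real.dist_eq]
    have h := ode_dep (Φ κ) (Φ κ') K (Λ * |κ - κ'|) hK0 (hK κ hκ)
      (fun x y => hΛ κ hκ κ' hκ' x y) (sol κ) (sol κ') (hsol κ hκ).2.2 (hsol κ' hκ').2.2
      (by rw [(hsol κ hκ).2.1, (hsol κ' hκ').2.1]) a ha.le
    calc |sol κ a - sol κ' a| ≤ Λ * |κ - κ'| * a * Real.exp (K * a) := h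
      _ = Λ * a * Real.exp (K * a) * |κ - κ'| := by ring
  have hcont : ContinuousOn (fun κ => sol κ a) (Set.Icc (0 : ℝ) 1) := hlip.continuousOn
  have hg := klein_gap a ha (Φ 0) (Φ 1) θ v₁ v₂ L c hv₁ hL hc (hlo 1 h1mem) (hhi 1 h1mem)
    (hsm 1 h1mem).continuous hL0 hθc hθ hgap (sol 0) (sol 1) (hsol 0 h0mem).2.2
    (hsol 1 h1mem).2.2 (by rw [(hsol 0 h0mem).2.1, (hsol 1 h1mem).2.1])
  have hgap2 : 2 * π ≤ sol 0 a - sol 1 a := le_trans hbig hg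
  have h2pi : (0 : ℝ) < 2 * π := by positivity
  have hn1 : sol 1 a ≤ 2 * π * (⌈sol 1 a / (2 * π)⌉ : ℝ) := by
    have h := Int.le_ceil (sol 1 a / (2 * π))
    rw [div_le_iff₀ h2pi] at h
    linarith
  have hn2 : 2 * π * (⌈sol 1 a / (2 * π)⌉ : ℝ) ≤ sol 0 a := by
    have h := Int.ceil_lt_add_one (sol 1 a / (2 * π))
    have h' : (⌈sol 1 a / (2 * π)⌉ : ℝ) * (2 * π) < (sol 1 a / (2 * π) + 1) * (2 * π) :=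
      mul_lt_mul_of_pos_right h h2pi
    have h'' : (sol 1 a / (2 * π) + 1) * (2 * π) = sol 1 a + 2 * π := by
      field_simp
    linarith
  have hivt := intermediate_value_Icc' (zero_le_one : (0 : ℝ) ≤ 1) hcont
  obtain ⟨κ, hκ, hκn⟩ := hivt ⟨hn1, hn2⟩
  exact ⟨κ, hκ, ⌈sol 1 a / (2 * π)⌉, sol κ, (hsol κ hκ).1, (hsol κ hκ).2.1,
    (hsol κ hκ).2.2, hκn⟩

end Vale.Agent.Lib.P205.KB
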