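import Vale.Agent.Lib.P205.KB.KDefs

/-!
# Basic properties of the data `kE`, `kM`, `kTh`
-/

namespace Vale.Agent.Lib.P205.KB

open scoped ContDiff
open Real

theorem kE_smooth (b : ℝ) (G : ℝ → ℝ) (hG : ContDiff ℝ ∞ G) (hGpos : ∀ x, 0 < G x) :
    ContDiff ℝ ∞ (kE b G) := by
  unfold kE
  exact (hG.sqrt (fun x => (hGpos x).ne')).div_const _

theorem kE_pos (b : ℝ) (hb : 0 < b) (G : ℝ → ℝ) (hGpos : ∀ x, 0 < G x) (x : ℝ) :
    0 < kE b G x := by
  unfold kE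
  exact div_pos (Real.sqrt_pos.mpr (hGpos x)) (div_pos Real.pi_pos hb)

theorem kE_sq (b : ℝ) (G : ℝ → ℝ) (hGpos : ∀ x, 0 < G x) (x : ℝ) :
    kE b G x ^ 2 = G x / (π / b) ^ 2 := by
  unfold kE
  rw [div_pow, Real.sq_sqrt (hGpos x).le]

theorem kE_even (b : ℝ) (G : ℝ → ℝ) (hGev : ∀ x, G (-x) = G x) (x : ℝ) :
    kE b G (-x) = kE b G x := by
  unfold kE
  rw [hGev x]

theorem kE_per (a b : ℝ) (G : ℝ → ℝ) (hGper : ∀ x, G (x + a) = G x) (x : ℝ) :
    kE b G (x + a) = kE b G x := by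
  unfold kE
  rw [hGper x]

theorem kE_hasDerivAt (b : ℝ) (G : ℝ → ℝ) (hG : ContDiff ℝ ∞ G) (hGpos : ∀ x, 0 < G x)
    (x : ℝ) : HasDerivAt (kE b G) (deriv (kE b G) x) x := by
  have h := (kE_smooth b G hG hGpos).differentiable (by simp)
  exact (h x).hasDerivAt

theorem kE_deriv_smooth (b : ℝ) (G : ℝ → ℝ) (hG : ContDiff ℝ ∞ G) (hGpos : ∀ x, 0 < G x) :
    ContDiff ℝ ∞ (deriv (kE b G)) := by
  exact (contDiff_infty_iff_deriv.mp (kE_smooth b G hG hGpos)).2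

theorem kE_deriv_odd (b : ℝ) (G : ℝ → ℝ) (hGev : ∀ x, G (-x) = G x) (x : ℝ) :
    deriv (kE b G) (-x) = -deriv (kE b G) x := by
  have h1 : kE b G = fun y => kE b G (-y) := by
    funext y
    exact (kE_even b G hGev y).symm
  have h2 : deriv (fun y => kE b G (-y)) x = -deriv (kE b G) (-x) := deriv_comp_neg _ x
  rw [← h1] at h2
  rw [h2, neg_neg]

theorem kE_deriv_per (a b : ℝ) (G : ℝ → ℝ) (hGper : ∀ x, G (x + a) = G x) (x : ℝ) :
    deriv (kE b G) (x + a) = deriv (kE b G) x := by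
  have h1 : (fun y => kE b G (y + a)) = kE b G := by
    funext y
    exact kE_per a b G hGper y
  have h2 : deriv (fun y => kE b G (y + a)) x = deriv (kE b G) (x + a) :=
    deriv_comp_add_const _ a x
  rw [h1] at h2
  exact h2.symm

theorem kM_smooth (E F G : ℝ → ℝ) (hE : ContDiff ℝ ∞ E) (hF : ContDiff ℝ ∞ F)
    (hG : ContDiff ℝ ∞ G) (hGpos : ∀ x, 0 < G x) : ContDiff ℝ ∞ (kM E F G) := by
  unfold kM
  exact hE.sub ((hF.pow 2).div hG (fun x => (hGpos x).ne'))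

theorem kM_pos (E F G : ℝ → ℝ) (hGpos : ∀ x, 0 < G x)
    (hdet : ∀ x, 0 < E x * G x - F x ^ 2) (x : ℝ) : 0 < kM E F G x := by
  unfold kM
  have h : E x - F x ^ 2 / G x = (E x * G x - F x ^ 2) / G x := by
    have := (hGpos x).ne'
    field_simp
  rw [h]
  exact div_pos (hdet x) (hGpos x)

theorem kM_even (E F G : ℝ → ℝ) (hEev : ∀ x, E (-x) = E x) (hFodd : ∀ x, F (-x) = -F x)
    (hGev : ∀ x, G (-x) = G x) (x : ℝ) : kM E F G (-x) = kM E F G x := by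
  unfold kM
  rw [hEev x, hFodd x, hGev x, neg_sq]

theorem kM_per (a : ℝ) (E F G : ℝ → ℝ) (hEper : ∀ x, E (x + a) = E x)
    (hFper : ∀ x, F (x + a) = F x) (hGper : ∀ x, G (x + a) = G x) (x : ℝ) :
    kM E F G (x + a) = kM E F G x := by
  unfold kM
  rw [hEper x, hFper x, hGper x]

theorem kTh_smooth (a : ℝ) : ContDiff ℝ ∞ (kTh a) := by
  unfold kTh
  exact Real.contDiff_sin.comp ((contDiff_const.mul contDiff_id).div_const _)

theorem kTh_odd (a x : ℝ) : kTh a (-x) = -kTh a x := by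
  unfold kTh
  rw [← Real.sin_neg]
  congr 1
  ring

theorem kTh_per (a : ℝ) (ha : 0 < a) (x : ℝ) : kTh a (x + a) = kTh a x := by
  unfold kTh
  have h : 2 * π * (x + a) / a = 2 * π * x / a + 2 * π := by
    have := ha.ne'
    field_simp
  rw [h, Real.sin_add_two_pi]

theorem kTh_abs_le (a x : ℝ) : |kTh a x| ≤ 1 := by
  unfold kTh
  exact Real.abs_sin_le_one _

theorem kTh_sq_ge (a : ℝ) (ha : 0 < a) (x : ℝ) (hx : x ∈ Set.Icc (a / 8) (3 * a / 8)) :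
    1 / 2 ≤ kTh a x ^ 2 := by
  unfold kTh
  obtain ⟨t, ht⟩ : ∃ t, t = 2 * π * x / a := ⟨_, rfl⟩
  rw [← ht]
  have hpi := Real.pi_pos
  have h1 : π / 4 ≤ t := by
    rw [ht, le_div_iff₀ ha]
    have := hx.1
    nlinarith
  have h2 : t ≤ 3 * π / 4 := by
    rw [ht, div_le_iff₀ ha]
    have := hx.2
    nlinarith
  have h3 : Real.cos (2 * t) ≤ 0 :=
    Real.cos_nonpos_of_pi_div_two_le_of_le (by linarith) (by linarith)
  have h4 : Real.sin t ^ 2 = 1 / 2 - Real.cos (2 * t) / 2 := Real.sin_sq_eq_half_sub t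
  rw [h4]
  linarith

end Vale.Agent.Lib.P205.KB
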