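import Vale.Agent.Lib.P205.KB.KDefs

/-!
# Two-sided bounds for the data of the profile equation
-/

namespace Vale.Agent.Lib.P205.KB

open scoped ContDiff
open Real

/-- A continuous periodic function attains a global minimum and a global maximum. -/
theorem kdb_periodic_bounds (a : ℝ) (ha : 0 < a) (h : ℝ → ℝ) (hc : Continuous h)
    (hp : ∀ x, h (x + a) = h x) :
    ∃ x₀ x₁ : ℝ, (∀ x, h x₀ ≤ h x) ∧ (∀ x, h x ≤ h x₁) := by
  have hper : Function.Periodic h a := hp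
  have hne : (Set.Icc (0 : ℝ) a).Nonempty := ⟨0, Set.left_mem_Icc.mpr ha.le⟩
  obtain ⟨x₀, _, hmin⟩ := isCompact_Icc.exists_isMinOn hne hc.continuousOn
  obtain ⟨x₁, _, hmax⟩ := isCompact_Icc.exists_isMaxOn hne hc.continuousOn
  refine ⟨x₀, x₁, fun x => ?_, fun x => ?_⟩
  · obtain ⟨y, hy, hxy⟩ := hper.exists_mem_Ico₀ ha x
    rw [hxy]
    exact hmin (Set.Ico_subset_Icc_self hy)
  · obtain ⟨y, hy, hxy⟩ := hper.exists_mem_Ico₀ ha x
    rw [hxy]
    exact hmax (Set.Ico_subset_Icc_self hy)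

/-- Continuous periodic data with `e > 0` and `m > 0` and `|θ| ≤ 1` have two-sided bounds. -/
theorem kbounds_exist (a : ℝ) (ha : 0 < a) (e de m θ : ℝ → ℝ) (he : Continuous e)
    (hde : Continuous de) (hm : Continuous m)
    (pe : ∀ x, e (x + a) = e x) (pde : ∀ x, de (x + a) = de x) (pm : ∀ x, m (x + a) = m x)
    (hepos : ∀ x, 0 < e x) (hmpos : ∀ x, 0 < m x) (hθ : ∀ x, |θ x| ≤ 1) :
    ∃ em eM d mm mM : ℝ, KBounds e de m θ em eM d mm mM := by
  obtain ⟨x₀, x₁, he0, he1⟩ := kdb_periodic_bounds a ha e he pe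
  obtain ⟨y₀, y₁, hm0, hm1⟩ := kdb_periodic_bounds a ha m hm pm
  obtain ⟨_, z₁, _, hd1⟩ := kdb_periodic_bounds a ha (fun x => |de x|) hde.abs
    (fun x => by rw [pde x])
  exact ⟨e x₀, e x₁, |de z₁|, m y₀, m y₁,
    ⟨hepos x₀, he0, he1, hd1, hmpos y₀, hm0, hm1, hθ⟩⟩

end Vale.Agent.Lib.P205.KB
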