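import Mathlib

/-!
# Circle-invariant metrics on the Klein bottle: definitions

The Klein bottle is `R^2` modulo `(x, y) ~ (x + a, y)` and `(x, y) ~ (-x, y + b)`.  An
invariant metric is `E(x) dx^2 + 2 F(x) dx dy + G(x) dy^2` with `E`, `G` even, `F` odd, all
`a`-periodic.  The immersion is `(x, y) ↦ (A(x) exp(i p om y), B(x) exp(i q om y))` with
`om = pi / b`, `p = 2 N` even, `q = 2 N + 1` odd, `A` even and `B` odd.  Writing
`|A| = (e / p) cos phi`, `|B| = (e / q) sin phi` with `e = sqrt G / om`, the angle `phi`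
solves the first order equation `phi' = PhiK ... x phi` below.
-/

namespace Vale.Agent.Lib.P205.KB

open Real

/-- The quantity under the square root in the profile equation. -/
noncomputable def RadK (p ε : ℝ) (de m θ : ℝ → ℝ) (κ x φ : ℝ) : ℝ :=
  (1 - ε * cos φ ^ 2) * (p ^ 2 * m x) * (1 - κ ^ 2 * θ x ^ 2 * (sin φ * cos φ) ^ 2) -
    de x ^ 2 * (1 - ε)

/-- The right-hand side of the profile equation `phi' = PhiK p ε e de m θ κ x phi`: the
positive root of
`e^2 (1 - ε cos^2) X^2 - 2 ε e de sin cos X + de^2 (1 - ε sin^2)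
  - p^2 m (1 - κ^2 θ^2 sin^2 cos^2) = 0`. -/
noncomputable def PhiK (p ε : ℝ) (e de m θ : ℝ → ℝ) (κ x φ : ℝ) : ℝ :=
  (ε * de x * (sin φ * cos φ) + sqrt (RadK p ε de m θ κ x φ)) / (e x * (1 - ε * cos φ ^ 2))

/-- Two-sided bounds for the data of the profile equation. -/
structure KBounds (e de m θ : ℝ → ℝ) (em eM d mm mM : ℝ) : Prop where
  em_pos : 0 < em
  e_ge : ∀ x, em ≤ e x
  e_le : ∀ x, e x ≤ eM
  de_le : ∀ x, |de x| ≤ d
  mm_pos : 0 < mm
  m_ge : ∀ x, mm ≤ m x
  m_le : ∀ x, m x ≤ mM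
  th_le : ∀ x, |θ x| ≤ 1

/-- The weight `p` is large and the anisotropy `ε` is small. -/
structure KGood (p ε d mm : ℝ) : Prop where
  p_pos : 0 < p
  eps_nonneg : 0 ≤ ε
  eps_le : ε ≤ 1 / 2
  eps_p : ε * p ≤ 2
  d_le : 4 * d ≤ p * sqrt mm

/-- Lower bound for the right-hand side. -/
noncomputable def kV1 (p mm eM : ℝ) : ℝ := p * sqrt mm / (4 * eM)

/-- Upper bound for the right-hand side. -/
noncomputable def kV2 (p mM em : ℝ) : ℝ := 4 * p * sqrt mM / em

/-- Lipschitz constant in the angle of the right-hand side at `κ = 0`. -/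
noncomputable def kL0 (em mm mM : ℝ) : ℝ := (4 * mM / sqrt mm + 10 * sqrt mM) / em

/-- Size of the slow-down produced by the parameter `κ`. -/
noncomputable def kC (p mm mM eM : ℝ) : ℝ := p * mm / (8 * sqrt mM * eM)

/-- The radius function `e = sqrt G / om`, `om = pi / b`. -/
noncomputable def kE (b : ℝ) (G : ℝ → ℝ) : ℝ → ℝ := fun x => sqrt (G x) / (π / b)

/-- The transversal speed `m = E - F^2 / G`. -/
noncomputable def kM (E F G : ℝ → ℝ) : ℝ → ℝ := fun x => E x - F x ^ 2 / G x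

/-- The odd periodic function used for the slow-down. -/
noncomputable def kTh (a : ℝ) : ℝ → ℝ := fun x => sin (2 * π * x / a)

end Vale.Agent.Lib.P205.KB
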