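import Vale.Agent.Lib.P205.Frame

/-!
# From a curve in `C^2` with two different weights to a map of the Klein bottle
-/

namespace Vale.Agent.Lib.P205.KB

open scoped ContDiff
open Real

/-- A curve `(u1 + i v1, u2 + i v2)` in `C^2`, `a`-periodic, with even first and odd second
component, rotated by `(exp(i 2N om y), exp(i (2N+1) om y))`, `om = pi / b`: the resulting
map into `R^4` is invariant under `(x, y) ↦ (x + a, y)` and `(x, y) ↦ (-x, y + b)` and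
induces the metric `E dx^2 + 2 F dx dy + G dy^2` as soon as the three equations hold. -/
theorem immersion_of_curve_klein (a b : ℝ) (hb : 0 < b) (N : ℕ) (E F G : ℝ → ℝ)
    (u₁ v₁ u₂ v₂ : ℝ → ℝ) (hu₁ : ContDiff ℝ ∞ u₁) (hv₁ : ContDiff ℝ ∞ v₁)
    (hu₂ : ContDiff ℝ ∞ u₂) (hv₂ : ContDiff ℝ ∞ v₂)
    (pu₁ : ∀ x, u₁ (x + a) = u₁ x) (pv₁ : ∀ x, v₁ (x + a) = v₁ x)
    (pu₂ : ∀ x, u₂ (x + a) = u₂ x) (pv₂ : ∀ x, v₂ (x + a) = v₂ x)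
    (eu₁ : ∀ x, u₁ (-x) = u₁ x) (ev₁ : ∀ x, v₁ (-x) = v₁ x)
    (ou₂ : ∀ x, u₂ (-x) = -u₂ x) (ov₂ : ∀ x, v₂ (-x) = -v₂ x)
    (h1 : ∀ x, (π / b) ^ 2 * ((2 * (N : ℝ)) ^ 2 * (u₁ x ^ 2 + v₁ x ^ 2) +
      (2 * (N : ℝ) + 1) ^ 2 * (u₂ x ^ 2 + v₂ x ^ 2)) = G x)
    (h2 : ∀ x, (π / b) * ((2 * (N : ℝ)) * (u₁ x * deriv v₁ x - v₁ x * deriv u₁ x) +
      (2 * (N : ℝ) + 1) * (u₂ x * deriv v₂ x - v₂ x * deriv u₂ x)) = F x)
    (h3 : ∀ x, deriv u₁ x ^ 2 + deriv v₁ x ^ 2 + deriv u₂ x ^ 2 + deriv v₂ x ^ 2 = E x) :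
    ∃ Ψ : ℝ × ℝ → EuclideanSpace ℝ (Fin 4), ContDiff ℝ ∞ Ψ ∧
      (∀ x y, Ψ (x + a, y) = Ψ (x, y)) ∧ (∀ x y, Ψ (-x, y + b) = Ψ (x, y)) ∧
      ∀ p v w : ℝ × ℝ, inner ℝ (fderiv ℝ Ψ p v) (fderiv ℝ Ψ p w) =
        E p.1 * v.1 * w.1 + F p.1 * (v.1 * w.2 + v.2 * w.1) + G p.1 * v.2 * w.2 := by
  have hb0 : b ≠ 0 := hb.ne'
  set Ψ : ℝ × ℝ → EuclideanSpace ℝ (Fin 4) := fun q =>
    WithLp.toLp 2 ![u₁ q.1 * Real.cos (2 * (N : ℝ) * (π / b) * q.2)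
        - v₁ q.1 * Real.sin (2 * (N : ℝ) * (π / b) * q.2),
      v₁ q.1 * Real.cos (2 * (N : ℝ) * (π / b) * q.2)
        + u₁ q.1 * Real.sin (2 * (N : ℝ) * (π / b) * q.2),
      u₂ q.1 * Real.cos ((2 * (N : ℝ) + 1) * (π / b) * q.2)
        - v₂ q.1 * Real.sin ((2 * (N : ℝ) + 1) * (π / b) * q.2),
      v₂ q.1 * Real.cos ((2 * (N : ℝ) + 1) * (π / b) * q.2)
        + u₂ q.1 * Real.sin ((2 * (N : ℝ) + 1) * (π / b) * q.2)] with hΨ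
  have hΨsm : ContDiff ℝ ∞ Ψ := by
    rw [contDiff_euclidean]
    intro i
    fin_cases i
    · change ContDiff ℝ ∞ fun q : ℝ × ℝ =>
        u₁ q.1 * Real.cos (2 * (N : ℝ) * (π / b) * q.2)
          - v₁ q.1 * Real.sin (2 * (N : ℝ) * (π / b) * q.2)
      fun_prop
    · change ContDiff ℝ ∞ fun q : ℝ × ℝ =>
        v₁ q.1 * Real.cos (2 * (N : ℝ) * (π / b) * q.2)
          + u₁ q.1 * Real.sin (2 * (N : ℝ) * (π / b) * q.2)
      fun_prop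
    · change ContDiff ℝ ∞ fun q : ℝ × ℝ =>
        u₂ q.1 * Real.cos ((2 * (N : ℝ) + 1) * (π / b) * q.2)
          - v₂ q.1 * Real.sin ((2 * (N : ℝ) + 1) * (π / b) * q.2)
      fun_prop
    · change ContDiff ℝ ∞ fun q : ℝ × ℝ =>
        v₂ q.1 * Real.cos ((2 * (N : ℝ) + 1) * (π / b) * q.2)
          + u₂ q.1 * Real.sin ((2 * (N : ℝ) + 1) * (π / b) * q.2)
      fun_prop
  refine ⟨Ψ, hΨsm, ?_, ?_, ?_⟩
  · intro x y
    simp only [hΨ, pu₁ x, pv₁ x, pu₂ x, pv₂ x]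
  · intro x y
    have hyP : 2 * (N : ℝ) * (π / b) * (y + b)
        = 2 * (N : ℝ) * (π / b) * y + (N : ℝ) * (2 * π) := by
      field_simp
    have hyQ : (2 * (N : ℝ) + 1) * (π / b) * (y + b)
        = (2 * (N : ℝ) + 1) * (π / b) * y + (N : ℝ) * (2 * π) + π := by
      field_simp
      ring
    simp only [hΨ, hyP, hyQ, Real.cos_add_pi, Real.sin_add_pi, Real.cos_add_nat_mul_two_pi,
      Real.sin_add_nat_mul_two_pi, eu₁ x, ev₁ x, ou₂ x, ov₂ x, neg_mul_neg]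
  · intro p v w
    have hdiff : DifferentiableAt ℝ Ψ p := (hΨsm.differentiable (by simp)).differentiableAt
    have key : ∀ (i : Fin 4) (L : ℝ × ℝ →L[ℝ] ℝ), HasFDerivAt (fun q => Ψ q i) L p →
        ∀ t, (fderiv ℝ Ψ p t) i = L t := by
      intro i L hL t
      have h0 := (ContinuousLinearMap.hasFDerivAt (PiLp.proj 2 (fun _ : Fin 4 => ℝ) i)
        (x := Ψ p)).comp p hdiff.hasFDerivAt
      have h1' : HasFDerivAt (fun q => Ψ q i)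
          ((PiLp.proj 2 (fun _ : Fin 4 => ℝ) i).comp (fderiv ℝ Ψ p)) p := h0
      have h2' := h1'.unique hL
      exact congrArg (fun T : ℝ × ℝ →L[ℝ] ℝ => T t) h2'
    have du₁ : HasDerivAt u₁ (deriv u₁ p.1) p.1 :=
      ((hu₁.differentiable (by simp)).differentiableAt).hasDerivAt
    have dv₁ : HasDerivAt v₁ (deriv v₁ p.1) p.1 :=
      ((hv₁.differentiable (by simp)).differentiableAt).hasDerivAt
    have du₂ : HasDerivAt u₂ (deriv u₂ p.1) p.1 :=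
      ((hu₂.differentiable (by simp)).differentiableAt).hasDerivAt
    have dv₂ : HasDerivAt v₂ (deriv v₂ p.1) p.1 :=
      ((hv₂.differentiable (by simp)).differentiableAt).hasDerivAt
    have d0 := hasFDerivAt_rot_re (2 * (N : ℝ) * (π / b)) p du₁ dv₁
    have d1 := hasFDerivAt_rot_im (2 * (N : ℝ) * (π / b)) p du₁ dv₁
    have d2 := hasFDerivAt_rot_re ((2 * (N : ℝ) + 1) * (π / b)) p du₂ dv₂
    have d3 := hasFDerivAt_rot_im ((2 * (N : ℝ) + 1) * (π / b)) p du₂ dv₂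
    rw [PiLp.inner_apply, Fin.sum_univ_four]
    rw [key 0 _ d0 v, key 0 _ d0 w, key 1 _ d1 v, key 1 _ d1 w, key 2 _ d2 v, key 2 _ d2 w,
      key 3 _ d3 v, key 3 _ d3 w]
    simp only [add_apply, smul_apply,
      ContinuousLinearMap.coe_fst', ContinuousLinearMap.coe_snd', smul_eq_mul,
      RCLike.inner_apply, conj_trivial]
    have e1 := h1 p.1
    have e2 := h2 p.1
    have e3 := h3 p.1
    have e4 := Real.cos_sq_add_sin_sq (2 * (N : ℝ) * (π / b) * p.2)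
    have e5 := Real.cos_sq_add_sin_sq ((2 * (N : ℝ) + 1) * (π / b) * p.2)
    linear_combination v.1 * w.1 * e3 + (v.1 * w.2 + v.2 * w.1) * e2 + v.2 * w.2 * e1 +
      ((deriv u₁ p.1 ^ 2 + deriv v₁ p.1 ^ 2) * v.1 * w.1 +
        2 * (N : ℝ) * (π / b) * (u₁ p.1 * deriv v₁ p.1 - v₁ p.1 * deriv u₁ p.1)
          * (v.1 * w.2 + v.2 * w.1) +
        (2 * (N : ℝ) * (π / b)) ^ 2 * (u₁ p.1 ^ 2 + v₁ p.1 ^ 2) * v.2 * w.2) * e4 +
      ((deriv u₂ p.1 ^ 2 + deriv v₂ p.1 ^ 2) * v.1 * w.1 +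
        (2 * (N : ℝ) + 1) * (π / b) * (u₂ p.1 * deriv v₂ p.1 - v₂ p.1 * deriv u₂ p.1)
          * (v.1 * w.2 + v.2 * w.1) +
        ((2 * (N : ℝ) + 1) * (π / b)) ^ 2 * (u₂ p.1 ^ 2 + v₂ p.1 ^ 2) * v.2 * w.2) * e5

end Vale.Agent.Lib.P205.KB
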