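import Mathlib

/-!
# Primitives of odd periodic functions
-/

namespace Vale.Agent.Lib.P205.KB

open scoped ContDiff

/-- A smooth odd `a`-periodic function has a smooth even `a`-periodic primitive. -/
theorem odd_periodic_primitive (a : ℝ) (f : ℝ → ℝ) (hf : ContDiff ℝ ∞ f)
    (hodd : ∀ x, f (-x) = -f x) (hper : ∀ x, f (x + a) = f x) :
    ∃ P : ℝ → ℝ, ContDiff ℝ ∞ P ∧ (∀ x, HasDerivAt P (f x) x) ∧ (∀ x, P (-x) = P x) ∧
      (∀ x, P (x + a) = P x) := by
  obtain ⟨P, hP⟩ : ∃ P : ℝ → ℝ, P = fun x => ∫ t in (0 : ℝ)..x, f t := ⟨_, rfl⟩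
  have hPd : ∀ x, HasDerivAt P (f x) x := by
    intro x
    rw [hP]
    exact intervalIntegral.integral_hasDerivAt_right (hf.continuous.intervalIntegrable _ _)
      (hf.continuous.stronglyMeasurableAtFilter _ _) hf.continuous.continuousAt
  have hPsm : ContDiff ℝ ∞ P := by
    rw [contDiff_infty_iff_deriv]
    refine ⟨fun x => (hPd x).differentiableAt, ?_⟩
    have hd : deriv P = f := funext fun x => (hPd x).deriv
    rw [hd]
    exact hf
  have heven : ∀ x, P (-x) = P x := by
    have hQd : ∀ x, HasDerivAt (fun y => P (-y) - P y) 0 x := by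
      intro x
      have h1 : HasDerivAt (fun y => P (-y)) (f (-x) * (-1)) x :=
        (hPd (-x)).comp x (hasDerivAt_neg x)
      have h2 := h1.sub (hPd x)
      have e : f (-x) * (-1) - f x = 0 := by
        rw [hodd x]
        ring
      rw [e] at h2
      exact h2
    have hconst := is_const_of_deriv_eq_zero (f := fun y => P (-y) - P y)
      (fun x => (hQd x).differentiableAt) (fun x => (hQd x).deriv)
    intro x
    have h := hconst x 0
    simp only [neg_zero, sub_self] at h
    linarith
  have hperP : ∀ x, P (x + a) = P x := by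
    have hRd : ∀ x, HasDerivAt (fun y => P (y + a) - P y) 0 x := by
      intro x
      have h1 : HasDerivAt (fun y => P (y + a)) (f (x + a)) x :=
        (hPd (x + a)).comp_add_const x a
      have h2 := h1.sub (hPd x)
      have e : f (x + a) - f x = 0 := by
        rw [hper x]
        ring
      rw [e] at h2
      exact h2
    have hconst := is_const_of_deriv_eq_zero (f := fun y => P (y + a) - P y)
      (fun x => (hRd x).differentiableAt) (fun x => (hRd x).deriv)
    intro x
    have h := hconst x (-(a / 2))
    have e1 : -(a / 2) + a = a / 2 := by ring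
    simp only [e1] at h
    have h3 := heven (a / 2)
    linarith
  exact ⟨P, hPsm, hPd, heven, hperP⟩

end Vale.Agent.Lib.P205.KB
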