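import Vale.Agent.Lib.P205.Invariant
import Vale.Agent.Lib.P205.KB.KFrame
import Vale.Agent.Lib.P205.KB.KPrim

/-!
# From the two amplitudes and the twist function to the map of the Klein bottle
-/

namespace Vale.Agent.Lib.P205.KB

open scoped ContDiff
open Real

/-- Pure algebra behind the second equation of `klein_of_profile`. -/
theorem kPolar_alg2 (w p q U V R Fx Gx lam : ℝ) (hG : Gx ≠ 0)
    (hlam : lam * Gx = w * Fx)
    (h1 : w ^ 2 * (p ^ 2 * U ^ 2 + q ^ 2 * V ^ 2) = Gx) :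
    w * (p * (U ^ 2 * (p * lam + q * V ^ 2 * R)) + q * (V ^ 2 * (q * lam - p * U ^ 2 * R)))
      = Fx := by
  apply mul_right_cancel₀ hG
  linear_combination (w * (p ^ 2 * U ^ 2 + q ^ 2 * V ^ 2)) * hlam + Fx * h1

/-- Pure algebra behind the third equation of `klein_of_profile`. -/
theorem kPolar_alg3 (w p q U V R Fx Gx Ex lam du dv : ℝ) (hG : Gx ≠ 0) (hw : w ≠ 0)
    (hlam : lam * Gx = w * Fx)
    (h1 : w ^ 2 * (p ^ 2 * U ^ 2 + q ^ 2 * V ^ 2) = Gx)
    (h2 : du ^ 2 + dv ^ 2 + Gx / w ^ 2 * (U ^ 2 * V ^ 2 * R ^ 2) = Ex - Fx ^ 2 / Gx) :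
    (du ^ 2 + U ^ 2 * (p * lam + q * V ^ 2 * R) ^ 2)
      + (dv ^ 2 + V ^ 2 * (q * lam - p * U ^ 2 * R) ^ 2) = Ex := by
  have hS : p ^ 2 * U ^ 2 + q ^ 2 * V ^ 2 = Gx / w ^ 2 := by
    rw [eq_div_iff (pow_ne_zero 2 hw)]
    linear_combination h1
  have hlam' : lam = w * Fx / Gx := by
    rw [eq_div_iff hG]
    exact hlam
  have hlam2 : lam ^ 2 * (p ^ 2 * U ^ 2 + q ^ 2 * V ^ 2) = Fx ^ 2 / Gx := by
    rw [hS, hlam']
    field_simp
  linear_combination h2 + hlam2 + (U ^ 2 * V ^ 2 * R ^ 2) * hS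

/-- Amplitudes `u` (even), `v` (odd) and a twist function `ρ` (odd), all smooth and
`a`-periodic, that satisfy the two profile equations give a smooth map of the Klein bottle
into `R^4` inducing the metric `E dx^2 + 2 F dx dy + G dy^2`. -/
theorem klein_of_profile (a b : ℝ) (hb : 0 < b) (E F G : ℝ → ℝ)
    (hF : ContDiff ℝ ∞ F) (hG : ContDiff ℝ ∞ G)
    (hGpos : ∀ x, 0 < G x)
    (hFper : ∀ x, F (x + a) = F x) (hGper : ∀ x, G (x + a) = G x)
    (hFodd : ∀ x, F (-x) = -F x) (hGev : ∀ x, G (-x) = G x)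
    (N : ℕ) (u v ρ : ℝ → ℝ) (hu : ContDiff ℝ ∞ u) (hv : ContDiff ℝ ∞ v) (hρ : ContDiff ℝ ∞ ρ)
    (pu : ∀ x, u (x + a) = u x) (pv : ∀ x, v (x + a) = v x) (pρ : ∀ x, ρ (x + a) = ρ x)
    (eu : ∀ x, u (-x) = u x) (ov : ∀ x, v (-x) = -v x) (oρ : ∀ x, ρ (-x) = -ρ x)
    (h1 : ∀ x, (π / b) ^ 2 * ((2 * (N : ℝ)) ^ 2 * u x ^ 2 + (2 * (N : ℝ) + 1) ^ 2 * v x ^ 2)
      = G x)
    (h2 : ∀ x, deriv u x ^ 2 + deriv v x ^ 2 +
      G x / (π / b) ^ 2 * (u x ^ 2 * v x ^ 2 * ρ x ^ 2) = E x - F x ^ 2 / G x) :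
    ∃ Ψ : ℝ × ℝ → EuclideanSpace ℝ (Fin 4), ContDiff ℝ ∞ Ψ ∧
      (∀ x y, Ψ (x + a, y) = Ψ (x, y)) ∧ (∀ x y, Ψ (-x, y + b) = Ψ (x, y)) ∧
      ∀ p v w : ℝ × ℝ, inner ℝ (fderiv ℝ Ψ p v) (fderiv ℝ Ψ p w) =
        E p.1 * v.1 * w.1 + F p.1 * (v.1 * w.2 + v.2 * w.1) + G p.1 * v.2 * w.2 := by
  obtain ⟨w, hw⟩ : ∃ w : ℝ, w = π / b := ⟨_, rfl⟩
  have hwpos : 0 < w := by
    rw [hw]
    exact div_pos Real.pi_pos hb
  have hw0 : w ≠ 0 := hwpos.ne'
  have hG0 : ∀ x, G x ≠ 0 := fun x => (hGpos x).ne'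
  rw [← hw] at h1 h2
  -- the drift of the two phases
  obtain ⟨lam, hlamdef⟩ : ∃ lam : ℝ → ℝ, lam = fun x => w * F x / G x := ⟨_, rfl⟩
  have hlamsm : ContDiff ℝ ∞ lam := by
    rw [hlamdef]
    exact (contDiff_const.mul hF).div hG hG0
  have hlamodd : ∀ x, lam (-x) = -lam x := by
    intro x
    rw [hlamdef]
    show w * F (-x) / G (-x) = -(w * F x / G x)
    rw [hFodd, hGev]
    ring
  have hlamper : ∀ x, lam (x + a) = lam x := by
    intro x
    rw [hlamdef]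
    show w * F (x + a) / G (x + a) = w * F x / G x
    rw [hFper, hGper]
  have hlamG : ∀ x, lam x * G x = w * F x := by
    intro x
    rw [hlamdef]
    show w * F x / G x * G x = w * F x
    field_simp [hG0 x]
  -- derivatives of the phases
  obtain ⟨dal, hdal⟩ : ∃ dal : ℝ → ℝ,
      dal = fun x => 2 * (N : ℝ) * lam x + (2 * (N : ℝ) + 1) * v x ^ 2 * ρ x := ⟨_, rfl⟩
  obtain ⟨dbe, hdbe⟩ : ∃ dbe : ℝ → ℝ,
      dbe = fun x => (2 * (N : ℝ) + 1) * lam x - 2 * (N : ℝ) * u x ^ 2 * ρ x := ⟨_, rfl⟩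
  have hdalsm : ContDiff ℝ ∞ dal := by
    rw [hdal]
    exact (contDiff_const.mul hlamsm).add ((contDiff_const.mul (hv.pow 2)).mul hρ)
  have hdbesm : ContDiff ℝ ∞ dbe := by
    rw [hdbe]
    exact (contDiff_const.mul hlamsm).sub ((contDiff_const.mul (hu.pow 2)).mul hρ)
  have hdalodd : ∀ x, dal (-x) = -dal x := by
    intro x
    rw [hdal]
    show 2 * (N : ℝ) * lam (-x) + (2 * (N : ℝ) + 1) * v (-x) ^ 2 * ρ (-x)
      = -(2 * (N : ℝ) * lam x + (2 * (N : ℝ) + 1) * v x ^ 2 * ρ x)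
    rw [hlamodd, ov, oρ]
    ring
  have hdbeodd : ∀ x, dbe (-x) = -dbe x := by
    intro x
    rw [hdbe]
    show (2 * (N : ℝ) + 1) * lam (-x) - 2 * (N : ℝ) * u (-x) ^ 2 * ρ (-x)
      = -((2 * (N : ℝ) + 1) * lam x - 2 * (N : ℝ) * u x ^ 2 * ρ x)
    rw [hlamodd, eu, oρ]
    ring
  have hdalper : ∀ x, dal (x + a) = dal x := by
    intro x
    rw [hdal]
    show 2 * (N : ℝ) * lam (x + a) + (2 * (N : ℝ) + 1) * v (x + a) ^ 2 * ρ (x + a)
      = 2 * (N : ℝ) * lam x + (2 * (N : ℝ) + 1) * v x ^ 2 * ρ x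
    rw [hlamper, pv, pρ]
  have hdbeper : ∀ x, dbe (x + a) = dbe x := by
    intro x
    rw [hdbe]
    show (2 * (N : ℝ) + 1) * lam (x + a) - 2 * (N : ℝ) * u (x + a) ^ 2 * ρ (x + a)
      = (2 * (N : ℝ) + 1) * lam x - 2 * (N : ℝ) * u x ^ 2 * ρ x
    rw [hlamper, pu, pρ]
  have hdalx : ∀ x, dal x = 2 * (N : ℝ) * lam x + (2 * (N : ℝ) + 1) * v x ^ 2 * ρ x := by
    intro x
    rw [hdal]
  have hdbex : ∀ x, dbe x = (2 * (N : ℝ) + 1) * lam x - 2 * (N : ℝ) * u x ^ 2 * ρ x := by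
    intro x
    rw [hdbe]
  -- the phases
  obtain ⟨al, halsm, hald, halev, halper⟩ := odd_periodic_primitive a dal hdalsm hdalodd hdalper
  obtain ⟨be, hbesm, hbed, hbeev, hbeper⟩ := odd_periodic_primitive a dbe hdbesm hdbeodd hdbeper
  have hud : ∀ x, HasDerivAt u (deriv u x) x := fun x =>
    ((hu.differentiable (by simp)).differentiableAt).hasDerivAt
  have hvd : ∀ x, HasDerivAt v (deriv v x) x := fun x =>
    ((hv.differentiable (by simp)).differentiableAt).hasDerivAt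
  -- the three equations of the curve
  have H1 : ∀ x, w ^ 2 * ((2 * (N : ℝ)) ^ 2 * ((u x * cos (al x)) ^ 2 + (u x * sin (al x)) ^ 2) +
      (2 * (N : ℝ) + 1) ^ 2 * ((v x * cos (be x)) ^ 2 + (v x * sin (be x)) ^ 2)) = G x := by
    intro x
    rw [(polar_identities (hud x) (hald x)).1, (polar_identities (hvd x) (hbed x)).1]
    exact h1 x
  have H2 : ∀ x, w * ((2 * (N : ℝ)) * (u x * cos (al x) * deriv (fun y => u y * sin (al y)) x
        - u x * sin (al x) * deriv (fun y => u y * cos (al y)) x) +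
      (2 * (N : ℝ) + 1) * (v x * cos (be x) * deriv (fun y => v y * sin (be y)) x
        - v x * sin (be x) * deriv (fun y => v y * cos (be y)) x)) = F x := by
    intro x
    rw [(polar_identities (hud x) (hald x)).2.1, (polar_identities (hvd x) (hbed x)).2.1,
      hdalx x, hdbex x]
    exact kPolar_alg2 w (2 * (N : ℝ)) (2 * (N : ℝ) + 1) (u x) (v x) (ρ x) (F x) (G x) (lam x)
      (hG0 x) (hlamG x) (h1 x)
  have H3 : ∀ x, deriv (fun y => u y * cos (al y)) x ^ 2 + deriv (fun y => u y * sin (al y)) x ^ 2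
      + deriv (fun y => v y * cos (be y)) x ^ 2 + deriv (fun y => v y * sin (be y)) x ^ 2
      = E x := by
    intro x
    rw [(polar_identities (hud x) (hald x)).2.2, add_assoc,
      (polar_identities (hvd x) (hbed x)).2.2, hdalx x, hdbex x]
    exact kPolar_alg3 w (2 * (N : ℝ)) (2 * (N : ℝ) + 1) (u x) (v x) (ρ x) (F x) (G x) (E x)
      (lam x) (deriv u x) (deriv v x) (hG0 x) hw0 (hlamG x) (h1 x) (h2 x)
  subst hw
  exact immersion_of_curve_klein a b hb N E F G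
    (fun x => u x * cos (al x)) (fun x => u x * sin (al x))
    (fun x => v x * cos (be x)) (fun x => v x * sin (be x))
    (hu.mul (Real.contDiff_cos.comp halsm)) (hu.mul (Real.contDiff_sin.comp halsm))
    (hv.mul (Real.contDiff_cos.comp hbesm)) (hv.mul (Real.contDiff_sin.comp hbesm))
    (fun x => by show u (x + a) * cos (al (x + a)) = u x * cos (al x); rw [pu, halper])
    (fun x => by show u (x + a) * sin (al (x + a)) = u x * sin (al x); rw [pu, halper])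
    (fun x => by show v (x + a) * cos (be (x + a)) = v x * cos (be x); rw [pv, hbeper])
    (fun x => by show v (x + a) * sin (be (x + a)) = v x * sin (be x); rw [pv, hbeper])
    (fun x => by show u (-x) * cos (al (-x)) = u x * cos (al x); rw [eu, halev])
    (fun x => by show u (-x) * sin (al (-x)) = u x * sin (al x); rw [eu, halev])
    (fun x => by show v (-x) * cos (be (-x)) = -(v x * cos (be x)); rw [ov, hbeev]; ring)
    (fun x => by show v (-x) * sin (be (-x)) = -(v x * sin (be x)); rw [ov, hbeev]; ring)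
    H1 H2 H3

end Vale.Agent.Lib.P205.KB
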