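import Vale.Agent.Lib.P205.KB.KSolve
import Vale.Agent.Lib.P205.KB.KPolar

/-!
# Invariant metrics on the Klein bottle are induced by smooth maps into `R^4`
-/

namespace Vale.Agent.Lib.P205.KB

open scoped ContDiff
open Real

/-- Every smooth metric `E(x) dx^2 + 2 F(x) dx dy + G(x) dy^2` on the Klein bottle
`R^2 / <(x, y) ↦ (x + a, y), (x, y) ↦ (-x, y + b)>` (so `E`, `G` even, `F` odd, all
`a`-periodic) is induced by a smooth map into `R^4`. -/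
theorem invariant_klein (a b : ℝ) (ha : 0 < a) (hb : 0 < b) (E F G : ℝ → ℝ)
    (hE : ContDiff ℝ ∞ E) (hF : ContDiff ℝ ∞ F) (hG : ContDiff ℝ ∞ G)
    (hGpos : ∀ x, 0 < G x) (hdet : ∀ x, 0 < E x * G x - F x ^ 2)
    (hEper : ∀ x, E (x + a) = E x) (hFper : ∀ x, F (x + a) = F x)
    (hGper : ∀ x, G (x + a) = G x)
    (hEev : ∀ x, E (-x) = E x) (hFodd : ∀ x, F (-x) = -F x) (hGev : ∀ x, G (-x) = G x) :
    ∃ Ψ : ℝ × ℝ → EuclideanSpace ℝ (Fin 4), ContDiff ℝ ∞ Ψ ∧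
      (∀ x y, Ψ (x + a, y) = Ψ (x, y)) ∧ (∀ x y, Ψ (-x, y + b) = Ψ (x, y)) ∧
      ∀ p v w : ℝ × ℝ, inner ℝ (fderiv ℝ Ψ p v) (fderiv ℝ Ψ p w) =
        E p.1 * v.1 * w.1 + F p.1 * (v.1 * w.2 + v.2 * w.1) + G p.1 * v.2 * w.2 := by
  obtain ⟨N, u, v, ρ, hu, hv, hρ, pu, pv, pρ, eu, ov, oρ, h1, h2⟩ :=
    klein_profile_exists a b ha hb E F G hE hF hG hGpos hdet hEper hFper hGper hEev hFodd hGev
  exact klein_of_profile a b hb E F G hF hG hGpos hFper hGper hFodd hGev N u v ρ hu hv hρ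
    pu pv pρ eu ov oρ h1 h2

end Vale.Agent.Lib.P205.KB
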