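import Mathlib

/-!
# Comparison of solutions of two scalar first order equations
-/

namespace Vale.Agent.Lib.P205.KB

open Set

/-- The difference of the two solutions stays below every exponential barrier. -/
theorem kodeAux_barrier (f₁ f₂ : ℝ → ℝ → ℝ) (K : ℝ)
    (hK : ∀ x y y', |f₂ x y - f₂ x y'| ≤ K * |y - y'|)
    (hle : ∀ x y, f₁ x y ≤ f₂ x y) (φ₁ φ₂ : ℝ → ℝ)
    (h₁ : ∀ x, HasDerivAt φ₁ (f₁ x (φ₁ x)) x) (h₂ : ∀ x, HasDerivAt φ₂ (f₂ x (φ₂ x)) x)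
    (h0 : φ₁ 0 ≤ φ₂ 0) (x : ℝ) (hx : 0 ≤ x) (ε : ℝ) (hε : 0 < ε) :
    φ₁ x - φ₂ x ≤ ε * Real.exp ((K + 1) * x) := by
  have hD : ∀ t, HasDerivAt (fun t => φ₁ t - φ₂ t) (f₁ t (φ₁ t) - f₂ t (φ₂ t)) t :=
    fun t => (h₁ t).sub (h₂ t)
  have hB : ∀ t, HasDerivAt (fun t => ε * Real.exp ((K + 1) * t))
      (ε * (Real.exp ((K + 1) * t) * ((K + 1) * 1))) t :=
    fun t => (((hasDerivAt_id t).const_mul (K + 1)).exp).const_mul ε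
  have hcont : ContinuousOn (fun t => φ₁ t - φ₂ t) (Icc 0 x) :=
    fun t _ => (hD t).continuousAt.continuousWithinAt
  have hinit : (fun t => φ₁ t - φ₂ t) 0 ≤ (fun t => ε * Real.exp ((K + 1) * t)) 0 := by
    show φ₁ 0 - φ₂ 0 ≤ ε * Real.exp ((K + 1) * 0)
    rw [mul_zero, Real.exp_zero, mul_one]
    linarith
  have hbound : ∀ t ∈ Ico 0 x,
      (fun t => φ₁ t - φ₂ t) t = (fun t => ε * Real.exp ((K + 1) * t)) t →
      (fun t => f₁ t (φ₁ t) - f₂ t (φ₂ t)) t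
        < (fun t => ε * (Real.exp ((K + 1) * t) * ((K + 1) * 1))) t := by
    intro t _ ht
    have ht' : φ₁ t - φ₂ t = ε * Real.exp ((K + 1) * t) := ht
    have hpos : 0 < ε * Real.exp ((K + 1) * t) := mul_pos hε (Real.exp_pos _)
    have h3 := hK t (φ₁ t) (φ₂ t)
    have h4 := hle t (φ₁ t)
    have h5 : |φ₁ t - φ₂ t| = φ₁ t - φ₂ t := abs_of_pos (by rw [ht']; exact hpos)
    have h6 := le_abs_self (f₂ t (φ₁ t) - f₂ t (φ₂ t))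
    rw [h5, ht'] at h3
    show f₁ t (φ₁ t) - f₂ t (φ₂ t) < ε * (Real.exp ((K + 1) * t) * ((K + 1) * 1))
    nlinarith
  exact image_le_of_deriv_right_lt_deriv_boundary hcont
    (fun t _ => (hD t).hasDerivWithinAt) hinit hB hbound (right_mem_Icc.mpr hx)

/-- If `f₁ ≤ f₂` and `f₂` is Lipschitz in the unknown, a solution of the first equation that
starts below a solution of the second one stays below it. -/
theorem ode_compare (f₁ f₂ : ℝ → ℝ → ℝ) (K : ℝ) (hK0 : 0 ≤ K)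
    (hK : ∀ x y y', |f₂ x y - f₂ x y'| ≤ K * |y - y'|)
    (hle : ∀ x y, f₁ x y ≤ f₂ x y) (φ₁ φ₂ : ℝ → ℝ)
    (h₁ : ∀ x, HasDerivAt φ₁ (f₁ x (φ₁ x)) x) (h₂ : ∀ x, HasDerivAt φ₂ (f₂ x (φ₂ x)) x)
    (h0 : φ₁ 0 ≤ φ₂ 0) (x : ℝ) (hx : 0 ≤ x) : φ₁ x ≤ φ₂ x := by
  have _hK0 := hK0
  by_contra hcon
  have hd : 0 < φ₁ x - φ₂ x := by linarith [not_le.mp hcon]
  have hE : 0 < Real.exp ((K + 1) * x) := Real.exp_pos _
  have h := kodeAux_barrier f₁ f₂ K hK hle φ₁ φ₂ h₁ h₂ h0 x hx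
    ((φ₁ x - φ₂ x) / (2 * Real.exp ((K + 1) * x))) (div_pos hd (by positivity))
  have e : (φ₁ x - φ₂ x) / (2 * Real.exp ((K + 1) * x)) * Real.exp ((K + 1) * x)
      = (φ₁ x - φ₂ x) / 2 := by
    field_simp
  rw [e] at h
  linarith

/-- Quantitative gap: if `f₁ + δ ≤ f₀` with `δ ≥ 0` and `f₀` is `L`-Lipschitz in the unknown,
then the solutions with the same initial value at zero satisfy
`exp(-L x) ∫_0^x δ(t, φ₁(t)) dt ≤ φ₀(x) - φ₁(x)` for `x ≥ 0`. -/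
theorem ode_gap (f₀ f₁ δ : ℝ → ℝ → ℝ) (L : ℝ) (hL0 : 0 ≤ L)
    (hL : ∀ x y y', |f₀ x y - f₀ x y'| ≤ L * |y - y'|)
    (hδ0 : ∀ x y, 0 ≤ δ x y) (hle : ∀ x y, f₁ x y + δ x y ≤ f₀ x y) (φ₀ φ₁ : ℝ → ℝ)
    (h₀ : ∀ x, HasDerivAt φ₀ (f₀ x (φ₀ x)) x) (h₁ : ∀ x, HasDerivAt φ₁ (f₁ x (φ₁ x)) x)
    (h0 : φ₀ 0 = φ₁ 0) (hc : Continuous fun t => δ t (φ₁ t)) (x : ℝ) (hx : 0 ≤ x) :
    Real.exp (-(L * x)) * ∫ t in (0 : ℝ)..x, δ t (φ₁ t) ≤ φ₀ x - φ₁ x := by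
  have hw0 : ∀ t, 0 ≤ t → φ₁ t ≤ φ₀ t := fun t ht =>
    ode_compare f₁ f₀ L hL0 hL (fun a y => by linarith [hle a y, hδ0 a y]) φ₁ φ₀ h₁ h₀
      (le_of_eq h0.symm) t ht
  have hI : ∀ t, HasDerivAt (fun u => ∫ s in (0 : ℝ)..u, δ s (φ₁ s)) (δ t (φ₁ t)) t :=
    fun t => (hc.integral_hasStrictDerivAt 0 t).hasDerivAt
  have hexp : ∀ t, HasDerivAt (fun t => Real.exp (L * t)) (Real.exp (L * t) * (L * 1)) t :=
    fun t => ((hasDerivAt_id t).const_mul L).exp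
  have hH : ∀ t, HasDerivAt
      (fun t => Real.exp (L * t) * (φ₀ t - φ₁ t) - ∫ s in (0 : ℝ)..t, δ s (φ₁ s))
      (Real.exp (L * t) * (L * 1) * (φ₀ t - φ₁ t)
        + Real.exp (L * t) * (f₀ t (φ₀ t) - f₁ t (φ₁ t)) - δ t (φ₁ t)) t :=
    fun t => ((hexp t).mul ((h₀ t).sub (h₁ t))).sub (hI t)
  have hinit : (fun _ : ℝ => (0 : ℝ)) 0
      ≤ (fun t => Real.exp (L * t) * (φ₀ t - φ₁ t) - ∫ s in (0 : ℝ)..t, δ s (φ₁ s)) 0 := by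
    show (0 : ℝ) ≤ Real.exp (L * 0) * (φ₀ 0 - φ₁ 0) - ∫ s in (0 : ℝ)..0, δ s (φ₁ s)
    rw [intervalIntegral.integral_same, h0, sub_self, mul_zero, sub_zero]
  have hbound : ∀ t ∈ Ico 0 x, (fun _ : ℝ => (0 : ℝ)) t
      ≤ (fun t => Real.exp (L * t) * (L * 1) * (φ₀ t - φ₁ t)
        + Real.exp (L * t) * (f₀ t (φ₀ t) - f₁ t (φ₁ t)) - δ t (φ₁ t)) t := by
    intro t ht
    show (0 : ℝ) ≤ Real.exp (L * t) * (L * 1) * (φ₀ t - φ₁ t)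
        + Real.exp (L * t) * (f₀ t (φ₀ t) - f₁ t (φ₁ t)) - δ t (φ₁ t)
    have hw := hw0 t ht.1
    have h3 := hL t (φ₀ t) (φ₁ t)
    rw [abs_of_nonneg (sub_nonneg.mpr hw)] at h3
    have h4 := neg_abs_le (f₀ t (φ₀ t) - f₀ t (φ₁ t))
    have h5 := hle t (φ₁ t)
    have h6 := hδ0 t (φ₁ t)
    have h7 : 1 ≤ Real.exp (L * t) := Real.one_le_exp (mul_nonneg hL0 ht.1)
    have hA : 0 ≤ (f₀ t (φ₀ t) - f₁ t (φ₁ t)) + L * (φ₀ t - φ₁ t) - δ t (φ₁ t) := by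
      linarith
    have p1 := mul_nonneg (Real.exp_pos (L * t)).le hA
    have p2 := mul_nonneg (sub_nonneg.mpr h7) h6
    nlinarith [p1, p2]
  have hmain := image_le_of_deriv_right_le_deriv_boundary
    (f := fun _ : ℝ => (0 : ℝ)) (f' := fun _ : ℝ => (0 : ℝ)) (a := 0) (b := x)
    (B := fun t => Real.exp (L * t) * (φ₀ t - φ₁ t) - ∫ s in (0 : ℝ)..t, δ s (φ₁ s))
    (B' := fun t => Real.exp (L * t) * (L * 1) * (φ₀ t - φ₁ t)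
        + Real.exp (L * t) * (f₀ t (φ₀ t) - f₁ t (φ₁ t)) - δ t (φ₁ t))
    continuousOn_const
    (fun t _ => (hasDerivAt_const t (0 : ℝ)).hasDerivWithinAt) hinit
    (fun t _ => (hH t).continuousAt.continuousWithinAt)
    (fun t _ => (hH t).hasDerivWithinAt) hbound (right_mem_Icc.mpr hx)
  have hmain' : (0 : ℝ) ≤ Real.exp (L * x) * (φ₀ x - φ₁ x) - ∫ s in (0 : ℝ)..x, δ s (φ₁ s) :=
    hmain
  have hE : Real.exp (-(L * x)) * Real.exp (L * x) = 1 := by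
    rw [← Real.exp_add, neg_add_cancel, Real.exp_zero]
  have hpos := Real.exp_pos (-(L * x))
  calc Real.exp (-(L * x)) * ∫ t in (0 : ℝ)..x, δ t (φ₁ t)
      ≤ Real.exp (-(L * x)) * (Real.exp (L * x) * (φ₀ x - φ₁ x)) :=
        mul_le_mul_of_nonneg_left (by linarith) hpos.le
    _ = φ₀ x - φ₁ x := by rw [← mul_assoc, hE, one_mul]

end Vale.Agent.Lib.P205.KB
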