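import Mathlib

/-!
# Regularity of solutions of a scalar first order equation with smooth right-hand side
-/

namespace Vale.Agent.Lib.P205.KB

open scoped ContDiff

/-- A solution of `φ' = f(x, φ)` with smooth `f` is smooth. -/
theorem ode_smooth (f : ℝ → ℝ → ℝ) (hf : ContDiff ℝ ∞ (fun z : ℝ × ℝ => f z.1 z.2))
    (φ : ℝ → ℝ) (hφ : ∀ x, HasDerivAt φ (f x (φ x)) x) : ContDiff ℝ ∞ φ := by
  have hd : Differentiable ℝ φ := fun x => (hφ x).differentiableAt
  have hderiv : deriv φ = fun x => f x (φ x) := funext fun x => (hφ x).deriv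
  have hn : ∀ n : ℕ, ContDiff ℝ n φ := by
    intro n
    induction n with
    | zero =>
      exact contDiff_zero.2 hd.continuous
    | succ n ih =>
      have h1 : ContDiff ℝ n (fun x : ℝ => (x, φ x)) := contDiff_id.prodMk ih
      have h2 : ContDiff ℝ n (fun x : ℝ => f x (φ x)) :=
        (hf.of_le (by exact_mod_cast le_top)).comp h1
      have h3 : ContDiff ℝ ((n : WithTop ℕ∞) + 1) φ := by
        rw [contDiff_succ_iff_deriv]
        refine ⟨hd, ?_, ?_⟩
        · intro h
          exact absurd h (by exact_mod_cast WithTop.coe_ne_top)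
        · rw [hderiv]
          exact h2
      exact_mod_cast h3
  exact contDiff_infty.2 hn

end Vale.Agent.Lib.P205.KB
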