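import Vale.Agent.Lib.P205.KB.KOdeLocal
import Vale.Agent.Lib.P205.KB.KOdeSmooth

/-!
# Smooth global solutions of a scalar first order equation
-/

namespace Vale.Agent.Lib.P205.KB

open scoped ContDiff

/-- A smooth, bounded right-hand side that is Lipschitz in the unknown has a smooth solution
on the whole line with initial value zero. -/
theorem ode_exists_global (f : ℝ → ℝ → ℝ) (hf : ContDiff ℝ ∞ (fun z : ℝ × ℝ => f z.1 z.2))
    (B K : ℝ) (hB : ∀ x y, |f x y| ≤ B) (hK : ∀ x y y', |f x y - f x y'| ≤ K * |y - y'|) :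
    ∃ φ : ℝ → ℝ, ContDiff ℝ ∞ φ ∧ φ 0 = 0 ∧ ∀ x, HasDerivAt φ (f x (φ x)) x := by
  obtain ⟨φ, h0, hφ⟩ := ode_exists f hf.continuous B K hB hK
  exact ⟨φ, ode_smooth f hf φ hφ, h0, hφ⟩

end Vale.Agent.Lib.P205.KB
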