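import Mathlib

/-!
# Global solutions of a scalar first order equation with bounded Lipschitz right-hand side
-/

namespace Vale.Agent.Lib.P205.KB

open Set Metric
open scoped NNReal Topology

/-- A solution on the symmetric interval of half-length `T`, with initial value zero. -/
theorem odeLocal_exists (f : ℝ → ℝ → ℝ) (hf : Continuous (fun z : ℝ × ℝ => f z.1 z.2))
    (B K : ℝ) (hB : ∀ x y, |f x y| ≤ B) (hK : ∀ x y y', |f x y - f x y'| ≤ K * |y - y'|)
    (T : ℝ) (hT : 0 < T) :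
    ∃ α : ℝ → ℝ, α 0 = 0 ∧
      ∀ t ∈ Icc (-T) T, HasDerivWithinAt α (f t (α t)) (Icc (-T) T) t := by
  have hB0 : 0 ≤ B := le_trans (abs_nonneg _) (hB 0 0)
  have hK0 : 0 ≤ K := by
    have h1 := hK 0 0 1
    have h2 : |(0 : ℝ) - 1| = 1 := by norm_num
    rw [h2, mul_one] at h1
    exact le_trans (abs_nonneg _) h1
  have h0mem : (0 : ℝ) ∈ Icc (-T) T := ⟨by linarith, by linarith⟩
  have hBT : 0 ≤ B * T := mul_nonneg hB0 hT.le
  have hPL : IsPicardLindelof f (⟨0, h0mem⟩ : Icc (-T) T) (0 : ℝ) (Real.toNNReal (B * T)) 0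
      (Real.toNNReal B) (Real.toNNReal K) := by
    refine ⟨?_, ?_, ?_, ?_⟩
    · intro t _
      apply LipschitzWith.lipschitzOnWith
      apply LipschitzWith.of_dist_le_mul
      intro y y'
      rw [Real.dist_eq, Real.dist_eq, Real.coe_toNNReal _ hK0]
      exact hK t y y'
    · intro x _
      have h1 : Continuous (fun t : ℝ => f t x) :=
        hf.comp (by fun_prop : Continuous (fun t : ℝ => (t, x)))
      exact h1.continuousOn
    · intro t _ x _
      rw [Real.norm_eq_abs, Real.coe_toNNReal _ hB0]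
      exact hB t x
    · rw [Real.coe_toNNReal _ hB0, Real.coe_toNNReal _ hBT]
      have h1 : max (T - ((⟨0, h0mem⟩ : Icc (-T) T) : ℝ))
          (((⟨0, h0mem⟩ : Icc (-T) T) : ℝ) - -T) = T := by
        simp
      rw [h1]
      simp
  obtain ⟨α, hα0, hα⟩ := hPL.exists_eq_forall_mem_Icc_hasDerivWithinAt₀
  exact ⟨α, hα0, hα⟩

/-- Two solutions with initial value zero agree on the smaller symmetric interval. -/
theorem odeLocal_unique (f : ℝ → ℝ → ℝ) (K : ℝ)
    (hK : ∀ x y y', |f x y - f x y'| ≤ K * |y - y'|)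
    (T T' : ℝ) (hT : 0 < T) (hTT : T ≤ T') (α β : ℝ → ℝ)
    (hα0 : α 0 = 0)
    (hα : ∀ t ∈ Icc (-T) T, HasDerivWithinAt α (f t (α t)) (Icc (-T) T) t)
    (hβ0 : β 0 = 0)
    (hβ : ∀ t ∈ Icc (-T') T', HasDerivWithinAt β (f t (β t)) (Icc (-T') T') t) :
    EqOn α β (Icc (-T) T) := by
  have hK0 : 0 ≤ K := by
    have h1 := hK 0 0 1
    have h2 : |(0 : ℝ) - 1| = 1 := by norm_num
    rw [h2, mul_one] at h1
    exact le_trans (abs_nonneg _) h1
  have hsub : Icc (-T) T ⊆ Icc (-T') T' := Icc_subset_Icc (by linarith) hTT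
  have hLip : ∀ t ∈ Ioo (-T) T,
      LipschitzOnWith (Real.toNNReal K) (f t) ((fun _ : ℝ => (univ : Set ℝ)) t) := by
    intro t _
    apply LipschitzWith.lipschitzOnWith
    apply LipschitzWith.of_dist_le_mul
    intro y y'
    rw [Real.dist_eq, Real.dist_eq, Real.coe_toNNReal _ hK0]
    exact hK t y y'
  have h0 : (0 : ℝ) ∈ Ioo (-T) T := ⟨by linarith, hT⟩
  refine ODE_solution_unique_of_mem_Icc (v := f) (s := fun _ : ℝ => (univ : Set ℝ))
    (K := Real.toNNReal K) hLip h0 ?_ ?_ (fun _ _ => mem_univ _) ?_ ?_ (fun _ _ => mem_univ _)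
    ?_
  · intro t ht
    exact (hα t ht).continuousWithinAt
  · intro t ht
    exact (hα t (Ioo_subset_Icc_self ht)).hasDerivAt (Icc_mem_nhds ht.1 ht.2)
  · intro t ht
    exact ((hβ t (hsub ht)).continuousWithinAt).mono hsub
  · intro t ht
    have ht' : t ∈ Ioo (-T') T' := ⟨by linarith [ht.1], by linarith [ht.2]⟩
    exact (hβ t (Ioo_subset_Icc_self ht')).hasDerivAt (Icc_mem_nhds ht'.1 ht'.2)
  · rw [hα0, hβ0]

/-- A continuous, bounded right-hand side that is Lipschitz in the unknown has a solution on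
the whole line with initial value zero. -/
theorem ode_exists (f : ℝ → ℝ → ℝ) (hf : Continuous (fun z : ℝ × ℝ => f z.1 z.2))
    (B K : ℝ) (hB : ∀ x y, |f x y| ≤ B) (hK : ∀ x y y', |f x y - f x y'| ≤ K * |y - y'|) :
    ∃ φ : ℝ → ℝ, φ 0 = 0 ∧ ∀ x, HasDerivAt φ (f x (φ x)) x := by
  have hpos : ∀ s : ℝ, 0 < |s| + 1 := fun s => by positivity
  have hex : ∀ s : ℝ, ∃ α : ℝ → ℝ, α 0 = 0 ∧
      ∀ t ∈ Icc (-(|s| + 1)) (|s| + 1),
        HasDerivWithinAt α (f t (α t)) (Icc (-(|s| + 1)) (|s| + 1)) t :=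
    fun s => odeLocal_exists f hf B K hB hK (|s| + 1) (hpos s)
  choose α hα0 hα using hex
  refine ⟨fun t => α t t, hα0 0, ?_⟩
  intro x
  -- the comparison solution
  set S : ℝ := |x| + 1 with hS
  have hSabs : |S| = |x| + 1 := abs_of_pos (hpos x)
  have hxI : x ∈ Ioo (-(|S| + 1)) (|S| + 1) := by
    rw [hSabs]
    constructor
    · linarith [neg_abs_le x]
    · linarith [le_abs_self x]
  have hderS : HasDerivAt (α S) (f x (α S x)) x :=
    (hα S x (Ioo_subset_Icc_self hxI)).hasDerivAt (Icc_mem_nhds hxI.1 hxI.2)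
  have hev : (fun t => α t t) =ᶠ[𝓝 x] α S := by
    have hnh : Ioo (x - 1) (x + 1) ∈ 𝓝 x := Ioo_mem_nhds (by linarith) (by linarith)
    filter_upwards [hnh] with t ht
    have h1 : |t| ≤ |x| + 1 := by
      rw [abs_le]
      constructor
      · linarith [ht.1, neg_abs_le x]
      · linarith [ht.2, le_abs_self x]
    have hTT : |t| + 1 ≤ |S| + 1 := by rw [hSabs]; linarith
    have htI : t ∈ Icc (-(|t| + 1)) (|t| + 1) := by
      constructor
      · linarith [neg_abs_le t]
      · linarith [le_abs_self t]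
    exact odeLocal_unique f K hK (|t| + 1) (|S| + 1) (hpos t) hTT (α t) (α S)
      (hα0 t) (hα t) (hα0 S) (hα S) htI
  have hx : α x x = α S x := hev.eq_of_nhds
  have hfin : HasDerivAt (fun t => α t t) (f x (α S x)) x :=
    hderS.congr_of_eventuallyEq hev
  simpa [hx] using hfin

end Vale.Agent.Lib.P205.KB
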