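import Vale.Agent.Lib.P205.KB.KDefs

/-!
# Bounds for the right-hand side of the profile equation
-/

namespace Vale.Agent.Lib.P205.KB

open Real

/-- The square of `sin * cos` is at most a quarter. -/
theorem kpbAux_sc (φ : ℝ) : (sin φ * cos φ) ^ 2 ≤ 1 / 4 := by
  have h1 := sin_sq_add_cos_sq φ
  have h2 : (sin φ ^ 2 + cos φ ^ 2) ^ 2 = 1 := by rw [h1]; norm_num
  nlinarith [sq_nonneg (sin φ ^ 2 - cos φ ^ 2)]

/-- Bounds for `1 - ε cos^2`. -/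
theorem kpbAux_D {ε : ℝ} (h0 : 0 ≤ ε) (h1 : ε ≤ 1 / 2) (φ : ℝ) :
    1 / 2 ≤ 1 - ε * cos φ ^ 2 ∧ 1 - ε * cos φ ^ 2 ≤ 1 := by
  have hc0 : 0 ≤ cos φ ^ 2 := sq_nonneg _
  have hc1 : cos φ ^ 2 ≤ 1 := cos_sq_le_one φ
  constructor
  · nlinarith [mul_le_mul h1 hc1 hc0 (by norm_num : (0 : ℝ) ≤ 1 / 2)]
  · nlinarith [mul_nonneg h0 hc0]

/-- Bounds for `1 - κ^2 θ^2 (sin cos)^2`. -/
theorem kpbAux_T {κ t : ℝ} (hκ : κ ∈ Set.Icc (0 : ℝ) 1) (ht : |t| ≤ 1) (φ : ℝ) :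
    3 / 4 ≤ 1 - κ ^ 2 * t ^ 2 * (sin φ * cos φ) ^ 2 ∧
      1 - κ ^ 2 * t ^ 2 * (sin φ * cos φ) ^ 2 ≤ 1 := by
  have hq := kpbAux_sc φ
  have hq0 : 0 ≤ (sin φ * cos φ) ^ 2 := sq_nonneg _
  have hk : κ ^ 2 ≤ 1 := by nlinarith [hκ.1, hκ.2]
  have hk0 : 0 ≤ κ ^ 2 := sq_nonneg _
  have ht1 : t ^ 2 ≤ 1 := (sq_le_one_iff_abs_le_one t).2 ht
  have ht0 : 0 ≤ t ^ 2 := sq_nonneg _
  have hkt : κ ^ 2 * t ^ 2 ≤ 1 := by nlinarith
  have hkt0 : 0 ≤ κ ^ 2 * t ^ 2 := mul_nonneg hk0 ht0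
  constructor
  · nlinarith [mul_le_mul hkt hq hq0 (by norm_num : (0 : ℝ) ≤ 1)]
  · nlinarith [mul_nonneg hkt0 hq0]

/-- Bounds for `de^2 (1 - ε)`. -/
theorem kpbAux_de {p ε : ℝ} {e de m θ : ℝ → ℝ} {em eM d mm mM : ℝ}
    (hb : KBounds e de m θ em eM d mm mM) (hg : KGood p ε d mm) (x : ℝ) :
    0 ≤ de x ^ 2 * (1 - ε) ∧ de x ^ 2 * (1 - ε) ≤ p ^ 2 * mm / 16 := by
  have hd0 : 0 ≤ d := (abs_nonneg _).trans (hb.de_le x)
  have h1 : de x ^ 2 ≤ d ^ 2 := by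
    rw [← sq_abs (de x)]
    exact pow_le_pow_left₀ (abs_nonneg _) (hb.de_le x) 2
  have h2 : (4 * d) ^ 2 ≤ (p * sqrt mm) ^ 2 := pow_le_pow_left₀ (by linarith) hg.d_le 2
  have h3 : (p * sqrt mm) ^ 2 = p ^ 2 * mm := by
    rw [mul_pow, Real.sq_sqrt hb.mm_pos.le]
  rw [h3] at h2
  have h4 : 0 ≤ de x ^ 2 := sq_nonneg _
  have h5 := hg.eps_nonneg
  have h6 := hg.eps_le
  constructor
  · exact mul_nonneg h4 (by linarith)
  · nlinarith [mul_nonneg h4 h5]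

/-- Bounds for the cross term `ε de sin cos`. -/
theorem kpbAux_A {p ε : ℝ} {e de m θ : ℝ → ℝ} {em eM d mm mM : ℝ}
    (hb : KBounds e de m θ em eM d mm mM) (hg : KGood p ε d mm) (x φ : ℝ) :
    -(p * sqrt mm / 16) ≤ ε * de x * (sin φ * cos φ) ∧
      ε * de x * (sin φ * cos φ) ≤ p * sqrt mm / 16 := by
  have hq := kpbAux_sc φ
  have hq1 : -(1 / 2) ≤ sin φ * cos φ := by nlinarith
  have hq2 : sin φ * cos φ ≤ 1 / 2 := by nlinarith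
  obtain ⟨hd1, hd2⟩ := abs_le.1 (hb.de_le x)
  have hd0 : 0 ≤ d := (abs_nonneg _).trans (hb.de_le x)
  have u1 : 0 ≤ d - de x := by linarith
  have u2 : 0 ≤ d + de x := by linarith
  have v1 : 0 ≤ 1 / 2 - sin φ * cos φ := by linarith
  have v2 : 0 ≤ 1 / 2 + sin φ * cos φ := by linarith
  have h1 : -(d / 2) ≤ de x * (sin φ * cos φ) := by
    nlinarith [mul_nonneg u1 v1, mul_nonneg u2 v2]
  have h2 : de x * (sin φ * cos φ) ≤ d / 2 := by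
    nlinarith [mul_nonneg u1 v2, mul_nonneg u2 v1]
  have h5 := hg.eps_nonneg
  have h6 := hg.eps_le
  have h7 := hg.d_le
  have h3 : ε * -(d / 2) ≤ ε * (de x * (sin φ * cos φ)) := mul_le_mul_of_nonneg_left h1 h5
  have h4 : ε * (de x * (sin φ * cos φ)) ≤ ε * (d / 2) := mul_le_mul_of_nonneg_left h2 h5
  have h8 : ε * (d / 2) ≤ 1 / 2 * (d / 2) := mul_le_mul_of_nonneg_right h6 (by linarith)
  constructor
  · nlinarith
  · nlinarith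

/-- Lower bound for the quantity under the square root. -/
theorem radK_ge {p ε : ℝ} {e de m θ : ℝ → ℝ} {em eM d mm mM : ℝ}
    (hb : KBounds e de m θ em eM d mm mM) (hg : KGood p ε d mm) {κ : ℝ}
    (hκ : κ ∈ Set.Icc (0 : ℝ) 1) (x φ : ℝ) :
    p ^ 2 * mm / 4 ≤ RadK p ε de m θ κ x φ := by
  obtain ⟨hD1, hD2⟩ := kpbAux_D hg.eps_nonneg hg.eps_le φ
  obtain ⟨hT1, hT2⟩ := kpbAux_T hκ (hb.th_le x) φ
  obtain ⟨hE1, hE2⟩ := kpbAux_de hb hg x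
  have hp2 : 0 ≤ p ^ 2 := sq_nonneg _
  have hm : p ^ 2 * mm ≤ p ^ 2 * m x := mul_le_mul_of_nonneg_left (hb.m_ge x) hp2
  have hpm0 : 0 ≤ p ^ 2 * mm := mul_nonneg hp2 hb.mm_pos.le
  have h1 : 1 / 2 * (p ^ 2 * mm) ≤ (1 - ε * cos φ ^ 2) * (p ^ 2 * m x) :=
    mul_le_mul hD1 hm hpm0 (by linarith)
  have h2 : 1 / 2 * (p ^ 2 * mm) * (3 / 4)
      ≤ (1 - ε * cos φ ^ 2) * (p ^ 2 * m x)
        * (1 - κ ^ 2 * θ x ^ 2 * (sin φ * cos φ) ^ 2) :=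
    mul_le_mul h1 hT1 (by norm_num) (le_trans (by linarith) h1)
  unfold RadK
  linarith

/-- Upper bound for the quantity under the square root. -/
theorem radK_le {p ε : ℝ} {e de m θ : ℝ → ℝ} {em eM d mm mM : ℝ}
    (hb : KBounds e de m θ em eM d mm mM) (hg : KGood p ε d mm) {κ : ℝ}
    (hκ : κ ∈ Set.Icc (0 : ℝ) 1) (x φ : ℝ) :
    RadK p ε de m θ κ x φ ≤ p ^ 2 * mM := by
  obtain ⟨hD1, hD2⟩ := kpbAux_D hg.eps_nonneg hg.eps_le φ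
  obtain ⟨hT1, hT2⟩ := kpbAux_T hκ (hb.th_le x) φ
  obtain ⟨hE1, hE2⟩ := kpbAux_de hb hg x
  have hp2 : 0 ≤ p ^ 2 := sq_nonneg _
  have hm : p ^ 2 * m x ≤ p ^ 2 * mM := mul_le_mul_of_nonneg_left (hb.m_le x) hp2
  have hpm0 : 0 ≤ p ^ 2 * m x := mul_nonneg hp2 (hb.mm_pos.le.trans (hb.m_ge x))
  have h1 : (1 - ε * cos φ ^ 2) * (p ^ 2 * m x) ≤ 1 * (p ^ 2 * mM) :=
    mul_le_mul hD2 hm hpm0 (by norm_num)
  have h2 : (1 - ε * cos φ ^ 2) * (p ^ 2 * m x)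
        * (1 - κ ^ 2 * θ x ^ 2 * (sin φ * cos φ) ^ 2)
      ≤ 1 * (p ^ 2 * mM) * 1 :=
    mul_le_mul h1 hT2 (by linarith) (by linarith)
  unfold RadK
  linarith

/-- Lower bound for the square root. -/
theorem kpbAux_sqrt_ge {p ε : ℝ} {e de m θ : ℝ → ℝ} {em eM d mm mM : ℝ}
    (hb : KBounds e de m θ em eM d mm mM) (hg : KGood p ε d mm) {κ : ℝ}
    (hκ : κ ∈ Set.Icc (0 : ℝ) 1) (x φ : ℝ) :
    p * sqrt mm / 2 ≤ sqrt (RadK p ε de m θ κ x φ) := by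
  apply Real.le_sqrt_of_sq_le
  have h3 : (p * sqrt mm / 2) ^ 2 = p ^ 2 * mm / 4 := by
    rw [div_pow, mul_pow, Real.sq_sqrt hb.mm_pos.le]
    norm_num
  rw [h3]
  exact radK_ge hb hg hκ x φ

/-- Upper bound for the square root. -/
theorem kpbAux_sqrt_le {p ε : ℝ} {e de m θ : ℝ → ℝ} {em eM d mm mM : ℝ}
    (hb : KBounds e de m θ em eM d mm mM) (hg : KGood p ε d mm) {κ : ℝ}
    (hκ : κ ∈ Set.Icc (0 : ℝ) 1) (x φ : ℝ) :
    sqrt (RadK p ε de m θ κ x φ) ≤ p * sqrt mM := by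
  have hmM : 0 ≤ mM := hb.mm_pos.le.trans ((hb.m_ge x).trans (hb.m_le x))
  rw [Real.sqrt_le_iff]
  refine ⟨mul_nonneg hg.p_pos.le (Real.sqrt_nonneg _), ?_⟩
  rw [mul_pow, Real.sq_sqrt hmM]
  exact radK_le hb hg hκ x φ

/-- Lower bound for the right-hand side. -/
theorem phiK_ge {p ε : ℝ} {e de m θ : ℝ → ℝ} {em eM d mm mM : ℝ}
    (hb : KBounds e de m θ em eM d mm mM) (hg : KGood p ε d mm) {κ : ℝ}
    (hκ : κ ∈ Set.Icc (0 : ℝ) 1) (x φ : ℝ) :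
    kV1 p mm eM ≤ PhiK p ε e de m θ κ x φ := by
  obtain ⟨hD1, hD2⟩ := kpbAux_D hg.eps_nonneg hg.eps_le φ
  obtain ⟨hA1, hA2⟩ := kpbAux_A hb hg x φ
  have hs := kpbAux_sqrt_ge hb hg hκ x φ
  have hP : 0 ≤ p * sqrt mm := mul_nonneg hg.p_pos.le (Real.sqrt_nonneg _)
  have hex : 0 < e x := hb.em_pos.trans_le (hb.e_ge x)
  have heM : 0 < eM := hex.trans_le (hb.e_le x)
  have hden : 0 < e x * (1 - ε * cos φ ^ 2) := mul_pos hex (by linarith)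
  have hden2 : e x * (1 - ε * cos φ ^ 2) ≤ eM := by
    calc e x * (1 - ε * cos φ ^ 2) ≤ eM * 1 := mul_le_mul (hb.e_le x) hD2 (by linarith) heM.le
      _ = eM := mul_one _
  have hN : 7 / 16 * (p * sqrt mm)
      ≤ ε * de x * (sin φ * cos φ) + sqrt (RadK p ε de m θ κ x φ) := by linarith
  unfold kV1 PhiK
  rw [div_le_div_iff₀ (by linarith) hden]
  calc p * sqrt mm * (e x * (1 - ε * cos φ ^ 2)) ≤ p * sqrt mm * eM :=
        mul_le_mul_of_nonneg_left hden2 hP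
    _ ≤ (7 / 16 * (p * sqrt mm)) * (4 * eM) := by nlinarith [mul_nonneg hP heM.le]
    _ ≤ (ε * de x * (sin φ * cos φ) + sqrt (RadK p ε de m θ κ x φ)) * (4 * eM) :=
        mul_le_mul_of_nonneg_right hN (by linarith)

/-- Upper bound for the right-hand side. -/
theorem phiK_le {p ε : ℝ} {e de m θ : ℝ → ℝ} {em eM d mm mM : ℝ}
    (hb : KBounds e de m θ em eM d mm mM) (hg : KGood p ε d mm) {κ : ℝ}
    (hκ : κ ∈ Set.Icc (0 : ℝ) 1) (x φ : ℝ) :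
    PhiK p ε e de m θ κ x φ ≤ kV2 p mM em := by
  obtain ⟨hD1, hD2⟩ := kpbAux_D hg.eps_nonneg hg.eps_le φ
  obtain ⟨hA1, hA2⟩ := kpbAux_A hb hg x φ
  have hs := kpbAux_sqrt_le hb hg hκ x φ
  have hQ : 0 ≤ p * sqrt mM := mul_nonneg hg.p_pos.le (Real.sqrt_nonneg _)
  have hPQ : p * sqrt mm ≤ p * sqrt mM :=
    mul_le_mul_of_nonneg_left (Real.sqrt_le_sqrt ((hb.m_ge x).trans (hb.m_le x))) hg.p_pos.le
  have hex : 0 < e x := hb.em_pos.trans_le (hb.e_ge x)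
  have hden : 0 < e x * (1 - ε * cos φ ^ 2) := mul_pos hex (by linarith)
  have hden3 : em / 2 ≤ e x * (1 - ε * cos φ ^ 2) := by
    calc em / 2 = em * (1 / 2) := by ring
      _ ≤ e x * (1 - ε * cos φ ^ 2) := mul_le_mul (hb.e_ge x) hD1 (by norm_num) hex.le
  have hN : ε * de x * (sin φ * cos φ) + sqrt (RadK p ε de m θ κ x φ)
      ≤ 17 / 16 * (p * sqrt mM) := by linarith
  unfold kV2 PhiK
  rw [div_le_div_iff₀ hden hb.em_pos]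
  calc (ε * de x * (sin φ * cos φ) + sqrt (RadK p ε de m θ κ x φ)) * em
      ≤ (17 / 16 * (p * sqrt mM)) * em := mul_le_mul_of_nonneg_right hN hb.em_pos.le
    _ ≤ 4 * p * sqrt mM * (em / 2) := by nlinarith [mul_nonneg hQ hb.em_pos.le]
    _ ≤ 4 * p * sqrt mM * (e x * (1 - ε * cos φ ^ 2)) :=
        mul_le_mul_of_nonneg_left hden3 (by linarith)

/-- The algebraic identity behind the quadratic equation. -/
theorem kpbAux_root (ε ev dv s c r P T : ℝ) (he : ev ≠ 0) (hD : 1 - ε * c ^ 2 ≠ 0)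
    (hsc : s ^ 2 + c ^ 2 = 1)
    (hr : r ^ 2 = (1 - ε * c ^ 2) * P * T - dv ^ 2 * (1 - ε)) :
    ev ^ 2 * (1 - ε * c ^ 2) * ((ε * dv * (s * c) + r) / (ev * (1 - ε * c ^ 2))) ^ 2
      - 2 * ε * ev * dv * (s * c) * ((ε * dv * (s * c) + r) / (ev * (1 - ε * c ^ 2)))
      + dv ^ 2 * (1 - ε * s ^ 2) = P * T := by
  obtain ⟨X, hX⟩ : ∃ X, X = (ε * dv * (s * c) + r) / (ev * (1 - ε * c ^ 2)) := ⟨_, rfl⟩
  have hX' : X * (ev * (1 - ε * c ^ 2)) = ε * dv * (s * c) + r := by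
    rw [hX, div_mul_cancel₀ _ (mul_ne_zero he hD)]
  rw [← hX]
  apply mul_left_cancel₀ hD
  linear_combination (2 * r + (X * (ev * (1 - ε * c ^ 2)) - (ε * dv * (s * c) + r))) * hX'
    + hr - dv ^ 2 * ε * hsc

/-- The right-hand side is a root of the quadratic equation. -/
theorem phiK_root {p ε : ℝ} {e de m θ : ℝ → ℝ} {em eM d mm mM : ℝ}
    (hb : KBounds e de m θ em eM d mm mM) (hg : KGood p ε d mm) {κ : ℝ}
    (hκ : κ ∈ Set.Icc (0 : ℝ) 1) (x φ : ℝ) :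
    e x ^ 2 * (1 - ε * cos φ ^ 2) * PhiK p ε e de m θ κ x φ ^ 2
      - 2 * ε * e x * de x * (sin φ * cos φ) * PhiK p ε e de m θ κ x φ
      + de x ^ 2 * (1 - ε * sin φ ^ 2)
      = p ^ 2 * m x * (1 - κ ^ 2 * θ x ^ 2 * (sin φ * cos φ) ^ 2) := by
  obtain ⟨hD1, hD2⟩ := kpbAux_D hg.eps_nonneg hg.eps_le φ
  have hR : 0 ≤ RadK p ε de m θ κ x φ :=
    le_trans (div_nonneg (mul_nonneg (sq_nonneg p) hb.mm_pos.le) (by norm_num))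
      (radK_ge hb hg hκ x φ)
  have hex : e x ≠ 0 := (hb.em_pos.trans_le (hb.e_ge x)).ne'
  have hD : 1 - ε * cos φ ^ 2 ≠ 0 := (by linarith : (0 : ℝ) < 1 - ε * cos φ ^ 2).ne'
  have hr : sqrt (RadK p ε de m θ κ x φ) ^ 2 = RadK p ε de m θ κ x φ := Real.sq_sqrt hR
  obtain ⟨r, hrdef⟩ : ∃ r, r = sqrt (RadK p ε de m θ κ x φ) := ⟨_, rfl⟩
  unfold PhiK
  rw [← hrdef] at hr ⊢
  unfold RadK at hr
  exact kpbAux_root ε (e x) (de x) (sin φ) (cos φ) r (p ^ 2 * m x)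
    (1 - κ ^ 2 * θ x ^ 2 * (sin φ * cos φ) ^ 2) hex hD (sin_sq_add_cos_sq φ) hr

end Vale.Agent.Lib.P205.KB
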