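import Vale.Agent.Lib.P205.KB.KPhiBounds

/-!
# The two profile equations for the amplitudes built from the angle
-/

namespace Vale.Agent.Lib.P205.KB

open Real

/-- The amplitudes `u = (e / p) cos φ`, `v = (e / q) sin φ` with `p = 2 N`, `q = 2 N + 1`
satisfy `p^2 u^2 + q^2 v^2 = e^2`. -/
theorem profile_eq_one (N : ℕ) (hN : 1 ≤ N) (e φ : ℝ → ℝ) (x : ℝ) :
    (2 * (N : ℝ)) ^ 2 * (e x / (2 * (N : ℝ)) * cos (φ x)) ^ 2 +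
      (2 * (N : ℝ) + 1) ^ 2 * (e x / (2 * (N : ℝ) + 1) * sin (φ x)) ^ 2 = e x ^ 2 := by
  have hNr : (1 : ℝ) ≤ (N : ℝ) := by exact_mod_cast hN
  have hp : (2 * (N : ℝ)) ≠ 0 := by
    have h0 : (0 : ℝ) < 2 * (N : ℝ) := by linarith
    exact h0.ne'
  have hq : (2 * (N : ℝ) + 1) ≠ 0 := by
    have h0 : (0 : ℝ) < 2 * (N : ℝ) + 1 := by linarith
    exact h0.ne'
  have h1 : 2 * (N : ℝ) * (e x / (2 * (N : ℝ))) = e x := mul_div_cancel₀ (e x) hp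
  have h2 : (2 * (N : ℝ) + 1) * (e x / (2 * (N : ℝ) + 1)) = e x := mul_div_cancel₀ (e x) hq
  calc (2 * (N : ℝ)) ^ 2 * (e x / (2 * (N : ℝ)) * cos (φ x)) ^ 2 +
        (2 * (N : ℝ) + 1) ^ 2 * (e x / (2 * (N : ℝ) + 1) * sin (φ x)) ^ 2
      = (2 * (N : ℝ) * (e x / (2 * (N : ℝ)))) ^ 2 * cos (φ x) ^ 2 +
        ((2 * (N : ℝ) + 1) * (e x / (2 * (N : ℝ) + 1))) ^ 2 * sin (φ x) ^ 2 := by ring
    _ = e x ^ 2 * cos (φ x) ^ 2 + e x ^ 2 * sin (φ x) ^ 2 := by rw [h1, h2]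
    _ = e x ^ 2 := by linear_combination e x ^ 2 * Real.cos_sq_add_sin_sq (φ x)

/-- The algebraic core of the second profile equation. -/
theorem profile_eq_two_alg {p q ε ex dx mx tx κ r s c X : ℝ} (hp : p ≠ 0) (hq : q ≠ 0)
    (hex : ex ≠ 0) (hε : ε = 1 - p ^ 2 / q ^ 2) (hr : r ^ 2 = mx) (hsc : s ^ 2 + c ^ 2 = 1)
    (H : ex ^ 2 * (1 - ε * c ^ 2) * X ^ 2 - 2 * ε * ex * dx * (s * c) * X
      + dx ^ 2 * (1 - ε * s ^ 2) = p ^ 2 * mx * (1 - κ ^ 2 * tx ^ 2 * (s * c) ^ 2)) :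
    (dx / p * c + ex / p * (-s * X)) ^ 2 + (dx / q * s + ex / q * (c * X)) ^ 2 +
      ex ^ 2 * ((ex / p * c) ^ 2 * (ex / q * s) ^ 2 * (κ * tx * r * p * q / ex ^ 3) ^ 2)
      = mx := by
  have e1 : p ^ 2 * (dx / p * c + ex / p * (-s * X)) ^ 2 = (dx * c - ex * s * X) ^ 2 := by
    field_simp
    ring
  have e2 : p ^ 2 * (dx / q * s + ex / q * (c * X)) ^ 2
      = (1 - ε) * (dx * s + ex * c * X) ^ 2 := by
    rw [hε]
    field_simp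
    ring
  have e3 : ex ^ 2 * ((ex / p * c) ^ 2 * (ex / q * s) ^ 2 * (κ * tx * r * p * q / ex ^ 3) ^ 2)
      = κ ^ 2 * tx ^ 2 * r ^ 2 * (s * c) ^ 2 := by
    field_simp
  have hmain : p ^ 2 * ((dx / p * c + ex / p * (-s * X)) ^ 2
      + (dx / q * s + ex / q * (c * X)) ^ 2)
      = p ^ 2 * (mx * (1 - κ ^ 2 * tx ^ 2 * (s * c) ^ 2)) := by
    linear_combination e1 + e2 + H + (dx ^ 2 + ex ^ 2 * X ^ 2) * hsc
  have hmain' := mul_left_cancel₀ (pow_ne_zero 2 hp) hmain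
  rw [e3, hmain', hr]
  ring

/-- If the angle `φ` solves the profile equation, the amplitudes `u = (e / p) cos φ`,
`v = (e / q) sin φ` and the twist function `ρ = κ θ sqrt m p q / e^3` satisfy
`u'^2 + v'^2 + e^2 u^2 v^2 ρ^2 = m`. -/
theorem profile_eq_two (N : ℕ) (hN : 1 ≤ N) (e de m θ : ℝ → ℝ) (em eM d mm mM : ℝ)
    (hb : KBounds e de m θ em eM d mm mM)
    (hg : KGood (2 * (N : ℝ)) (1 - (2 * (N : ℝ)) ^ 2 / (2 * (N : ℝ) + 1) ^ 2) d mm)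
    (κ : ℝ) (hκ : κ ∈ Set.Icc (0 : ℝ) 1) (he : ∀ x, HasDerivAt e (de x) x) (φ : ℝ → ℝ)
    (hφ : ∀ x, HasDerivAt φ (PhiK (2 * (N : ℝ)) (1 - (2 * (N : ℝ)) ^ 2 / (2 * (N : ℝ) + 1) ^ 2)
      e de m θ κ x (φ x)) x) (x : ℝ) :
    deriv (fun t => e t / (2 * (N : ℝ)) * cos (φ t)) x ^ 2 +
      deriv (fun t => e t / (2 * (N : ℝ) + 1) * sin (φ t)) x ^ 2 +
      e x ^ 2 * ((e x / (2 * (N : ℝ)) * cos (φ x)) ^ 2 *
        (e x / (2 * (N : ℝ) + 1) * sin (φ x)) ^ 2 *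
        (κ * θ x * sqrt (m x) * (2 * (N : ℝ)) * (2 * (N : ℝ) + 1) / e x ^ 3) ^ 2) = m x := by
  have hNr : (1 : ℝ) ≤ (N : ℝ) := by exact_mod_cast hN
  obtain ⟨q, hqdef⟩ : ∃ q : ℝ, q = 2 * (N : ℝ) + 1 := ⟨_, rfl⟩
  obtain ⟨p, hpdef⟩ : ∃ p : ℝ, p = 2 * (N : ℝ) := ⟨_, rfl⟩
  rw [← hqdef, ← hpdef] at hg hφ ⊢
  have hp : 0 < p := by
    rw [hpdef]
    linarith
  have hq : 0 < q := by
    rw [hqdef]
    linarith
  obtain ⟨ε, hε⟩ : ∃ ε : ℝ, ε = 1 - p ^ 2 / q ^ 2 := ⟨_, rfl⟩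
  rw [← hε] at hg hφ
  have H := phiK_root hb hg hκ x (φ x)
  have hu : HasDerivAt (fun t => e t / p * cos (φ t))
      (de x / p * cos (φ x) + e x / p * (-sin (φ x) * PhiK p ε e de m θ κ x (φ x))) x :=
    ((he x).div_const p).mul ((hφ x).cos)
  have hv : HasDerivAt (fun t => e t / q * sin (φ t))
      (de x / q * sin (φ x) + e x / q * (cos (φ x) * PhiK p ε e de m θ κ x (φ x))) x :=
    ((he x).div_const q).mul ((hφ x).sin)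
  rw [hu.deriv, hv.deriv]
  have hex : e x ≠ 0 := (lt_of_lt_of_le hb.em_pos (hb.e_ge x)).ne'
  have hm0 : 0 ≤ m x := (hb.mm_pos.le).trans (hb.m_ge x)
  exact profile_eq_two_alg hp.ne' hq.ne' hex hε (Real.sq_sqrt hm0)
    (Real.sin_sq_add_cos_sq (φ x)) H

end Vale.Agent.Lib.P205.KB
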