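import Vale.Agent.Lib.P205.KB.KAngle
import Vale.Agent.Lib.P205.KB.KData
import Vale.Agent.Lib.P205.KB.KDataBounds
import Vale.Agent.Lib.P205.KB.KProfileEq

/-!
# Existence of the amplitudes and the twist function
-/

namespace Vale.Agent.Lib.P205.KB

open scoped ContDiff
open Real

/-- For every smooth invariant metric on the Klein bottle there are a weight `N`, smooth
`a`-periodic amplitudes `u` (even), `v` (odd) and a smooth `a`-periodic odd twist function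
`ρ` that satisfy the two profile equations. -/
theorem klein_profile_exists (a b : ℝ) (ha : 0 < a) (hb : 0 < b) (E F G : ℝ → ℝ)
    (hE : ContDiff ℝ ∞ E) (hF : ContDiff ℝ ∞ F) (hG : ContDiff ℝ ∞ G)
    (hGpos : ∀ x, 0 < G x) (hdet : ∀ x, 0 < E x * G x - F x ^ 2)
    (hEper : ∀ x, E (x + a) = E x) (hFper : ∀ x, F (x + a) = F x)
    (hGper : ∀ x, G (x + a) = G x)
    (hEev : ∀ x, E (-x) = E x) (hFodd : ∀ x, F (-x) = -F x) (hGev : ∀ x, G (-x) = G x) :
    ∃ (N : ℕ) (u v ρ : ℝ → ℝ), ContDiff ℝ ∞ u ∧ ContDiff ℝ ∞ v ∧ ContDiff ℝ ∞ ρ ∧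
      (∀ x, u (x + a) = u x) ∧ (∀ x, v (x + a) = v x) ∧ (∀ x, ρ (x + a) = ρ x) ∧
      (∀ x, u (-x) = u x) ∧ (∀ x, v (-x) = -v x) ∧ (∀ x, ρ (-x) = -ρ x) ∧
      (∀ x, (π / b) ^ 2 * ((2 * (N : ℝ)) ^ 2 * u x ^ 2 + (2 * (N : ℝ) + 1) ^ 2 * v x ^ 2)
        = G x) ∧
      (∀ x, deriv u x ^ 2 + deriv v x ^ 2 +
        G x / (π / b) ^ 2 * (u x ^ 2 * v x ^ 2 * ρ x ^ 2) = E x - F x ^ 2 / G x) := by
  have hpb : π / b ≠ 0 := div_ne_zero Real.pi_ne_zero hb.ne'
  have hes : ContDiff ℝ ∞ (kE b G) := kE_smooth b G hG hGpos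
  have hdes : ContDiff ℝ ∞ (deriv (kE b G)) := kE_deriv_smooth b G hG hGpos
  have hms : ContDiff ℝ ∞ (kM E F G) := kM_smooth E F G hE hF hG hGpos
  have hths : ContDiff ℝ ∞ (kTh a) := kTh_smooth a
  have hepos : ∀ x, 0 < kE b G x := kE_pos b hb G hGpos
  have hmpos : ∀ x, 0 < kM E F G x := kM_pos E F G hGpos hdet
  have hee : ∀ x, kE b G (-x) = kE b G x := kE_even b G hGev
  have hep : ∀ x, kE b G (x + a) = kE b G x := kE_per a b G hGper
  have hme : ∀ x, kM E F G (-x) = kM E F G x := kM_even E F G hEev hFodd hGev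
  have hmp : ∀ x, kM E F G (x + a) = kM E F G x := kM_per a E F G hEper hFper hGper
  have hto : ∀ x, kTh a (-x) = -kTh a x := kTh_odd a
  have htp : ∀ x, kTh a (x + a) = kTh a x := kTh_per a ha
  obtain ⟨em, eM, d, mm, mM, hbd⟩ :=
    kbounds_exist a ha (kE b G) (deriv (kE b G)) (kM E F G) (kTh a)
      hes.continuous hdes.continuous hms.continuous hep (kE_deriv_per a b G hGper) hmp
      hepos hmpos (kTh_abs_le a)
  obtain ⟨N, hN, hg, κ, hκ, n, φ, hφs, hφ, hodd, hper⟩ :=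
    klein_angle_exists a ha (kE b G) (deriv (kE b G)) (kM E F G) (kTh a)
      hes hdes hms hths hee (kE_deriv_odd b G hGev) hme hto
      hep (kE_deriv_per a b G hGper) hmp htp (kTh_sq_ge a ha) em eM d mm mM hbd
  have hN1 : 1 ≤ N := by omega
  have hcosp : ∀ x, cos (φ (x + a)) = cos (φ x) := by
    intro x
    rw [hper x, show φ x + 2 * π * (n : ℝ) = φ x + (n : ℝ) * (2 * π) by ring]
    exact Real.cos_add_int_mul_two_pi (φ x) n
  have hsinp : ∀ x, sin (φ (x + a)) = sin (φ x) := by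
    intro x
    rw [hper x, show φ x + 2 * π * (n : ℝ) = φ x + (n : ℝ) * (2 * π) by ring]
    exact Real.sin_add_int_mul_two_pi (φ x) n
  refine ⟨N, fun x => kE b G x / (2 * (N : ℝ)) * cos (φ x),
    fun x => kE b G x / (2 * (N : ℝ) + 1) * sin (φ x),
    fun x => κ * kTh a x * sqrt (kM E F G x) * (2 * (N : ℝ)) * (2 * (N : ℝ) + 1) /
      kE b G x ^ 3, ?_, ?_, ?_, ?_, ?_, ?_, ?_, ?_, ?_, ?_, ?_⟩
  · exact (hes.div_const _).mul (Real.contDiff_cos.comp hφs)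
  · exact (hes.div_const _).mul (Real.contDiff_sin.comp hφs)
  · refine ContDiff.div ?_ (hes.pow 3) (fun x => pow_ne_zero 3 (hepos x).ne')
    exact (((contDiff_const.mul hths).mul (hms.sqrt (fun x => (hmpos x).ne'))).mul
      contDiff_const).mul contDiff_const
  · intro x
    show kE b G (x + a) / (2 * (N : ℝ)) * cos (φ (x + a)) =
      kE b G x / (2 * (N : ℝ)) * cos (φ x)
    rw [hep x, hcosp x]
  · intro x
    show kE b G (x + a) / (2 * (N : ℝ) + 1) * sin (φ (x + a)) =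
      kE b G x / (2 * (N : ℝ) + 1) * sin (φ x)
    rw [hep x, hsinp x]
  · intro x
    show κ * kTh a (x + a) * sqrt (kM E F G (x + a)) * (2 * (N : ℝ)) * (2 * (N : ℝ) + 1) /
        kE b G (x + a) ^ 3 =
      κ * kTh a x * sqrt (kM E F G x) * (2 * (N : ℝ)) * (2 * (N : ℝ) + 1) / kE b G x ^ 3
    rw [hep x, hmp x, htp x]
  · intro x
    show kE b G (-x) / (2 * (N : ℝ)) * cos (φ (-x)) =
      kE b G x / (2 * (N : ℝ)) * cos (φ x)
    rw [hee x, hodd x, Real.cos_neg]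
  · intro x
    show kE b G (-x) / (2 * (N : ℝ) + 1) * sin (φ (-x)) =
      -(kE b G x / (2 * (N : ℝ) + 1) * sin (φ x))
    rw [hee x, hodd x, Real.sin_neg]
    ring
  · intro x
    show κ * kTh a (-x) * sqrt (kM E F G (-x)) * (2 * (N : ℝ)) * (2 * (N : ℝ) + 1) /
        kE b G (-x) ^ 3 =
      -(κ * kTh a x * sqrt (kM E F G x) * (2 * (N : ℝ)) * (2 * (N : ℝ) + 1) / kE b G x ^ 3)
    rw [hee x, hme x, hto x]
    ring
  · intro x
    show (π / b) ^ 2 * ((2 * (N : ℝ)) ^ 2 * (kE b G x / (2 * (N : ℝ)) * cos (φ x)) ^ 2 +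
      (2 * (N : ℝ) + 1) ^ 2 * (kE b G x / (2 * (N : ℝ) + 1) * sin (φ x)) ^ 2) = G x
    rw [profile_eq_one N hN1 (kE b G) φ x, kE_sq b G hGpos x]
    field_simp
  · intro x
    have h2 := profile_eq_two N hN1 (kE b G) (deriv (kE b G)) (kM E F G) (kTh a)
      em eM d mm mM hbd hg κ hκ (kE_hasDerivAt b G hG hGpos) φ hφ x
    show deriv (fun t => kE b G t / (2 * (N : ℝ)) * cos (φ t)) x ^ 2 +
      deriv (fun t => kE b G t / (2 * (N : ℝ) + 1) * sin (φ t)) x ^ 2 +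
      G x / (π / b) ^ 2 * ((kE b G x / (2 * (N : ℝ)) * cos (φ x)) ^ 2 *
        (kE b G x / (2 * (N : ℝ) + 1) * sin (φ x)) ^ 2 *
        (κ * kTh a x * sqrt (kM E F G x) * (2 * (N : ℝ)) * (2 * (N : ℝ) + 1) /
          kE b G x ^ 3) ^ 2) = E x - F x ^ 2 / G x
    rw [← kE_sq b G hGpos x]
    exact h2

end Vale.Agent.Lib.P205.KB
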